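import Vale.Agent.H17.P154.Fam

/-!
# The abstract scheme (P154)

A functional `φ` and a list of invariants `γ` such that, on the class of symmetric families with
nonnegative invariants, `φ` contracts by `λ²` through the channel and is subadditive (with a gain)
under merging.
-/

namespace Vale.Agent.H17.P154

open Finset

/-- the sum of a functional over a family. -/
noncomputable def tot {X : Type} [Fintype X] {q : ℕ} (φ : (Fin q → ℝ) → ℝ) (v : X → Fin q → ℝ) :
    ℝ :=
  ∑ x, φ (v x)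

/-- all invariants are nonnegative. -/
def Inv {X : Type} [Fintype X] {q : ℕ} {J : Type} (γ : J → (Fin q → ℝ) → ℝ) (v : X → Fin q → ℝ) :
    Prop :=
  ∀ j, 0 ≤ tot (γ j) v

/-- the scheme: `φV, γV` live on vertex families, `φM, γM` on (partially merged) messages. -/
structure Scheme (q : ℕ) (lam c : ℝ) {J K : Type} (φV φM : (Fin q → ℝ) → ℝ)
    (γV : J → (Fin q → ℝ) → ℝ) (γM : K → (Fin q → ℝ) → ℝ) : Prop where
  posV : ∀ u : Fin q → ℝ, (∀ i, 0 ≤ u i) → 0 ≤ φV u
  posM : ∀ u : Fin q → ℝ, (∀ i, 0 ≤ u i) → 0 ≤ φM u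
  oneM : φM (fun _ => 1) = 0
  oneG : ∀ k, 0 ≤ γM k (fun _ => 1)
  base : Inv γV (fun (x : Fin q) (i : Fin q) => if x = i then (1 : ℝ) else 0)
  chanG : ∀ {X : Type} [Fintype X] (v : X → Fin q → ℝ), Fam v → Inv γV v →
    Inv γM (fun x => msg q lam (v x))
  chanF : ∀ {X : Type} [Fintype X] (v : X → Fin q → ℝ), Fam v → Inv γV v →
    tot φM (fun x => msg q lam (v x)) ≤ lam ^ 2 * tot φV v
  mergeG : ∀ {X Y : Type} [Fintype X] [Fintype Y] (u : X → Fin q → ℝ) (v : Y → Fin q → ℝ),
    Fam u → Fam v → Inv γM u → Inv γM v →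
    Inv γM (fun z : X × Y => fun i => u z.1 i * v z.2 i)
  mergeF : ∀ {X Y : Type} [Fintype X] [Fintype Y] (u : X → Fin q → ℝ) (v : Y → Fin q → ℝ),
    Fam u → Fam v → Inv γM u → Inv γM v →
    tot φM (fun z : X × Y => fun i => u z.1 i * v z.2 i) +
        c * (tot φM u ^ 2 * tot φM v) ≤ tot φM u + tot φM v
  vertG : ∀ {X : Type} [Fintype X] (v : X → Fin q → ℝ), Fam v → Inv γM v → Inv γV v
  vertF : ∀ {X : Type} [Fintype X] (v : X → Fin q → ℝ), Fam v → Inv γM v →
    tot φV v ≤ tot φM v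

section
variable {q : ℕ}

theorem tot_nonneg {X : Type} [Fintype X] {φ : (Fin q → ℝ) → ℝ}
    (h : ∀ u : Fin q → ℝ, (∀ i, 0 ≤ u i) → 0 ≤ φ u) {v : X → Fin q → ℝ}
    (hv : ∀ x i, 0 ≤ v x i) : 0 ≤ tot φ v :=
  Finset.sum_nonneg fun x _ => h _ (hv x)

theorem tot_cons (φ : (Fin q → ℝ) → ℝ) {k : ℕ} (X : Fin (k + 1) → Type) [∀ c, Fintype (X c)]
    (v : ∀ c, X c → Fin q → ℝ) :
    tot φ (fun x : ∀ c, X c => fun i => ∏ c, v c (x c) i) =
      tot φ (fun z : (∀ c : Fin k, X c.succ) × X 0 => fun i =>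
        (∏ c : Fin k, v c.succ (z.1 c) i) * v 0 z.2 i) := by
  unfold tot
  rw [← Equiv.sum_comp (Fin.consEquiv X), Fintype.sum_prod_type, Fintype.sum_prod_type,
    Finset.sum_comm]
  refine Finset.sum_congr rfl fun x _ => Finset.sum_congr rfl fun y _ => ?_
  congr 1
  funext i
  change (∏ c, v c ((Fin.consEquiv X) (y, x) c) i) = (∏ c : Fin k, v c.succ (x c) i) * v 0 y i
  rw [Fin.prod_univ_succ, mul_comm]
  rfl

theorem inv_cons {K : Type} (γ : K → (Fin q → ℝ) → ℝ) {k : ℕ} (X : Fin (k + 1) → Type)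
    [∀ c, Fintype (X c)] (v : ∀ c, X c → Fin q → ℝ)
    (h : Inv γ (fun z : (∀ c : Fin k, X c.succ) × X 0 => fun i =>
        (∏ c : Fin k, v c.succ (z.1 c) i) * v 0 z.2 i)) :
    Inv γ (fun x : ∀ c, X c => fun i => ∏ c, v c (x c) i) := by
  intro j
  rw [tot_cons]
  exact h j

theorem tot_one (φ : (Fin q → ℝ) → ℝ) (X : Fin 1 → Type) [∀ c, Fintype (X c)]
    (v : ∀ c, X c → Fin q → ℝ) :
    tot φ (fun x : ∀ c, X c => fun i => ∏ c, v c (x c) i) = tot φ (v 0) := by
  refine Fintype.sum_equiv (Equiv.piUnique (fun c : Fin 1 => X c)) _ _ fun x => ?_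
  congr 1
  funext i
  simp

variable {lam c : ℝ} {J K : Type} {φV φM : (Fin q → ℝ) → ℝ}
  {γV : J → (Fin q → ℝ) → ℝ} {γM : K → (Fin q → ℝ) → ℝ}

theorem Scheme.pi_inv (S : Scheme q lam c φV φM γV γM) :
    ∀ (k : ℕ) (X : Fin k → Type) [∀ c, Fintype (X c)] (v : ∀ c, X c → Fin q → ℝ)
      (_ : ∀ c, Fam (v c)) (_ : ∀ c, Inv γM (v c)),
      Inv γM (fun x : ∀ c, X c => fun i => ∏ c, v c (x c) i) := by
  intro k
  induction k with
  | zero =>
    intro X _ v hv hi j
    have h := S.oneG j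
    simpa [tot] using h
  | succ k ih =>
    intro X _ v hv hi
    exact inv_cons γM X v (S.mergeG _ _ (Fam.pi fun c => hv c.succ) (hv 0)
      (ih (fun c => X c.succ) (fun c => v c.succ) (fun c => hv c.succ) (fun c => hi c.succ))
      (hi 0))

theorem Scheme.pi_le (S : Scheme q lam c φV φM γV γM) (hc : 0 ≤ c) :
    ∀ (k : ℕ) (X : Fin k → Type) [∀ c, Fintype (X c)] (v : ∀ c, X c → Fin q → ℝ)
      (_ : ∀ c, Fam (v c)) (_ : ∀ c, Inv γM (v c)),
      tot φM (fun x : ∀ c, X c => fun i => ∏ c, v c (x c) i) ≤ ∑ c, tot φM (v c) := by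
  intro k
  induction k with
  | zero =>
    intro X _ v hv hi
    simp [tot, S.oneM]
  | succ k ih =>
    intro X _ v hv hi
    have hF : Fam (fun x : ∀ c : Fin k, X c.succ => fun i => ∏ c : Fin k, v c.succ (x c) i) :=
      Fam.pi fun c => hv c.succ
    have h1 := S.mergeF _ _ hF (hv 0)
      (S.pi_inv k (fun c => X c.succ) (fun c => v c.succ) (fun c => hv c.succ)
        (fun c => hi c.succ)) (hi 0)
    have h2 := ih (fun c => X c.succ) (fun c => v c.succ) (fun c => hv c.succ)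
      (fun c => hi c.succ)
    rw [tot_cons, Fin.sum_univ_succ]
    have h3 : 0 ≤ tot φM (fun x : ∀ c : Fin k, X c.succ => fun i =>
      ∏ c : Fin k, v c.succ (x c) i) ^ 2 * tot φM (v 0) :=
      mul_nonneg (sq_nonneg _) (tot_nonneg S.posM (hv 0).nonneg)
    have h4 := mul_nonneg hc h3
    linarith

theorem Scheme.pi_gain (S : Scheme q lam c φV φM γV γM) (hc : 0 ≤ c) :
    ∀ (k : ℕ) (X : Fin (k + 2) → Type) [∀ c, Fintype (X c)] (v : ∀ c, X c → Fin q → ℝ)
      (_ : ∀ c, Fam (v c)) (_ : ∀ c, Inv γM (v c)),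
      tot φM (fun x : ∀ c, X c => fun i => ∏ c, v c (x c) i) +
          c * (tot φM (v (Fin.last (k + 1))) ^ 2 * tot φM (v (Fin.castSucc (Fin.last k)))) ≤
        ∑ c, tot φM (v c) := by
  intro k
  induction k with
  | zero =>
    intro X _ v hv hi
    have hF : Fam (fun x : ∀ c : Fin 1, X c.succ => fun i => ∏ c : Fin 1, v c.succ (x c) i) :=
      Fam.pi fun c => hv c.succ
    have h1 := S.mergeF _ _ hF (hv 0)
      (S.pi_inv 1 (fun c => X c.succ) (fun c => v c.succ) (fun c => hv c.succ)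
        (fun c => hi c.succ)) (hi 0)
    rw [tot_one φM (fun c : Fin 1 => X c.succ) (fun c => v c.succ)] at h1
    rw [tot_cons, Fin.sum_univ_succ, Fin.sum_univ_succ]
    simp only [univ_eq_empty, sum_empty, add_zero]
    have e1 : tot φM (v (Fin.last (0 + 1))) = tot φM (v (Fin.succ 0)) := rfl
    have e2 : tot φM (v (Fin.castSucc (Fin.last 0))) = tot φM (v 0) := rfl
    rw [e1, e2]
    linarith
  | succ k ih =>
    intro X _ v hv hi
    have hF : Fam (fun x : ∀ c : Fin (k + 2), X c.succ => fun i =>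
        ∏ c : Fin (k + 2), v c.succ (x c) i) := Fam.pi fun c => hv c.succ
    have h1 := S.mergeF _ _ hF (hv 0)
      (S.pi_inv (k + 2) (fun c => X c.succ) (fun c => v c.succ) (fun c => hv c.succ)
        (fun c => hi c.succ)) (hi 0)
    have h2 := ih (fun c => X c.succ) (fun c => v c.succ) (fun c => hv c.succ)
      (fun c => hi c.succ)
    rw [tot_cons, Fin.sum_univ_succ]
    have h3 : 0 ≤ tot φM (fun x : ∀ c : Fin (k + 2), X c.succ => fun i =>
      ∏ c : Fin (k + 2), v c.succ (x c) i) ^ 2 * tot φM (v 0) :=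
      mul_nonneg (sq_nonneg _) (tot_nonneg S.posM (hv 0).nonneg)
    have h4 := mul_nonneg hc h3
    have e1 : tot φM (v (Fin.last (k + 1 + 1))) = tot φM (v (Fin.succ (Fin.last (k + 1)))) := rfl
    have e2 : tot φM (v (Fin.castSucc (Fin.last (k + 1)))) =
      tot φM (v (Fin.succ (Fin.castSucc (Fin.last k)))) := rfl
    rw [e1, e2]
    linarith

end

/-- the tree with the given subtrees at the root. -/
def RTree.node {n : ℕ} (k : ℕ) (f : Fin k → RTree n) : RTree (n + 1) := ⟨k, f⟩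

section tree
variable {q : ℕ} (lam : ℝ)

/-- the functional of the posterior of the root. -/
noncomputable def totV (φ : (Fin q → ℝ) → ℝ) (n : ℕ) (t : RTree n) : ℝ :=
  tot φ (fun (x : Conf q n t) (i : Fin q) => law q lam n t i x)

/-- the functional of the message sent by the root. -/
noncomputable def totM (φ : (Fin q → ℝ) → ℝ) (n : ℕ) (t : RTree n) : ℝ :=
  tot φ (fun (x : Conf q n t) => msg q lam (fun i : Fin q => law q lam n t i x))

variable {lam} {c : ℝ} {J K : Type} {φV φM : (Fin q → ℝ) → ℝ}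
  {γV : J → (Fin q → ℝ) → ℝ} {γM : K → (Fin q → ℝ) → ℝ}

theorem Scheme.inv (S : Scheme q lam c φV φM γV γM) (hq : 0 < q)
    (hP : ∀ i j : Fin q, 0 ≤ potts q lam i j) :
    ∀ (n : ℕ) (t : RTree n),
      Inv γV (fun (x : Conf q n t) (i : Fin q) => law q lam n t i x)
  | 0, _ => S.base
  | n + 1, t => by
    refine S.vertG _ (law_fam hq hP (n + 1) t) ?_
    exact S.pi_inv t.1 (fun c => Conf q n (t.2 c))
      (fun c x => msg q lam (fun i => law q lam n (t.2 c) i x))
      (fun c => (law_fam hq hP n (t.2 c)).msg hq hP)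
      (fun c => S.chanG _ (law_fam hq hP n (t.2 c)) (Scheme.inv S hq hP n (t.2 c)))

theorem Scheme.invM (S : Scheme q lam c φV φM γV γM) (hq : 0 < q)
    (hP : ∀ i j : Fin q, 0 ≤ potts q lam i j) (n : ℕ) (t : RTree n) :
    Inv γM (fun (x : Conf q n t) => msg q lam (fun i : Fin q => law q lam n t i x)) :=
  S.chanG _ (law_fam hq hP n t) (S.inv hq hP n t)

theorem Scheme.totM_le (S : Scheme q lam c φV φM γV γM) (hq : 0 < q)
    (hP : ∀ i j : Fin q, 0 ≤ potts q lam i j) (n : ℕ) (t : RTree n) :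
    totM lam φM n t ≤ lam ^ 2 * totV lam φV n t :=
  S.chanF _ (law_fam hq hP n t) (S.inv hq hP n t)

theorem Scheme.totV_nonneg (S : Scheme q lam c φV φM γV γM) (hq : 0 < q)
    (hP : ∀ i j : Fin q, 0 ≤ potts q lam i j) (n : ℕ) (t : RTree n) :
    0 ≤ totV lam φV n t :=
  tot_nonneg S.posV (law_fam hq hP n t).nonneg

theorem Scheme.totM_nonneg (S : Scheme q lam c φV φM γV γM) (hq : 0 < q)
    (hP : ∀ i j : Fin q, 0 ≤ potts q lam i j) (n : ℕ) (t : RTree n) :
    0 ≤ totM lam φM n t :=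
  tot_nonneg S.posM ((law_fam hq hP n t).msg hq hP).nonneg

/-- one step of the recursion. -/
theorem Scheme.totV_succ_le (S : Scheme q lam c φV φM γV γM) (hc : 0 ≤ c) (hq : 0 < q)
    (hP : ∀ i j : Fin q, 0 ≤ potts q lam i j) (n k : ℕ) (f : Fin k → RTree n) :
    totV lam φV (n + 1) (RTree.node k f) ≤ ∑ c, totM lam φM n (f c) := by
  have hF := law_fam hq hP (n + 1) (RTree.node k f)
  have hI : Inv γM (fun (x : Conf q (n + 1) (RTree.node k f)) (i : Fin q) =>
      law q lam (n + 1) (RTree.node k f) i x) :=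
    S.pi_inv k (fun c => Conf q n (f c))
      (fun c x => msg q lam (fun i => law q lam n (f c) i x))
      (fun c => (law_fam hq hP n (f c)).msg hq hP) (fun c => S.invM hq hP n (f c))
  refine (S.vertF _ hF hI).trans ?_
  exact S.pi_le hc k (fun c => Conf q n (f c))
      (fun c x => msg q lam (fun i => law q lam n (f c) i x))
      (fun c => (law_fam hq hP n (f c)).msg hq hP) (fun c => S.invM hq hP n (f c))

/-- one step of the recursion, with the gain. -/
theorem Scheme.totV_succ_gain (S : Scheme q lam c φV φM γV γM) (hc : 0 ≤ c) (hq : 0 < q)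
    (hP : ∀ i j : Fin q, 0 ≤ potts q lam i j) (n k : ℕ) (f : Fin (k + 2) → RTree n) :
    totV lam φV (n + 1) (RTree.node (k + 2) f) +
        c * (totM lam φM n (f (Fin.last (k + 1))) ^ 2 *
          totM lam φM n (f (Fin.castSucc (Fin.last k)))) ≤
      ∑ c, totM lam φM n (f c) := by
  have hF := law_fam hq hP (n + 1) (RTree.node (k + 2) f)
  have hI : Inv γM (fun (x : Conf q (n + 1) (RTree.node (k + 2) f)) (i : Fin q) =>
      law q lam (n + 1) (RTree.node (k + 2) f) i x) :=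
    S.pi_inv (k + 2) (fun c => Conf q n (f c))
      (fun c x => msg q lam (fun i => law q lam n (f c) i x))
      (fun c => (law_fam hq hP n (f c)).msg hq hP) (fun c => S.invM hq hP n (f c))
  have h1 := S.vertF _ hF hI
  have h2 := S.pi_gain hc k (fun c => Conf q n (f c))
      (fun c x => msg q lam (fun i => law q lam n (f c) i x))
      (fun c => (law_fam hq hP n (f c)).msg hq hP) (fun c => S.invM hq hP n (f c))
  have h3 : totV lam φV (n + 1) (RTree.node (k + 2) f) ≤
    tot φM (fun x : ∀ c : Fin (k + 2), Conf q n (f c) => fun i => ∏ c,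
      msg q lam (fun i => law q lam n (f c) i (x c)) i) := h1
  have h4 : tot φM (fun x : ∀ c : Fin (k + 2), Conf q n (f c) => fun i => ∏ c,
      msg q lam (fun i => law q lam n (f c) i (x c)) i) +
        c * (totM lam φM n (f (Fin.last (k + 1))) ^ 2 *
          totM lam φM n (f (Fin.castSucc (Fin.last k)))) ≤
      ∑ c, totM lam φM n (f c) := h2
  linarith

end tree

end Vale.Agent.H17.P154
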