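import Vale.Agent.H17.P154.Sym

/-!
# Closure: from strictly positive to nonnegative vectors (P154)
-/

namespace Vale.Agent.H17.P154

open Finset Filter Topology

variable {q : ℕ}

theorem nrm_mem (hq : 0 < q) {u : Fin q → ℝ} (hu : ∀ i, 0 ≤ u i) (hm : 0 < meanq q u) :
    nrm q u ∈ Set.Icc (fun _ : Fin q => (-1 : ℝ)) (fun _ => (q : ℝ)) := by
  have hq0 : (0 : ℝ) < q := by exact_mod_cast hq
  constructor
  · intro i
    have := div_nonneg (hu i) hm.le
    simp only [nrm]
    linarith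
  · intro i
    have h1 : u i ≤ q * meanq q u := by
      have : (q : ℝ) * meanq q u = ∑ j, u j := by unfold meanq; field_simp
      rw [this]
      exact Finset.single_le_sum (fun j _ => hu j) (mem_univ i)
    have h2 : u i / meanq q u ≤ q := by rwa [div_le_iff₀ hm]
    simp only [nrm]
    linarith

theorem meanq_continuous : Continuous (meanq q) := by
  unfold meanq
  fun_prop

theorem persq_tendsto (hq : 0 < q) {f : (Fin q → ℝ) → ℝ} (hf : Continuous f)
    {x : ℕ → Fin q → ℝ} {x₀ : Fin q → ℝ} (hx : ∀ k i, 0 ≤ x k i)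
    (hlim : Tendsto x atTop (𝓝 x₀)) :
    Tendsto (fun k => persq q f (x k)) atTop (𝓝 (persq q f x₀)) := by
  have hx₀ : ∀ i, 0 ≤ x₀ i := fun i =>
    ge_of_tendsto' ((tendsto_pi_nhds.1 hlim) i) (fun k => hx k i)
  have hmean : Tendsto (fun k => meanq q (x k)) atTop (𝓝 (meanq q x₀)) :=
    (meanq_continuous.tendsto x₀).comp hlim
  rcases eq_or_lt_of_le (meanq_nonneg hx₀) with h0 | hpos
  · obtain ⟨C, hC⟩ : ∃ C, ∀ w ∈ Set.Icc (fun _ : Fin q => (-1 : ℝ)) (fun _ => (q : ℝ)),
        ‖f w‖ ≤ C := isCompact_Icc.exists_bound_of_continuousOn hf.continuousOn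
    have h1 : persq q f x₀ = 0 := by
      unfold persq
      rw [← h0, zero_mul]
    rw [h1]
    rw [← h0] at hmean
    have h2 : Tendsto (fun k => |C| * meanq q (x k)) atTop (𝓝 0) := by
      simpa using hmean.const_mul |C|
    refine squeeze_zero_norm (fun k => ?_) h2
    have hmk := meanq_nonneg (hx k)
    rcases eq_or_lt_of_le hmk with hk | hk
    · unfold persq
      rw [← hk]
      simp
    · rw [persq_def, norm_mul, Real.norm_of_nonneg hmk, mul_comm]
      refine mul_le_mul_of_nonneg_right ?_ hmk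
      exact (hC _ (nrm_mem hq (hx k) hk)).trans (le_abs_self C)
  · unfold persq
    refine hmean.mul ((hf.tendsto _).comp ?_)
    rw [tendsto_pi_nhds]
    intro i
    exact (((tendsto_pi_nhds.1 hlim) i).div hmean hpos.ne').sub_const 1

/-- strictly positive approximations. -/
noncomputable def apx (c : Fin q → ℝ) (k : ℕ) : Fin q → ℝ :=
  fun i => (1 - 1 / ((k : ℝ) + 1)) * c i + 1 / ((k : ℝ) + 1)

theorem apx_pos {c : Fin q → ℝ} (hc : ∀ i, 0 ≤ c i) (k : ℕ) (i : Fin q) : 0 < apx c k i := by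
  unfold apx
  have h1 : (0 : ℝ) < 1 / ((k : ℝ) + 1) := by positivity
  have h2 : 1 / ((k : ℝ) + 1) ≤ 1 := by
    rw [div_le_one (by positivity)]
    have : (0 : ℝ) ≤ k := Nat.cast_nonneg k
    linarith
  have := mul_nonneg (sub_nonneg.2 h2) (hc i)
  linarith

theorem apx_mean (hq : 0 < q) {c : Fin q → ℝ} (mc : meanq q c = 1) (k : ℕ) :
    meanq q (apx c k) = 1 := by
  have hq0 : (q : ℝ) ≠ 0 := by positivity
  have h : meanq q (apx c k) = (1 - 1 / ((k : ℝ) + 1)) * meanq q c + 1 / ((k : ℝ) + 1) := by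
    unfold meanq apx
    rw [Finset.sum_add_distrib, ← Finset.mul_sum, Finset.sum_const, card_univ,
      Fintype.card_fin, nsmul_eq_mul, add_div, mul_div_assoc, mul_div_cancel_left₀ _ hq0]
  rw [h, mc]
  ring

theorem apx_tendsto (c : Fin q → ℝ) : Tendsto (apx c) atTop (𝓝 c) := by
  rw [tendsto_pi_nhds]
  intro i
  have he0 : Tendsto (fun k : ℕ => 1 / ((k : ℝ) + 1)) atTop (𝓝 0) :=
    tendsto_one_div_add_atTop_nhds_zero_nat
  have : Tendsto (fun k : ℕ => (1 - 1 / ((k : ℝ) + 1)) * c i + 1 / ((k : ℝ) + 1)) atTop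
      (𝓝 ((1 - 0) * c i + 0)) :=
    ((tendsto_const_nhds.sub he0).mul_const _).add he0
  rw [sub_zero, one_mul, add_zero] at this
  exact this

theorem tendsto_sub_one {x : ℕ → Fin q → ℝ} {c : Fin q → ℝ} (h : Tendsto x atTop (𝓝 c)) :
    Tendsto (fun k => (fun i => x k i - 1 : Fin q → ℝ)) atTop (𝓝 (fun i => c i - 1)) := by
  rw [tendsto_pi_nhds]
  intro i
  exact ((tendsto_pi_nhds.1 h) i).sub_const 1

/-- closure of pointwise inequalities. -/
theorem close_le (hq : 0 < q) {f : (Fin q → ℝ) → ℝ} (hf : Continuous f)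
    {B : (Fin q → ℝ) → (Fin q → ℝ) → ℝ} (hB : Continuous (fun z : (Fin q → ℝ) × (Fin q → ℝ) =>
      B z.1 z.2)) {C : ℝ}
    (h : ∀ a b : Fin q → ℝ, (∀ i, 0 < a i) → (∀ i, 0 < b i) → meanq q a = 1 → meanq q b = 1 →
      ∑ π : Equiv.Perm (Fin q), persq q f (fun i => a i * b (π i)) ≤
        C * B (fun i => a i - 1) (fun i => b i - 1))
    (a b : Fin q → ℝ) (ha : ∀ i, 0 ≤ a i) (hb : ∀ i, 0 ≤ b i) (ma : meanq q a = 1)
    (mb : meanq q b = 1) :
    ∑ π : Equiv.Perm (Fin q), persq q f (fun i => a i * b (π i)) ≤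
      C * B (fun i => a i - 1) (fun i => b i - 1) := by
  have hL : Tendsto (fun k => ∑ π : Equiv.Perm (Fin q), persq q f (fun i =>
      apx a k i * apx b k (π i))) atTop
      (𝓝 (∑ π : Equiv.Perm (Fin q), persq q f (fun i => a i * b (π i)))) := by
    refine tendsto_finsetSum _ fun π _ => ?_
    refine persq_tendsto hq hf (x := fun k i => apx a k i * apx b k (π i))
      (fun k i => (mul_pos (apx_pos ha k i) (apx_pos hb k (π i))).le) ?_
    rw [tendsto_pi_nhds]
    intro i
    exact ((tendsto_pi_nhds.1 (apx_tendsto a)) i).mul ((tendsto_pi_nhds.1 (apx_tendsto b)) (π i))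
  have hR : Tendsto (fun k => C * B (fun i => apx a k i - 1) (fun i => apx b k i - 1)) atTop
      (𝓝 (C * B (fun i => a i - 1) (fun i => b i - 1))) := by
    refine Tendsto.const_mul C ?_
    have h1 := (tendsto_sub_one (apx_tendsto a)).prodMk_nhds (tendsto_sub_one (apx_tendsto b))
    exact (hB.tendsto _).comp h1
  exact le_of_tendsto_of_tendsto' hL hR fun k =>
    h _ _ (apx_pos ha k) (apx_pos hb k) (apx_mean hq ma k) (apx_mean hq mb k)

end Vale.Agent.H17.P154
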