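import Mathlib

/-!
# Broadcasting on trees with the Potts channel: definitions (P154)
-/

namespace Vale.Agent.H17.P154

/-- The `q`-state Potts channel: `potts q lam i j` is the probability that the child has spin `j`
when the parent has spin `i`. -/
noncomputable def potts (q : ℕ) (lam : ℝ) (i j : Fin q) : ℝ :=
  lam * (if i = j then 1 else 0) + (1 - lam) / q

/-- Rooted (finitely branching, ordered) trees cut at depth `n`: a tree cut at depth `n + 1` is a
number of children together with the trees, cut at depth `n`, hanging from them. -/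
def RTree : ℕ → Type
  | 0 => Unit
  | n + 1 => (k : ℕ) × (Fin k → RTree n)

/-- Spin configurations on the set `L_n` of vertices at distance `n` from the root. -/
def Conf (q : ℕ) : (n : ℕ) → RTree n → Type
  | 0, _ => Fin q
  | n + 1, t => (c : Fin t.1) → Conf q n (t.2 c)

/-- there are finitely many configurations. -/
noncomputable instance confFintype (q : ℕ) : (n : ℕ) → (t : RTree n) → Fintype (Conf q n t)
  | 0, _ => inferInstanceAs (Fintype (Fin q))
  | n + 1, t =>
    haveI := fun c => confFintype q n (t.2 c)
    inferInstanceAs (Fintype ((c : Fin t.1) → Conf q n (t.2 c)))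

/-- `law q lam n t i x` is the probability that the spins on `L_n` are `x` when the root has
spin `i`: the subtrees of the children are independent, and a child has spin `j` with probability
`potts q lam i j`. -/
noncomputable def law (q : ℕ) (lam : ℝ) : (n : ℕ) → (t : RTree n) → Fin q → Conf q n t → ℝ
  | 0, _, i, x => if (show Fin q from x) = i then 1 else 0
  | n + 1, t, i, x => ∏ c : Fin t.1, ∑ j : Fin q, potts q lam i j * law q lam n (t.2 c) j (x c)

/-- the quantity `a_n` for one fixed tree: the expected total variation distance between the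
posterior law of the root spin (uniform prior) and the uniform law. -/
noncomputable def tvTree (q : ℕ) (lam : ℝ) (n : ℕ) (t : RTree n) : ℝ :=
  ∑ x : Conf q n t, (∑ j, (1 / q : ℝ) * law q lam n t j x) *
    (1 / 2 * ∑ i, |((1 / q : ℝ) * law q lam n t i x) / (∑ j, (1 / q : ℝ) * law q lam n t j x)
      - 1 / q|)

/-- the `d`-ary tree. -/
def dary (d : ℕ) : (n : ℕ) → RTree n
  | 0 => ()
  | n + 1 => ⟨d, fun _ => dary d n⟩

/-- the probability of a tree cut at depth `n` under the Galton–Watson law with offspring
probabilities `p 0, p 1, p 2, …`. -/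
noncomputable def gw (p : ℕ → ℝ) : (n : ℕ) → RTree n → ℝ
  | 0, _ => 1
  | n + 1, t => p t.1 * ∏ c : Fin t.1, gw p n (t.2 c)

/-- the Poisson(`d`) probabilities. -/
noncomputable def poisson (d : ℝ) (k : ℕ) : ℝ := Real.exp (-d) * d ^ k / k.factorial

/-- the quantity `a_n` for the rooted `d`-ary tree. -/
noncomputable def aRegular (q : ℕ) (lam : ℝ) (d n : ℕ) : ENNReal :=
  ENNReal.ofReal (tvTree q lam n (dary d n))

/-- the quantity `a_n` for the Galton–Watson tree with offspring probabilities `p`: the average
of `tvTree` over the random tree. -/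
noncomputable def aGW (q : ℕ) (lam : ℝ) (p : ℕ → ℝ) (n : ℕ) : ENNReal :=
  ∑' t : RTree n, ENNReal.ofReal (gw p n t * tvTree q lam n t)

/-- nonreconstruction: `a_n` tends to `0`. -/
def Nonreconstruction (a : ℕ → ENNReal) : Prop :=
  Filter.Tendsto a Filter.atTop (nhds 0)

/-- reconstruction: `a_n` stays bounded away from `0`. -/
def Reconstruction (a : ℕ → ENNReal) : Prop :=
  ∃ c : ENNReal, 0 < c ∧ ∀ n, c ≤ a n

end Vale.Agent.H17.P154
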