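import Vale.Agent.H17.P154.Defs

/-!
# Symmetric families of likelihood vectors (P154)
-/

namespace Vale.Agent.H17.P154

open Finset

/-- the message sent by a child with likelihood vector `v` to its parent. -/
noncomputable def msg (q : ℕ) (lam : ℝ) (v : Fin q → ℝ) : Fin q → ℝ :=
  fun i => ∑ j, potts q lam i j * v j

theorem potts_perm {q : ℕ} (lam : ℝ) (π : Equiv.Perm (Fin q)) (i j : Fin q) :
    potts q lam (π i) (π j) = potts q lam i j := by
  unfold potts
  simp only [EmbeddingLike.apply_eq_iff_eq]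

theorem potts_nonneg {q : ℕ} {lam : ℝ} (hq : 2 ≤ q) (h1 : lam ≤ 1)
    (h2 : -1 / ((q : ℝ) - 1) ≤ lam) (i j : Fin q) : 0 ≤ potts q lam i j := by
  unfold potts
  have hq0 : (0 : ℝ) < q := by positivity
  have hq2 : (2 : ℝ) ≤ q := by exact_mod_cast hq
  have hq1 : (0 : ℝ) < (q : ℝ) - 1 := by linarith
  have h3 : 0 ≤ (1 - lam) / q := div_nonneg (by linarith) hq0.le
  split_ifs with h
  · rw [mul_one]
    have h4 : -1 ≤ lam * ((q : ℝ) - 1) := by
      rwa [div_le_iff₀ hq1] at h2
    have h5 : lam + (1 - lam) / q = (1 + lam * ((q : ℝ) - 1)) / q := by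
      field_simp
      ring
    rw [h5]
    exact div_nonneg (by linarith) hq0.le
  · rw [mul_zero, zero_add]
    exact h3

theorem potts_sum_left {q : ℕ} (lam : ℝ) (hq : 0 < q) (i : Fin q) :
    ∑ j, potts q lam i j = 1 := by
  unfold potts
  have hq0 : (q : ℝ) ≠ 0 := by positivity
  rw [Finset.sum_add_distrib, ← Finset.mul_sum, Finset.sum_ite_eq, if_pos (mem_univ i),
    Finset.sum_const, card_univ, Fintype.card_fin, nsmul_eq_mul]
  field_simp
  ring

theorem msg_perm {q : ℕ} (lam : ℝ) (v : Fin q → ℝ) (π : Equiv.Perm (Fin q)) (i : Fin q) :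
    msg q lam (fun i => v (π i)) i = msg q lam v (π i) := by
  unfold msg
  rw [← Equiv.sum_comp π (fun j => potts q lam (π i) j * v j)]
  exact Finset.sum_congr rfl fun j _ => by rw [potts_perm]

theorem msg_nonneg {q : ℕ} {lam : ℝ} (hP : ∀ i j : Fin q, 0 ≤ potts q lam i j) {v : Fin q → ℝ}
    (hv : ∀ i, 0 ≤ v i) (i : Fin q) : 0 ≤ msg q lam v i :=
  Finset.sum_nonneg fun j _ => mul_nonneg (hP i j) (hv j)

/-- Families of likelihood vectors: nonnegative, normalised, and symmetric under permutations of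
the spins. -/
structure Fam {X : Type} [Fintype X] {q : ℕ} (v : X → Fin q → ℝ) : Prop where
  nonneg : ∀ x i, 0 ≤ v x i
  norm : ∀ i, ∑ x, v x i = 1
  symm : ∀ π : Equiv.Perm (Fin q), ∃ e : Equiv.Perm X, ∀ x i, v (e x) (π i) = v x i

section fam
variable {X Y : Type} [Fintype X] [Fintype Y] {q : ℕ}

theorem Fam.msg {v : X → Fin q → ℝ} (hv : Fam v) {lam : ℝ} (hq : 0 < q)
    (hP : ∀ i j : Fin q, 0 ≤ potts q lam i j) : Fam (fun x => msg q lam (v x)) where
  nonneg x i := msg_nonneg hP (hv.nonneg x) i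
  norm i := by
    unfold P154.msg
    rw [Finset.sum_comm]
    have : ∀ j, ∑ x, potts q lam i j * v x j = potts q lam i j := by
      intro j
      rw [← Finset.mul_sum, hv.norm, mul_one]
    simp only [this]
    exact potts_sum_left lam hq i
  symm π := by
    obtain ⟨e, he⟩ := hv.symm π
    refine ⟨e, fun x i => ?_⟩
    rw [← msg_perm]
    congr 1
    funext i
    exact he x i

theorem Fam.mul {u : X → Fin q → ℝ} {v : Y → Fin q → ℝ} (hu : Fam u) (hv : Fam v) :
    Fam (fun z : X × Y => fun i => u z.1 i * v z.2 i) where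
  nonneg z i := mul_nonneg (hu.nonneg _ _) (hv.nonneg _ _)
  norm i := by
    rw [Fintype.sum_prod_type]
    simp only [← Finset.mul_sum, hv.norm, mul_one, hu.norm]
  symm π := by
    obtain ⟨e, he⟩ := hu.symm π
    obtain ⟨f, hf⟩ := hv.symm π
    exact ⟨Equiv.prodCongr e f, fun z i => by
      simp only [Equiv.prodCongr_apply, Prod.map_fst, Prod.map_snd, he, hf]⟩

theorem Fam.pi {k : ℕ} {X : Fin k → Type} [∀ c, Fintype (X c)] {v : ∀ c, X c → Fin q → ℝ}
    (hv : ∀ c, Fam (v c)) : Fam (fun x : ∀ c, X c => fun i => ∏ c, v c (x c) i) where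
  nonneg x i := Finset.prod_nonneg fun c _ => (hv c).nonneg _ _
  norm i := by
    have h := Finset.prod_univ_sum (fun c => (univ : Finset (X c))) (fun c x => v c x i)
    rw [Fintype.piFinset_univ] at h
    rw [← h]
    simp only [(hv _).norm, Finset.prod_const_one]
  symm π := by
    choose e he using fun c => (hv c).symm π
    refine ⟨Equiv.piCongrRight e, fun x i => ?_⟩
    simp only [Equiv.piCongrRight_apply, Pi.map_apply, he]

end fam


/-- the family of point masses. -/
theorem Fam.base {q : ℕ} :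
    Fam (fun (x : Fin q) (i : Fin q) => if x = i then (1 : ℝ) else 0) where
  nonneg x i := by positivity
  norm i := by simp
  symm π := ⟨π, fun x i => by simp⟩

/-- the law of the spins on the `n`-th level of a tree is a symmetric family. -/
theorem law_fam {q : ℕ} {lam : ℝ} (hq : 0 < q) (hP : ∀ i j : Fin q, 0 ≤ potts q lam i j) :
    ∀ (n : ℕ) (t : RTree n), Fam (fun (x : Conf q n t) (i : Fin q) => law q lam n t i x)
  | 0, _ => Fam.base
  | n + 1, t => Fam.pi (fun c => (law_fam hq hP n (t.2 c)).msg hq hP)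

end Vale.Agent.H17.P154
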