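import Vale.Agent.H17.P154.Defs

/-!
# The Poisson law (P154)
-/

namespace Vale.Agent.H17.P154

open Finset

theorem poisson_nonneg {d : ℝ} (hd : 0 ≤ d) (k : ℕ) : 0 ≤ poisson d k := by
  unfold poisson; positivity

theorem poisson_pos {d : ℝ} (hd : 0 < d) (k : ℕ) : 0 < poisson d k := by
  unfold poisson; positivity

theorem _root_.HasSum.congr_fun' {f g : ℕ → ℝ} {a : ℝ} (h : HasSum f a)
    (hfg : ∀ k, f k = g k) : HasSum g a := by
  have : f = g := funext hfg
  rwa [← this]

theorem hasSum_exp (d : ℝ) : HasSum (fun k : ℕ => d ^ k / (k.factorial : ℝ)) (Real.exp d) := by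
  have := NormedSpace.expSeries_div_hasSum_exp (𝔸 := ℝ) d
  rw [← Real.exp_eq_exp_ℝ] at this
  exact this

theorem poisson_hasSum (d : ℝ) : HasSum (poisson d) 1 := by
  have h := (hasSum_exp d).mul_left (Real.exp (-d))
  rw [← Real.exp_add, neg_add_cancel, Real.exp_zero] at h
  refine h.congr_fun' fun k => ?_
  unfold poisson
  ring

theorem poisson_mean (d : ℝ) : HasSum (fun k : ℕ => (k : ℝ) * poisson d k) d := by
  have h := ((hasSum_exp d).mul_left (Real.exp (-d) * d))
  have h1 : Real.exp (-d) * d * Real.exp d = d := by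
    rw [mul_right_comm, ← Real.exp_add, neg_add_cancel, Real.exp_zero, one_mul]
  rw [h1] at h
  rw [← hasSum_nat_add_iff' 1]
  simp only [range_one, sum_singleton, Nat.cast_zero, zero_mul, sub_zero]
  refine h.congr_fun' fun k => ?_
  unfold poisson
  rw [Nat.factorial_succ, pow_succ]
  push_cast
  have : (k.factorial : ℝ) ≠ 0 := by positivity
  field_simp

/-- the second factorial moment. -/
theorem poisson_mom2 (d : ℝ) :
    HasSum (fun k : ℕ => (k : ℝ) * (k - 1) * poisson d k) (d ^ 2) := by
  have h := ((hasSum_exp d).mul_left (Real.exp (-d) * d ^ 2))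
  have h1 : Real.exp (-d) * d ^ 2 * Real.exp d = d ^ 2 := by
    rw [mul_right_comm, ← Real.exp_add, neg_add_cancel, Real.exp_zero, one_mul]
  rw [h1] at h
  rw [← hasSum_nat_add_iff' 2]
  simp only [sum_range_succ, range_zero, sum_empty, Nat.cast_zero, zero_mul, zero_add,
    Nat.cast_one, sub_self, mul_zero, sub_zero]
  refine h.congr_fun' fun k => ?_
  unfold poisson
  rw [Nat.factorial_succ, Nat.factorial_succ, pow_succ, pow_succ]
  push_cast
  have : (k.factorial : ℝ) ≠ 0 := by positivity
  field_simp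
  ring

end Vale.Agent.H17.P154
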