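import Mathlib

/-!
# The two functionals for the three-state Potts channel (P154)
-/

namespace Vale.Agent.H17.P154

/-- the mean of a vector. -/
noncomputable def mean3 (x : Fin 3 → ℝ) : ℝ := (x 0 + x 1 + x 2) / 3

/-- the chi-square functional (`w` has mean zero). -/
noncomputable def S3 (w : Fin 3 → ℝ) : ℝ := (w 0 ^ 2 + w 1 ^ 2 + w 2 ^ 2) / 6

/-- the cubic functional. -/
noncomputable def A3 (w : Fin 3 → ℝ) : ℝ := w 0 * w 1 * w 2

/-- the invariant functional. -/
noncomputable def g3 (w : Fin 3 → ℝ) : ℝ := A3 w - 37 / 25 * (S3 w) ^ 2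

/-- the perspective (1-homogeneous version) of a functional of mean-zero vectors. -/
noncomputable def pers (f : (Fin 3 → ℝ) → ℝ) (x : Fin 3 → ℝ) : ℝ :=
  mean3 x * f (fun i => x i / mean3 x - 1)

/-- (I): invariance of `E g ≥ 0` under merging. -/
def IneqI : Prop :=
  ∀ a b : Fin 3 → ℝ, (∀ i, 0 ≤ a i) → (∀ i, 0 ≤ b i) → mean3 a = 1 → mean3 b = 1 →
    6 * ((1 - S3 (fun i => b i - 1)) ^ 3 * g3 (fun i => a i - 1) +
        (1 - S3 (fun i => a i - 1)) ^ 3 * g3 (fun i => b i - 1)) ≤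
      ∑ π : Equiv.Perm (Fin 3), pers g3 (fun i => a i * b (π i))

/-- (II): subadditivity of the chi-square information on the invariant class. -/
def IneqII (c : ℝ) : Prop :=
  ∀ a b : Fin 3 → ℝ, (∀ i, 0 ≤ a i) → (∀ i, 0 ≤ b i) → mean3 a = 1 → mean3 b = 1 →
    ∑ π : Equiv.Perm (Fin 3), pers S3 (fun i => a i * b (π i)) ≤
      6 * (S3 (fun i => a i - 1) + S3 (fun i => b i - 1) -
        3 / 4 * (g3 (fun i => a i - 1) * S3 (fun i => b i - 1) +
          g3 (fun i => b i - 1) * S3 (fun i => a i - 1)) -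
        c * (S3 (fun i => a i - 1) * S3 (fun i => b i - 1)))

end Vale.Agent.H17.P154
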