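import Vale.Agent.H17.P154.Closure
import Vale.Agent.H17.P154.Q3Defs

/-!
# The scheme for the three-state ferromagnetic Potts channel (P154)
-/

namespace Vale.Agent.H17.P154

open Finset

theorem mean3_eq (x : Fin 3 → ℝ) : mean3 x = meanq 3 x := by
  unfold mean3 meanq
  rw [Fin.sum_univ_three]
  norm_num

theorem pers_eq (f : (Fin 3 → ℝ) → ℝ) (x : Fin 3 → ℝ) : pers f x = persq 3 f x := by
  unfold pers persq
  rw [mean3_eq]

theorem card_perm3 : (Fintype.card (Equiv.Perm (Fin 3)) : ℝ) = 6 := by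
  rw [Fintype.card_perm, Fintype.card_fin]
  norm_num [Nat.factorial]

theorem S3_nonneg (w : Fin 3 → ℝ) : 0 ≤ S3 w := by
  unfold S3; positivity

theorem S3_le_one {a : Fin 3 → ℝ} (ha : ∀ i, 0 ≤ a i) (hm : meanq 3 a = 1) :
    S3 (fun i => a i - 1) ≤ 1 := by
  rw [← mean3_eq] at hm
  unfold mean3 at hm
  unfold S3
  have h0 := ha 0
  have h1 := ha 1
  have h2 := ha 2
  have h3 : a 0 + a 1 + a 2 = 3 := by linarith
  have h4 := mul_nonneg h0 h1
  have h5 := mul_nonneg h0 h2
  have h6 := mul_nonneg h1 h2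
  have h7 : (a 0 + a 1 + a 2) ^ 2 = 9 := by rw [h3]; norm_num
  nlinarith

theorem S3_nrm_le_one {u : Fin 3 → ℝ} (hu : ∀ i, 0 ≤ u i) (hm : 0 < meanq 3 u) :
    S3 (nrm 3 u) ≤ 1 :=
  S3_le_one (fun i => div_nonneg (hu i) hm.le) (meanq_div_self u hm.ne')

theorem S3_smul (t : ℝ) (w : Fin 3 → ℝ) : S3 (fun i => t * w i) = t ^ 2 * S3 w := by
  unfold S3; ring

theorem A3_smul (t : ℝ) (w : Fin 3 → ℝ) : A3 (fun i => t * w i) = t ^ 3 * A3 w := by
  unfold A3; ring

/-- the factor in (I). -/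
noncomputable def h3 (u : Fin 3 → ℝ) : ℝ := meanq 3 u * (1 - S3 (nrm 3 u)) ^ 3

theorem h3_nonneg {u : Fin 3 → ℝ} (hu : ∀ i, 0 ≤ u i) : 0 ≤ h3 u := by
  unfold h3
  rcases eq_or_lt_of_le (meanq_nonneg hu) with h | h
  · rw [← h]; simp
  · exact mul_nonneg h.le (pow_nonneg (by linarith [S3_nrm_le_one hu h]) 3)

section
variable {X Y : Type} [Fintype X] [Fintype Y]

theorem q3_mergeG (hI : IneqI) {u : X → Fin 3 → ℝ} {v : Y → Fin 3 → ℝ} (hu : Fam u)
    (hv : Fam v) (gu : 0 ≤ tot (persq 3 g3) u) (gv : 0 ≤ tot (persq 3 g3) v) :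
    0 ≤ tot (persq 3 g3) (fun z : X × Y => fun i => u z.1 i * v z.2 i) := by
  have hh := hom_le (q := 3) (by norm_num) (f := fun w => - g3 w)
    (B := fun w z => -((1 - S3 z) ^ 3 * g3 w + (1 - S3 w) ^ 3 * g3 z)) (C := 6) (by
      intro a b ha hb ma mb
      have := hI a b ha hb (by rw [mean3_eq]; exact ma) (by rw [mean3_eq]; exact mb)
      simp only [pers_eq] at this
      have h2 : ∀ x : Fin 3 → ℝ, persq 3 (fun w => - g3 w) x = - persq 3 g3 x := by
        intro x; unfold persq; ring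
      simp only [h2, Finset.sum_neg_distrib]
      linarith)
  have h2 : ∀ x : Fin 3 → ℝ, persq 3 (fun w => - g3 w) x = - persq 3 g3 x := by
    intro x; unfold persq; ring
  have h3' := sym_le (φ := fun x => - persq 3 g3 x)
    (B := fun u v => -(h3 v * persq 3 g3 u + h3 u * persq 3 g3 v)) (by
      intro u v hu hv
      have := hh u v hu hv
      simp only [h2] at this
      rw [card_perm3]
      refine this.trans (le_of_eq ?_)
      simp only [persq_def, h3]
      ring) hu hv
  have h4 : tot (fun x => - persq 3 g3 x) (fun z : X × Y => fun i => u z.1 i * v z.2 i) =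
      - tot (persq 3 g3) (fun z : X × Y => fun i => u z.1 i * v z.2 i) := by
    unfold tot
    rw [Finset.sum_neg_distrib]
  rw [h4] at h3'
  have h5 : ∑ x, ∑ y, -(h3 (v y) * persq 3 g3 (u x) + h3 (u x) * persq 3 g3 (v y)) =
      -((tot h3 v) * tot (persq 3 g3) u + (tot h3 u) * tot (persq 3 g3) v) := by
    unfold tot
    simp only [Finset.sum_neg_distrib, Finset.sum_add_distrib, ← Finset.mul_sum,
      ← Finset.sum_mul]
  rw [h5] at h3'
  have h6 : 0 ≤ tot h3 v := tot_nonneg (fun u hu => h3_nonneg hu) hv.nonneg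
  have h7 : 0 ≤ tot h3 u := tot_nonneg (fun u hu => h3_nonneg hu) hu.nonneg
  have h8 := mul_nonneg h6 gu
  have h9 := mul_nonneg h7 gv
  linarith

theorem q3_mergeF {c : ℝ} (hII : IneqII c) {u : X → Fin 3 → ℝ} {v : Y → Fin 3 → ℝ}
    (hu : Fam u) (hv : Fam v) (gu : 0 ≤ tot (persq 3 g3) u) (gv : 0 ≤ tot (persq 3 g3) v) :
    tot (persq 3 S3) (fun z : X × Y => fun i => u z.1 i * v z.2 i) +
        c * (tot (persq 3 S3) u * tot (persq 3 S3) v) ≤
      tot (persq 3 S3) u + tot (persq 3 S3) v := by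
  have hh := hom_le (q := 3) (by norm_num) (f := S3)
    (B := fun w z => S3 w + S3 z - 3 / 4 * (g3 w * S3 z + g3 z * S3 w) - c * (S3 w * S3 z))
    (C := 6) (by
      intro a b ha hb ma mb
      have := hII a b ha hb (by rw [mean3_eq]; exact ma) (by rw [mean3_eq]; exact mb)
      simp only [pers_eq] at this
      exact this)
  have h3' := sym_le (φ := persq 3 S3)
    (B := fun u v => meanq 3 v * persq 3 S3 u + meanq 3 u * persq 3 S3 v -
      3 / 4 * (persq 3 g3 u * persq 3 S3 v + persq 3 S3 u * persq 3 g3 v) -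
      c * (persq 3 S3 u * persq 3 S3 v)) (by
      intro u v hu hv
      have := hh u v hu hv
      rw [card_perm3]
      refine this.trans (le_of_eq ?_)
      simp only [persq_def]
      ring) hu hv
  have h5 : ∑ x, ∑ y, (meanq 3 (v y) * persq 3 S3 (u x) + meanq 3 (u x) * persq 3 S3 (v y) -
      3 / 4 * (persq 3 g3 (u x) * persq 3 S3 (v y) + persq 3 S3 (u x) * persq 3 g3 (v y)) -
      c * (persq 3 S3 (u x) * persq 3 S3 (v y))) =
      tot (meanq 3) v * tot (persq 3 S3) u + tot (meanq 3) u * tot (persq 3 S3) v -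
      3 / 4 * (tot (persq 3 g3) u * tot (persq 3 S3) v +
        tot (persq 3 S3) u * tot (persq 3 g3) v) -
      c * (tot (persq 3 S3) u * tot (persq 3 S3) v) := by
    unfold tot
    simp only [Finset.sum_sub_distrib, Finset.sum_add_distrib, ← Finset.mul_sum,
      ← Finset.sum_mul]
  rw [h5, tot_meanq (by norm_num) hu, tot_meanq (by norm_num) hv] at h3'
  have hS : ∀ w : Fin 3 → ℝ, (∀ i, 0 ≤ w i) → 0 ≤ persq 3 S3 w := fun w hw =>
    mul_nonneg (meanq_nonneg hw) (S3_nonneg _)
  have h6 : 0 ≤ tot (persq 3 S3) u := tot_nonneg hS hu.nonneg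
  have h7 : 0 ≤ tot (persq 3 S3) v := tot_nonneg hS hv.nonneg
  have h8 := mul_nonneg gu h7
  have h9 := mul_nonneg h6 gv
  linarith

end

theorem q3_tot_le_one {X : Type} [Fintype X] {u : X → Fin 3 → ℝ} (hu : Fam u) :
    tot (persq 3 S3) u ≤ 1 := by
  rw [← tot_meanq (q := 3) (by norm_num) hu]
  refine Finset.sum_le_sum fun x _ => ?_
  rcases eq_or_lt_of_le (meanq_nonneg (hu.nonneg x)) with h | h
  · rw [persq_def, ← h, zero_mul]
  · rw [persq_def]
    exact mul_le_of_le_one_right h.le (S3_nrm_le_one (hu.nonneg x) h)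

theorem q3_tot_nonneg {X : Type} [Fintype X] {u : X → Fin 3 → ℝ} (hu : Fam u) :
    0 ≤ tot (persq 3 S3) u :=
  tot_nonneg (fun _ hw => mul_nonneg (meanq_nonneg hw) (S3_nonneg _)) hu.nonneg

theorem q3_chanF {X : Type} [Fintype X] (lam : ℝ) (v : X → Fin 3 → ℝ) :
    tot (persq 3 S3) (fun x => msg 3 lam (v x)) = lam ^ 2 * tot (persq 3 S3) v := by
  unfold tot
  rw [Finset.mul_sum]
  refine Finset.sum_congr rfl fun x _ => ?_
  rw [persq_msg (by norm_num), persq_def, S3_smul]
  ring

theorem q3_chanG {X : Type} [Fintype X] {lam : ℝ} (h0 : 0 ≤ lam) (h1 : lam ≤ 1)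
    {v : X → Fin 3 → ℝ} (hv : Fam v) (h : 0 ≤ tot (persq 3 g3) v) :
    0 ≤ tot (persq 3 g3) (fun x => msg 3 lam (v x)) := by
  have h2 : lam ^ 3 * tot (persq 3 g3) v ≤ tot (persq 3 g3) (fun x => msg 3 lam (v x)) := by
    unfold tot
    rw [Finset.mul_sum]
    refine Finset.sum_le_sum fun x _ => ?_
    rw [persq_msg (by norm_num), persq_def]
    unfold g3
    rw [A3_smul, S3_smul]
    have hm := meanq_nonneg (hv.nonneg x)
    have h3 : 0 ≤ meanq 3 (v x) * (37 / 25 * (S3 (nrm 3 (v x))) ^ 2) * (lam ^ 3 * (1 - lam)) :=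
      mul_nonneg (mul_nonneg hm (mul_nonneg (by norm_num) (sq_nonneg _)))
        (mul_nonneg (pow_nonneg h0 3) (by linarith))
    nlinarith
  exact (mul_nonneg (pow_nonneg h0 3) h).trans h2

/-- the scheme for `q = 3` and `0 ≤ λ ≤ 1`. -/
theorem scheme3 {c lam : ℝ} (hc : 0 ≤ c) (hI : IneqI) (hII : IneqII c) (h0 : 0 ≤ lam) (h1 : lam ≤ 1) :
    Scheme 3 lam c (J := Unit) (K := Unit) (persq 3 S3) (persq 3 S3) (fun _ => persq 3 g3)
      (fun _ => persq 3 g3) where
  posV u hu := mul_nonneg (meanq_nonneg hu) (S3_nonneg _)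
  posM u hu := mul_nonneg (meanq_nonneg hu) (S3_nonneg _)
  oneM := by
    unfold persq meanq S3
    simp
  oneG _ := by
    unfold persq meanq g3 A3 S3
    simp
  base _ := by
    unfold tot persq meanq g3 A3 S3
    simp [Fin.sum_univ_three]
    norm_num
  chanG v hv h _ := q3_chanG h0 h1 hv (h ())
  chanF v _ _ := (q3_chanF lam v).le
  mergeG u v hu hv gu gv _ := q3_mergeG hI hu hv (gu ()) (gv ())
  mergeF u v hu hv gu gv := by
    have h2 := q3_mergeF hII hu hv (gu ()) (gv ())
    have h3 : tot (persq 3 S3) u ^ 2 * tot (persq 3 S3) v ≤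
        tot (persq 3 S3) u * tot (persq 3 S3) v := by
      refine mul_le_mul_of_nonneg_right ?_ (q3_tot_nonneg hv)
      have := q3_tot_nonneg hu
      have := q3_tot_le_one hu
      nlinarith
    have h4 := mul_le_mul_of_nonneg_left h3 hc
    linarith
  vertG v _ h := h
  vertF v _ _ := le_rfl

theorem S3_continuous : Continuous S3 := by unfold S3; fun_prop

theorem A3_continuous : Continuous A3 := by unfold A3; fun_prop

theorem g3_continuous : Continuous g3 := by
  unfold g3
  exact A3_continuous.sub ((S3_continuous.pow 2).const_mul _)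

/-- it is enough to prove (I) for strictly positive vectors. -/
theorem ineqI_of_pos
    (h : ∀ a b : Fin 3 → ℝ, (∀ i, 0 < a i) → (∀ i, 0 < b i) → mean3 a = 1 → mean3 b = 1 →
      6 * ((1 - S3 (fun i => b i - 1)) ^ 3 * g3 (fun i => a i - 1) +
          (1 - S3 (fun i => a i - 1)) ^ 3 * g3 (fun i => b i - 1)) ≤
        ∑ π : Equiv.Perm (Fin 3), pers g3 (fun i => a i * b (π i))) : IneqI := by
  intro a b ha hb ma mb
  have h2 : ∀ x : Fin 3 → ℝ, persq 3 (fun w => - g3 w) x = - pers g3 x := by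
    intro x; rw [pers_eq]; unfold persq; ring
  have hS := S3_continuous
  have hg := g3_continuous
  have := close_le (q := 3) (by norm_num) (f := fun w => - g3 w) g3_continuous.neg
    (B := fun w z => -((1 - S3 z) ^ 3 * g3 w + (1 - S3 w) ^ 3 * g3 z)) (by fun_prop) (C := 6) (by
      intro a b ha hb ma mb
      have := h a b ha hb (by rw [mean3_eq]; exact ma) (by rw [mean3_eq]; exact mb)
      simp only [h2, Finset.sum_neg_distrib]
      linarith) a b ha hb (by rw [← mean3_eq]; exact ma) (by rw [← mean3_eq]; exact mb)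
  simp only [h2, Finset.sum_neg_distrib] at this
  linarith

/-- it is enough to prove (II) for strictly positive vectors. -/
theorem ineqII_of_pos {c : ℝ}
    (h : ∀ a b : Fin 3 → ℝ, (∀ i, 0 < a i) → (∀ i, 0 < b i) → mean3 a = 1 → mean3 b = 1 →
      ∑ π : Equiv.Perm (Fin 3), pers S3 (fun i => a i * b (π i)) ≤
        6 * (S3 (fun i => a i - 1) + S3 (fun i => b i - 1) -
          3 / 4 * (g3 (fun i => a i - 1) * S3 (fun i => b i - 1) +
            g3 (fun i => b i - 1) * S3 (fun i => a i - 1)) -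
          c * (S3 (fun i => a i - 1) * S3 (fun i => b i - 1)))) : IneqII c := by
  intro a b ha hb ma mb
  have hS := S3_continuous
  have hg := g3_continuous
  have := close_le (q := 3) (by norm_num) (f := S3) S3_continuous
    (B := fun w z => S3 w + S3 z - 3 / 4 * (g3 w * S3 z + g3 z * S3 w) - c * (S3 w * S3 z))
    (by fun_prop) (C := 6) (by
      intro a b ha hb ma mb
      have := h a b ha hb (by rw [mean3_eq]; exact ma) (by rw [mean3_eq]; exact mb)
      simp only [pers_eq] at this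
      exact this) a b ha hb (by rw [← mean3_eq]; exact ma) (by rw [← mean3_eq]; exact mb)
  simp only [pers_eq]
  exact this

theorem chi_eq3 (v : Fin 3 → ℝ) : chi 3 v = 6 * persq 3 S3 v := by
  unfold chi persq meanq S3
  rw [Fin.sum_univ_three]
  generalize (∑ j, v j) / ((3 : ℕ) : ℝ) = m
  by_cases h : m = 0
  · rw [h]; simp
  · field_simp

end Vale.Agent.H17.P154
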