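import Vale.Agent.H17.P154.GW
import Vale.Agent.H17.P154.Q3
import Vale.Agent.H17.P154.Poisson

/-!
# Nonreconstruction for `q = 3`, `0 ≤ λ ≤ 1`, from the two pointwise inequalities (P154)
-/

namespace Vale.Agent.H17.P154

open Filter Topology

theorem potts_nonneg_ferro {q : ℕ} {lam : ℝ} (h0 : 0 ≤ lam) (h1 : lam ≤ 1) (i j : Fin q) :
    0 ≤ potts q lam i j := by
  unfold potts
  have h3 : 0 ≤ (1 - lam) / q := div_nonneg (by linarith) (by positivity)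
  have h4 : (0 : ℝ) ≤ if i = j then 1 else 0 := by positivity
  exact add_nonneg (mul_nonneg h0 h4) h3

theorem ferro3_dary {c : ℝ} (hc : 0 < c) (hI : IneqI) (hII : IneqII c) {lam : ℝ} (h0 : 0 ≤ lam)
    (h1 : lam ≤ 1) {d : ℕ} (hd : 2 ≤ d) (hks : d * lam ^ 2 ≤ 1) :
    Tendsto (fun n => tvTree 3 lam n (dary d n)) atTop (𝓝 0) :=
  dary_tendsto (scheme3 hc.le hI hII h0 h1) hc (by norm_num) (potts_nonneg_ferro h0 h1)
    (C := 6) (fun v _ => (chi_eq3 v).le) hd hks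

theorem ferro3_gw {c : ℝ} (hc : 0 < c) (hI : IneqI) (hII : IneqII c) {lam : ℝ} (h0 : 0 ≤ lam)
    (h1 : lam ≤ 1) {p : ℕ → ℝ} (hp : ∀ k, 0 ≤ p k) (hs : HasSum p 1)
    {d : ℝ} (hd : HasSum (fun k : ℕ => (k : ℝ) * p k) d) {k₀ : ℕ} (hk₀ : 2 ≤ k₀)
    (hpk : 0 < p k₀) (hks : d * lam ^ 2 ≤ 1) :
    Tendsto (fun n => ∑' t : RTree n, ENNReal.ofReal (gw p n t * tvTree 3 lam n t)) atTop
      (𝓝 0) :=
  gw_tendsto (scheme3 hc.le hI hII h0 h1) hc (by norm_num) (potts_nonneg_ferro h0 h1)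
    (C := 6) (by norm_num) (fun v _ => (chi_eq3 v).le) hp hs hd hk₀ hpk hks

theorem ferro3_poisson {c : ℝ} (hc : 0 < c) (hI : IneqI) (hII : IneqII c) {lam : ℝ}
    (h0 : 0 ≤ lam) (h1 : lam ≤ 1) {d : ℝ} (hd : 0 < d) (hks : d * lam ^ 2 ≤ 1) :
    Tendsto (fun n => ∑' t : RTree n,
      ENNReal.ofReal (gw (poisson d) n t * tvTree 3 lam n t)) atTop (𝓝 0) :=
  ferro3_gw hc hI hII h0 h1 (fun k => poisson_nonneg hd.le k) (poisson_hasSum d)
    (poisson_mean d) le_rfl (poisson_pos hd 2) hks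

end Vale.Agent.H17.P154
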