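import Vale.Agent.H17.P154.Q4Fun

/-!
# The phase diagram for `q = 4`, `0 ≤ λ ≤ 1`, from the two pointwise inequalities (P154)
-/

namespace Vale.Agent.H17.P154

open Finset

/-- The first pointwise inequality, `q = 4`. -/
def Ineq4I : Prop :=
  ∀ a b : Fin 4 → ℝ, (∀ i, 0 < a i) → (∀ i, 0 < b i) → meanq 4 a = 1 → meanq 4 b = 1 →
    24 * (gam4 (fun i => a i - 1) * h4 (fun i => b i - 1) +
        h4 (fun i => a i - 1) * gam4 (fun i => b i - 1)) ≤
      ∑ π : Equiv.Perm (Fin 4), persq 4 gam4 (fun i => a i * b (π i))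

/-- The second pointwise inequality, `q = 4`. -/
def Ineq4II (c : ℝ) : Prop :=
  ∀ a b : Fin 4 → ℝ, (∀ i, 0 < a i) → (∀ i, 0 < b i) → meanq 4 a = 1 → meanq 4 b = 1 →
    ∑ π : Equiv.Perm (Fin 4), persq 4 S4 (fun i => a i * b (π i)) ≤
      24 * (S4 (fun i => a i - 1) + S4 (fun i => b i - 1) -
        (gam4 (fun i => a i - 1) * phi4 (fun i => b i - 1) +
          phi4 (fun i => a i - 1) * gam4 (fun i => b i - 1)) -
        c * (S4 (fun i => a i - 1) * S4 (fun i => b i - 1) *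
          (S4 (fun i => a i - 1) + S4 (fun i => b i - 1))))

theorem certFerro4 {c : ℝ} (hc : 0 ≤ c) (hI : Ineq4I) (hII : Ineq4II c) {lam : ℝ}
    (h0 : 0 ≤ lam) (h1 : lam ≤ 1) : Cert 4 lam c 0 0 12 S4 gam4 phi4 h4 :=
  cert4 gam4_continuous phi4_continuous h4_continuous hc le_rfl le_rfl gam4_zero phi4_nonneg
    h4_nonneg gam4_vertex (gam4_chan h0 h1)
    (fun a b ha hb ma mb => by
      have := hI a b ha hb ma mb
      rw [zero_mul, add_zero]
      exact this)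
    (fun a b ha hb ma mb => by
      have := hII a b ha hb ma mb
      rw [zero_mul, sub_zero]
      exact this)

/-- the complete phase diagram for `q = 4`, `0 ≤ λ ≤ 1`. -/
theorem ferro4_phase {c : ℝ} (hc : 0 < c) (hI : Ineq4I) (hII : Ineq4II c) {lam : ℝ}
    (h0 : 0 ≤ lam) (h1 : lam ≤ 1) :
    (∀ d : ℕ, 2 ≤ d →
      (Reconstruction (aRegular 4 lam d) ↔ 1 < d * lam ^ 2) ∧
      (Nonreconstruction (aRegular 4 lam d) ↔ d * lam ^ 2 ≤ 1)) ∧
    (∀ d : ℝ, 0 < d →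
      (Reconstruction (aGW 4 lam (poisson d)) ↔ 1 < d * lam ^ 2) ∧
      (Nonreconstruction (aGW 4 lam (poisson d)) ↔ d * lam ^ 2 ≤ 1)) ∧
    (∀ (p : ℕ → ℝ) (d : ℝ), (∀ k, 0 ≤ p k) → HasSum p 1 → HasSum (fun k : ℕ => k * p k) d →
      (∃ k, 2 ≤ k ∧ 0 < p k) → d * lam ^ 2 ≤ 1 → Nonreconstruction (aGW 4 lam p)) :=
  (certFerro4 hc.le hI hII h0 h1).phase hc (by norm_num) (by norm_num) (potts_nonneg_ferro h0 h1)

end Vale.Agent.H17.P154
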