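import Vale.Agent.H17.P154.Limit

/-!
# Galton–Watson trees (P154)
-/

namespace Vale.Agent.H17.P154

open Finset Filter Topology ENNReal

/-- product formula for sums over functions. -/
theorem tsum_pi {X : Type} : ∀ (k : ℕ) (F : Fin k → X → ℝ≥0∞),
    ∑' f : Fin k → X, ∏ c, F c (f c) = ∏ c, ∑' x, F c x := by
  intro k
  induction k with
  | zero =>
    intro F
    simp
  | succ k ih =>
    intro F
    rw [← (Fin.consEquiv (fun _ : Fin (k + 1) => X)).tsum_eq, Fin.prod_univ_succ]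
    have h1 : ∀ z : X × (Fin k → X),
        ∏ c, F c ((Fin.consEquiv (fun _ : Fin (k + 1) => X)) z c) =
          F 0 z.1 * ∏ c : Fin k, F c.succ (z.2 c) := by
      intro z
      rw [Fin.prod_univ_succ]
      rfl
    have h2 : ∑' z : X × (Fin k → X),
        ∏ c, F c ((Fin.consEquiv (fun _ : Fin (k + 1) => X)) z c) =
        ∑' (x : X) (f : Fin k → X), F 0 x * ∏ c : Fin k, F c.succ (f c) := by
      rw [← ENNReal.tsum_prod]
      exact tsum_congr h1
    refine h2.trans ?_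
    simp only [ENNReal.tsum_mul_left, ENNReal.tsum_mul_right]
    rw [ih]

theorem gw_nonneg {p : ℕ → ℝ} (hp : ∀ k, 0 ≤ p k) : ∀ (n : ℕ) (t : RTree n), 0 ≤ gw p n t
  | 0, _ => zero_le_one
  | n + 1, t => mul_nonneg (hp _) (Finset.prod_nonneg fun c _ => gw_nonneg hp n (t.2 c))

/-- the Galton–Watson weight as an extended nonnegative real. -/
noncomputable def gwE (p : ℕ → ℝ) (n : ℕ) (t : RTree n) : ℝ≥0∞ := ENNReal.ofReal (gw p n t)

theorem gwE_node {p : ℕ → ℝ} (hp : ∀ k, 0 ≤ p k) (n k : ℕ) (f : Fin k → RTree n) :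
    gwE p (n + 1) (RTree.node k f) = ENNReal.ofReal (p k) * ∏ c, gwE p n (f c) := by
  unfold gwE
  have : gw p (n + 1) (RTree.node k f) = p k * ∏ c, gw p n (f c) := rfl
  rw [this, ENNReal.ofReal_mul (hp k),
    ENNReal.ofReal_prod_of_nonneg (fun c _ => gw_nonneg hp n (f c))]

/-- sums over trees. -/
theorem tsum_tree {n : ℕ} (F : RTree (n + 1) → ℝ≥0∞) :
    ∑' t, F t = ∑' (k : ℕ) (f : Fin k → RTree n), F (RTree.node k f) :=
  ENNReal.tsum_sigma' (fun t : (k : ℕ) × (Fin k → RTree n) => F t)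

theorem tsum_gwE {p : ℕ → ℝ} (hp : ∀ k, 0 ≤ p k) (h1 : HasSum p 1) :
    ∀ n, ∑' t, gwE p n t = 1 := by
  intro n
  induction n with
  | zero =>
    have : ∑' t : Unit, ENNReal.ofReal (gw p 0 t) = 1 := by
      rw [tsum_fintype]
      simp [gw]
    exact this
  | succ n ih =>
    rw [tsum_tree]
    have h2 : ∀ k, ∑' f : Fin k → RTree n, gwE p (n + 1) (RTree.node k f) =
        ENNReal.ofReal (p k) := by
      intro k
      simp only [gwE_node hp, ENNReal.tsum_mul_left]
      rw [tsum_pi k (fun _ => gwE p n)]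
      simp [ih]
    simp only [h2]
    rw [← ENNReal.ofReal_tsum_of_nonneg hp h1.summable, h1.tsum_eq, ENNReal.ofReal_one]

/-- the sum of a function over the Galton–Watson tree. -/
noncomputable def gwSum (p : ℕ → ℝ) (n : ℕ) (F : RTree n → ℝ≥0∞) : ℝ≥0∞ :=
  ∑' t, gwE p n t * F t

theorem tsum_pi_single {p : ℕ → ℝ} (hp : ∀ k, 0 ≤ p k) (h1 : HasSum p 1) {n k : ℕ}
    (F : RTree n → ℝ≥0∞) (a : Fin k) :
    ∑' f : Fin k → RTree n, (∏ c, gwE p n (f c)) * F (f a) = gwSum p n F := by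
  have h2 : ∀ f : Fin k → RTree n, (∏ c, gwE p n (f c)) * F (f a) =
      ∏ c, (gwE p n (f c) * if c = a then F (f c) else 1) := by
    intro f
    rw [Finset.prod_mul_distrib, Finset.prod_ite_eq' univ a (fun c => F (f c))]
    simp
  simp only [h2]
  rw [tsum_pi k (fun c x => gwE p n x * if c = a then F x else 1)]
  have h3 : ∀ c : Fin k, ∑' x, (gwE p n x * if c = a then F x else 1) =
      if c = a then gwSum p n F else 1 := by
    intro c
    by_cases hc : c = a
    · simp [hc, gwSum]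
    · simp [hc, tsum_gwE hp h1]
  simp only [h3]
  rw [Finset.prod_ite_eq' univ a (fun _ => gwSum p n F)]
  simp

theorem tsum_pi_pair {p : ℕ → ℝ} (hp : ∀ k, 0 ≤ p k) (h1 : HasSum p 1) {n k : ℕ}
    (F G : RTree n → ℝ≥0∞) {a b : Fin k} (hab : a ≠ b) :
    ∑' f : Fin k → RTree n, (∏ c, gwE p n (f c)) * (F (f a) * G (f b)) =
      gwSum p n F * gwSum p n G := by
  have h2 : ∀ f : Fin k → RTree n, (∏ c, gwE p n (f c)) * (F (f a) * G (f b)) =
      ∏ c, (gwE p n (f c) * ((if c = a then F (f c) else 1) * if c = b then G (f c) else 1)) := by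
    intro f
    rw [Finset.prod_mul_distrib, Finset.prod_mul_distrib,
      Finset.prod_ite_eq' univ a (fun c => F (f c)), Finset.prod_ite_eq' univ b (fun c => G (f c))]
    simp
  simp only [h2]
  rw [tsum_pi k (fun c x => gwE p n x * ((if c = a then F x else 1) * if c = b then G x else 1))]
  have h3 : ∀ c : Fin k, ∑' x, (gwE p n x * ((if c = a then F x else 1) *
      if c = b then G x else 1)) =
      (if c = a then gwSum p n F else 1) * if c = b then gwSum p n G else 1 := by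
    intro c
    by_cases hc : c = a
    · have : c ≠ b := fun h => hab (hc.symm.trans h)
      simp [hc, hab, gwSum]
    · by_cases hb : c = b
      · simp [hb, hab.symm, gwSum]
      · simp [hc, hb, tsum_gwE hp h1]
  simp only [h3]
  rw [Finset.prod_mul_distrib, Finset.prod_ite_eq' univ a (fun _ => gwSum p n F),
    Finset.prod_ite_eq' univ b (fun _ => gwSum p n G)]
  simp

/-- Jensen. -/
theorem gwSum_sq {p : ℕ → ℝ} (hp : ∀ k, 0 ≤ p k) (h1 : HasSum p 1) {n : ℕ}
    (F : RTree n → ℝ≥0∞) (hF : ∀ t, F t ≠ ⊤) (hfin : gwSum p n F ≠ ⊤) :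
    gwSum p n F ^ 2 ≤ gwSum p n (fun t => F t ^ 2) := by
  set μ := gwSum p n F with hμ
  have hpt : ∀ t, 2 * μ * F t ≤ F t ^ 2 + μ ^ 2 := by
    intro t
    rw [← ENNReal.ofReal_toReal (hF t), ← ENNReal.ofReal_toReal hfin]
    have ha : 0 ≤ (F t).toReal := ENNReal.toReal_nonneg
    have hb : 0 ≤ μ.toReal := ENNReal.toReal_nonneg
    have h2 : (2 : ℝ≥0∞) = ENNReal.ofReal 2 := by simp
    rw [h2, ← ENNReal.ofReal_mul (by norm_num), ← ENNReal.ofReal_mul (by positivity),
      ← ENNReal.ofReal_pow ha, ← ENNReal.ofReal_pow hb, ← ENNReal.ofReal_add (by positivity)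
      (by positivity)]
    refine ENNReal.ofReal_le_ofReal ?_
    nlinarith [sq_nonneg ((F t).toReal - μ.toReal)]
  have hsum : 2 * μ * μ ≤ gwSum p n (fun t => F t ^ 2) + μ ^ 2 := by
    have h3 : 2 * μ * μ = ∑' t, gwE p n t * (2 * μ * F t) := by
      have h6 : ∀ t, gwE p n t * (2 * μ * F t) = 2 * μ * (gwE p n t * F t) := fun t => by ring
      simp only [h6]
      rw [ENNReal.tsum_mul_left]
      rfl
    have h4 : gwSum p n (fun t => F t ^ 2) + μ ^ 2 = ∑' t, gwE p n t * (F t ^ 2 + μ ^ 2) := by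
      simp only [mul_add]
      rw [ENNReal.tsum_add, ENNReal.tsum_mul_right, tsum_gwE hp h1, one_mul]
      rfl
    rw [h3, h4]
    exact ENNReal.tsum_le_tsum fun t => by gcongr; exact hpt t
  have h5 : μ ^ 2 + μ ^ 2 ≤ gwSum p n (fun t => F t ^ 2) + μ ^ 2 := by
    refine le_trans (le_of_eq ?_) hsum
    ring
  exact (ENNReal.add_le_add_iff_right (ENNReal.pow_ne_top hfin)).1 h5

section
variable {q : ℕ} {lam : ℝ} {c : ℝ} {J K : Type} {φV φM : (Fin q → ℝ) → ℝ}
  {γV : J → (Fin q → ℝ) → ℝ} {γM : K → (Fin q → ℝ) → ℝ} {p : ℕ → ℝ}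

/-- the averaged functional of the root. -/
noncomputable def sE (lam : ℝ) (p : ℕ → ℝ) (φV : (Fin q → ℝ) → ℝ) (n : ℕ) : ℝ≥0∞ :=
  gwSum p n (fun t => ENNReal.ofReal (totV lam φV n t))

/-- the averaged functional of the message of the root. -/
noncomputable def mE (lam : ℝ) (p : ℕ → ℝ) (φM : (Fin q → ℝ) → ℝ) (n : ℕ) : ℝ≥0∞ :=
  gwSum p n (fun t => ENNReal.ofReal (totM lam φM n t))

theorem mE_le (S : Scheme q lam c φV φM γV γM) (hq : 0 < q)
    (hP : ∀ i j : Fin q, 0 ≤ potts q lam i j) (n : ℕ) :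
    mE lam p φM n ≤ ENNReal.ofReal (lam ^ 2) * sE lam p φV n := by
  unfold mE sE gwSum
  rw [← ENNReal.tsum_mul_left]
  refine ENNReal.tsum_le_tsum fun t => ?_
  have h1 := ENNReal.ofReal_le_ofReal (S.totM_le hq hP n t)
  rw [ENNReal.ofReal_mul (sq_nonneg lam)] at h1
  calc gwE p n t * ENNReal.ofReal (totM lam φM n t)
      ≤ gwE p n t * (ENNReal.ofReal (lam ^ 2) * ENNReal.ofReal (totV lam φV n t)) := by gcongr
    _ = _ := by ring

theorem step_k (S : Scheme q lam c φV φM γV γM) (hc : 0 < c) (hq : 0 < q)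
    (hP : ∀ i j : Fin q, 0 ≤ potts q lam i j) (hp : ∀ k, 0 ≤ p k) (h1 : HasSum p 1)
    (n k : ℕ) (hfin : mE lam p φM n ≠ ⊤) :
    (∑' f : Fin k → RTree n, (∏ c, gwE p n (f c)) *
        ENNReal.ofReal (totV lam φV (n + 1) (RTree.node k f))) +
      (if 2 ≤ k then ENNReal.ofReal c * (mE lam p φM n ^ 2 * mE lam p φM n) else 0) ≤
      k * mE lam p φM n := by
  have hR : ∑' f : Fin k → RTree n, (∏ c, gwE p n (f c)) *
      (∑ a, ENNReal.ofReal (totM lam φM n (f a))) = k * mE lam p φM n := by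
    simp only [Finset.mul_sum]
    rw [Summable.tsum_finsetSum (fun a _ => ENNReal.summable)]
    simp only [tsum_pi_single hp h1 (fun t => ENNReal.ofReal (totM lam φM n t))]
    rw [Finset.sum_const, card_univ, Fintype.card_fin, nsmul_eq_mul]
    rfl
  rw [← hR]
  split_ifs with hk
  · obtain ⟨k, rfl⟩ : ∃ m, k = m + 2 := ⟨k - 2, by omega⟩
    have hab : Fin.last (k + 1) ≠ Fin.castSucc (Fin.last k) := by
      intro h
      have := congrArg Fin.val h
      simp at this
    have hG := tsum_pi_pair hp h1 (n := n) (fun t => ENNReal.ofReal (totM lam φM n t) ^ 2)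
      (fun t => ENNReal.ofReal (totM lam φM n t)) hab
    have hJ := gwSum_sq hp h1 (n := n) (fun t => ENNReal.ofReal (totM lam φM n t))
      (fun t => ENNReal.ofReal_ne_top) hfin
    have hG' : ENNReal.ofReal c * (mE lam p φM n ^ 2 * mE lam p φM n) ≤
        ∑' f : Fin (k + 2) → RTree n, (∏ c, gwE p n (f c)) * (ENNReal.ofReal c *
          (ENNReal.ofReal (totM lam φM n (f (Fin.last (k + 1)))) ^ 2 *
            ENNReal.ofReal (totM lam φM n (f (Fin.castSucc (Fin.last k)))))) := by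
      have h5 : ∑' f : Fin (k + 2) → RTree n, (∏ c, gwE p n (f c)) * (ENNReal.ofReal c *
          (ENNReal.ofReal (totM lam φM n (f (Fin.last (k + 1)))) ^ 2 *
            ENNReal.ofReal (totM lam φM n (f (Fin.castSucc (Fin.last k)))))) =
          ENNReal.ofReal c * (gwSum p n (fun t => ENNReal.ofReal (totM lam φM n t) ^ 2) *
            gwSum p n (fun t => ENNReal.ofReal (totM lam φM n t))) := by
        rw [← hG, ← ENNReal.tsum_mul_left]
        exact tsum_congr fun f => by ring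
      rw [h5]
      unfold mE
      gcongr
    refine (add_le_add le_rfl hG').trans ?_
    rw [← ENNReal.tsum_add]
    refine ENNReal.tsum_le_tsum fun f => ?_
    rw [← mul_add]
    gcongr
    rw [← ENNReal.ofReal_pow (S.totM_nonneg hq hP n _), ← ENNReal.ofReal_mul (sq_nonneg _),
      ← ENNReal.ofReal_mul hc.le, ← ENNReal.ofReal_add (S.totV_nonneg hq hP _ _)
        (mul_nonneg hc.le (mul_nonneg (sq_nonneg _) (S.totM_nonneg hq hP n _))),
      ← ENNReal.ofReal_sum_of_nonneg (fun a _ => S.totM_nonneg hq hP n _)]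
    exact ENNReal.ofReal_le_ofReal (S.totV_succ_gain hc.le hq hP n k f)
  · rw [add_zero]
    refine ENNReal.tsum_le_tsum fun f => ?_
    gcongr
    rw [← ENNReal.ofReal_sum_of_nonneg (fun a _ => S.totM_nonneg hq hP n _)]
    exact ENNReal.ofReal_le_ofReal (S.totV_succ_le hc.le hq hP n k f)

theorem sE_succ (hp : ∀ k, 0 ≤ p k) (φV : (Fin q → ℝ) → ℝ) (n : ℕ) :
    sE lam p φV (n + 1) = ∑' k, ENNReal.ofReal (p k) *
      ∑' f : Fin k → RTree n, (∏ c, gwE p n (f c)) *
        ENNReal.ofReal (totV lam φV (n + 1) (RTree.node k f)) := by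
  unfold sE gwSum
  rw [tsum_tree]
  refine tsum_congr fun k => ?_
  rw [← ENNReal.tsum_mul_left]
  exact tsum_congr fun f => by rw [gwE_node hp, mul_assoc]

theorem step (S : Scheme q lam c φV φM γV γM) (hc : 0 < c) (hq : 0 < q)
    (hP : ∀ i j : Fin q, 0 ≤ potts q lam i j) (hp : ∀ k, 0 ≤ p k) (h1 : HasSum p 1)
    {d : ℝ} (hd : HasSum (fun k : ℕ => (k : ℝ) * p k) d) (n : ℕ) {k₀ : ℕ} (hk₀ : 2 ≤ k₀)
    (hfin : mE lam p φM n ≠ ⊤) :
    sE lam p φV (n + 1) + ENNReal.ofReal (p k₀ * c) * (mE lam p φM n ^ 2 * mE lam p φM n) ≤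
      ENNReal.ofReal d * mE lam p φM n := by
  rw [sE_succ hp]
  have hD : ENNReal.ofReal d * mE lam p φM n =
      ∑' k : ℕ, ENNReal.ofReal (p k) * (k * mE lam p φM n) := by
    rw [← hd.tsum_eq, ENNReal.ofReal_tsum_of_nonneg
      (fun k => mul_nonneg (Nat.cast_nonneg k) (hp k)) hd.summable, ← ENNReal.tsum_mul_right]
    refine tsum_congr fun k => ?_
    rw [ENNReal.ofReal_mul (Nat.cast_nonneg k), ENNReal.ofReal_natCast]
    ring
  have hG : ENNReal.ofReal (p k₀ * c) * (mE lam p φM n ^ 2 * mE lam p φM n) ≤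
      ∑' k : ℕ, ENNReal.ofReal (p k) *
        (if 2 ≤ k then ENNReal.ofReal c * (mE lam p φM n ^ 2 * mE lam p φM n) else 0) := by
    refine le_trans (le_of_eq ?_) (ENNReal.le_tsum k₀)
    rw [if_pos hk₀, ENNReal.ofReal_mul (hp k₀), mul_assoc]
  rw [hD]
  refine (add_le_add le_rfl hG).trans ?_
  rw [← ENNReal.tsum_add]
  refine ENNReal.tsum_le_tsum fun k => ?_
  rw [← mul_add]
  gcongr
  exact step_k S hc hq hP hp h1 n k hfin

theorem sE_zero_ne_top (φV : (Fin q → ℝ) → ℝ) : sE lam p φV 0 ≠ ⊤ := by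
  have : sE lam p φV 0 = ∑' t : Unit, gwE p 0 t * ENNReal.ofReal (totV lam φV 0 t) := rfl
  rw [this, tsum_fintype]
  simp only [univ_unique, sum_singleton]
  exact ENNReal.mul_ne_top ENNReal.ofReal_ne_top ENNReal.ofReal_ne_top

theorem sE_tendsto (S : Scheme q lam c φV φM γV γM) (hc : 0 < c) (hq : 0 < q)
    (hP : ∀ i j : Fin q, 0 ≤ potts q lam i j) (hp : ∀ k, 0 ≤ p k) (h1 : HasSum p 1)
    {d : ℝ} (hd : HasSum (fun k : ℕ => (k : ℝ) * p k) d) {k₀ : ℕ} (hk₀ : 2 ≤ k₀)
    (hpk : 0 < p k₀) (hks : d * lam ^ 2 ≤ 1) : Tendsto (sE lam p φV) atTop (𝓝 0) := by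
  have hd0 : 0 ≤ d := by
    rw [← hd.tsum_eq]
    exact tsum_nonneg fun k => mul_nonneg (Nat.cast_nonneg k) (hp k)
  have hDM : ∀ n, ENNReal.ofReal d * mE lam p φM n ≤ sE lam p φV n := by
    intro n
    calc ENNReal.ofReal d * mE lam p φM n
        ≤ ENNReal.ofReal d * (ENNReal.ofReal (lam ^ 2) * sE lam p φV n) := by
          gcongr
          exact mE_le S hq hP n
      _ = ENNReal.ofReal (d * lam ^ 2) * sE lam p φV n := by
          rw [ENNReal.ofReal_mul hd0]; ring
      _ ≤ 1 * sE lam p φV n := by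
          gcongr
          rw [← ENNReal.ofReal_one]
          exact ENNReal.ofReal_le_ofReal hks
      _ = _ := one_mul _
  have hfinM' : ∀ n, sE lam p φV n ≠ ⊤ → mE lam p φM n ≠ ⊤ := fun n h =>
    ne_top_of_le_ne_top (ENNReal.mul_ne_top ENNReal.ofReal_ne_top h) (mE_le S hq hP n)
  have hfin : ∀ n, sE lam p φV n ≠ ⊤ := by
    intro n
    induction n with
    | zero => exact sE_zero_ne_top φV
    | succ n ih =>
      refine ne_top_of_le_ne_top ih (le_trans ?_ (hDM n))
      exact le_trans le_self_add (step S hc hq hP hp h1 hd n hk₀ (hfinM' n ih))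
  have hfinM : ∀ n, mE lam p φM n ≠ ⊤ := fun n => hfinM' n (hfin n)
  have hstep := fun n => step S hc hq hP hp h1 hd n hk₀ (hfinM n)
  have hreal : Tendsto (fun n => (sE lam p φV n).toReal) atTop (𝓝 0) := by
    refine seq_tendsto (M := fun n => (mE lam p φM n).toReal) (c := p k₀ * c) (D := d)
      (mul_pos hpk hc) (fun n => ENNReal.toReal_nonneg) (fun n => ENNReal.toReal_nonneg)
      (fun n => ?_) (fun n => ?_)
    · have h2 := ENNReal.toReal_mono (hfin n) ((hstep n).trans (hDM n))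
      rw [ENNReal.toReal_add (hfin _) (ENNReal.mul_ne_top ENNReal.ofReal_ne_top
        (ENNReal.mul_ne_top (ENNReal.pow_ne_top (hfinM n)) (hfinM n))), ENNReal.toReal_mul,
        ENNReal.toReal_mul, ENNReal.toReal_pow,
        ENNReal.toReal_ofReal (mul_nonneg hpk.le hc.le)] at h2
      exact h2
    · have h2 := ENNReal.toReal_mono (ENNReal.mul_ne_top ENNReal.ofReal_ne_top (hfinM n))
        (le_trans le_self_add (hstep n))
      rw [ENNReal.toReal_mul, ENNReal.toReal_ofReal hd0] at h2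
      exact h2
  rw [← ENNReal.tendsto_toReal_iff hfin ENNReal.zero_ne_top]
  simpa using hreal

/-- nonreconstruction on Galton–Watson trees. -/
theorem gw_tendsto (S : Scheme q lam c φV φM γV γM) (hc : 0 < c) (hq : 0 < q)
    (hP : ∀ i j : Fin q, 0 ≤ potts q lam i j) {C : ℝ} (hC : 0 ≤ C)
    (hchi : ∀ v : Fin q → ℝ, (∀ i, 0 ≤ v i) → chi q v ≤ C * φV v)
    (hp : ∀ k, 0 ≤ p k) (h1 : HasSum p 1)
    {d : ℝ} (hd : HasSum (fun k : ℕ => (k : ℝ) * p k) d) {k₀ : ℕ} (hk₀ : 2 ≤ k₀)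
    (hpk : 0 < p k₀) (hks : d * lam ^ 2 ≤ 1) :
    Tendsto (fun n => ∑' t : RTree n, ENNReal.ofReal (gw p n t * tvTree q lam n t)) atTop
      (𝓝 0) := by
  have hs := sE_tendsto S hc hq hP hp h1 hd hk₀ hpk hks
  have hq0 : (0 : ℝ) < q := by exact_mod_cast hq
  have hbound : ∀ (δ : ℝ), 0 < δ → ∀ n,
      ∑' t : RTree n, ENNReal.ofReal (gw p n t * tvTree q lam n t) ≤
        ENNReal.ofReal δ + ENNReal.ofReal (1 / (16 * q * δ) * C) * sE lam p φV n := by
    intro δ hδ n
    have hterm : ∀ t : RTree n, ENNReal.ofReal (gw p n t * tvTree q lam n t) ≤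
        gwE p n t * ENNReal.ofReal δ + ENNReal.ofReal (1 / (16 * q * δ) * C) *
          (gwE p n t * ENNReal.ofReal (totV lam φV n t)) := by
      intro t
      have hC0 : 0 ≤ 1 / (16 * (q : ℝ) * δ) * C := by positivity
      have h2 : tvTree q lam n t ≤ δ + (1 / (16 * q * δ) * C) * totV lam φV n t := by
        have hA : tot (chi q) (fun (x : Conf q n t) (i : Fin q) => law q lam n t i x) ≤
            C * totV lam φV n t := by
          unfold totV tot
          rw [Finset.mul_sum]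
          exact Finset.sum_le_sum fun x _ => hchi _ ((law_fam hq hP n _).nonneg x)
        rw [tvTree_eq, mul_assoc]
        exact (tvFam_le hq (law_fam hq hP n t) hδ).trans
          (add_le_add le_rfl (mul_le_mul_of_nonneg_left hA (by positivity)))
      rw [ENNReal.ofReal_mul (gw_nonneg hp n t)]
      have h3 := ENNReal.ofReal_le_ofReal h2
      rw [ENNReal.ofReal_add hδ.le (mul_nonneg hC0 (S.totV_nonneg hq hP n t)),
        ENNReal.ofReal_mul hC0] at h3
      calc ENNReal.ofReal (gw p n t) * ENNReal.ofReal (tvTree q lam n t)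
          ≤ ENNReal.ofReal (gw p n t) * (ENNReal.ofReal δ +
            ENNReal.ofReal (1 / (16 * q * δ) * C) * ENNReal.ofReal (totV lam φV n t)) := by
            gcongr
        _ = _ := by
            unfold gwE
            ring
    refine (ENNReal.tsum_le_tsum hterm).trans ?_
    rw [ENNReal.tsum_add, ENNReal.tsum_mul_right, tsum_gwE hp h1, one_mul,
      ENNReal.tsum_mul_left]
    rfl
  rw [ENNReal.tendsto_atTop_zero]
  intro ε hε
  -- choose δ
  obtain ⟨δ, hδ, hδε⟩ : ∃ δ : ℝ, 0 < δ ∧ ENNReal.ofReal δ ≤ ε / 2 := by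
    by_cases htop : ε = ⊤
    · exact ⟨1, one_pos, by rw [htop, ENNReal.top_div_of_ne_top ENNReal.ofNat_ne_top]; exact le_top⟩
    · refine ⟨(ε / 2).toReal, ENNReal.toReal_pos (ENNReal.half_pos hε.ne').ne' ?_, ?_⟩
      · exact (ENNReal.div_lt_top htop two_ne_zero).ne
      · rw [ENNReal.ofReal_toReal (ENNReal.div_lt_top htop two_ne_zero).ne]
  have hs2 : Tendsto (fun n => ENNReal.ofReal (1 / (16 * q * δ) * C) * sE lam p φV n) atTop
      (𝓝 0) := by
    have := ENNReal.Tendsto.const_mul hs (Or.inr (ENNReal.ofReal_ne_top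
      (r := 1 / (16 * q * δ) * C)))
    simpa using this
  rw [ENNReal.tendsto_atTop_zero] at hs2
  obtain ⟨N, hN⟩ := hs2 (ε / 2) (ENNReal.half_pos hε.ne')
  refine ⟨N, fun n hn => (hbound δ hδ n).trans ?_⟩
  calc ENNReal.ofReal δ + ENNReal.ofReal (1 / (16 * q * δ) * C) * sE lam p φV n
      ≤ ε / 2 + ε / 2 := add_le_add hδε (hN n hn)
    _ = ε := ENNReal.add_halves ε

end

end Vale.Agent.H17.P154
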