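import Vale.Agent.H17.P154.KSTree

/-!
# The Kesten–Stigum direction: conclusion (P154)
-/

namespace Vale.Agent.H17.P154

open Finset Filter Topology ENNReal

theorem vr_bound {κ d lam m K : ℝ} {V : ℕ → ℝ} (hκ : 0 ≤ κ) (hd : 0 < d) (hK : 1 ≤ K)
    (hm : m ≤ K * d ^ 2) (hks : 1 < d * lam ^ 2) (h0 : V 0 ≤ κ)
    (hV : ∀ n, V (n + 1) ≤ d * V n + κ * lam ^ (2 * (n + 1)) * (m * (d ^ n) ^ 2)) (n : ℕ) :
    V n ≤ κ * K * (d * lam ^ 2) / (d * lam ^ 2 - 1) * ((d * lam) ^ n) ^ 2 := by
  have hx : 0 < d * lam ^ 2 - 1 := by linarith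
  induction n with
  | zero =>
    rw [pow_zero, one_pow, mul_one]
    refine h0.trans ?_
    rw [le_div_iff₀ hx]
    have : κ * (d * lam ^ 2 - 1) ≤ κ * (d * lam ^ 2) :=
      mul_le_mul_of_nonneg_left (by linarith) hκ
    have h2 : κ * (d * lam ^ 2) ≤ κ * K * (d * lam ^ 2) := by
      have : 0 ≤ κ * (d * lam ^ 2) := mul_nonneg hκ (by linarith)
      nlinarith
    linarith
  | succ n ih =>
    refine (hV n).trans ?_
    have hl : 0 ≤ lam ^ (2 * (n + 1)) := by rw [pow_mul]; positivity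
    have h1 : d * V n ≤ d * (κ * K * (d * lam ^ 2) / (d * lam ^ 2 - 1) * ((d * lam) ^ n) ^ 2) :=
      mul_le_mul_of_nonneg_left ih hd.le
    have h2 : κ * lam ^ (2 * (n + 1)) * (m * (d ^ n) ^ 2) ≤
        κ * lam ^ (2 * (n + 1)) * (K * d ^ 2 * (d ^ n) ^ 2) := by
      refine mul_le_mul_of_nonneg_left ?_ (mul_nonneg hκ hl)
      exact mul_le_mul_of_nonneg_right hm (by positivity)
    refine (add_le_add h1 h2).trans (le_of_eq ?_)
    have e1 : ((d * lam) ^ (n + 1)) ^ 2 = (d * lam) ^ 2 * ((d * lam) ^ n) ^ 2 := by ring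
    have e2 : lam ^ (2 * (n + 1)) * (K * d ^ 2 * (d ^ n) ^ 2) =
        K * (d * lam) ^ 2 * ((d * lam) ^ n) ^ 2 := by ring
    have e3 : κ * lam ^ (2 * (n + 1)) * (K * d ^ 2 * (d ^ n) ^ 2) =
        κ * (K * (d * lam) ^ 2 * ((d * lam) ^ n) ^ 2) := by rw [← e2]; ring
    rw [e3, e1]
    have hx' := hx.ne'
    field_simp
    ring

theorem lower_of_bound {q : ℕ} (hq : 2 ≤ q) {κ K x l V T : ℝ} (hκ : 0 < κ) (hK : 1 ≤ K)
    (hx : 1 < x) (hl : l ≠ 0) (hV : V ≤ κ * K * x / (x - 1) * l ^ 2)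
    (h : ∀ τ : ℝ, 2 * τ * ((q - 1) * l) ≤ τ ^ 2 * V + 2 * q ^ 2 * T) :
    (q - 1) ^ 2 / (2 * q ^ 2 * (κ * K * x / (x - 1))) ≤ T := by
  have hq2 : (2 : ℝ) ≤ q := by exact_mod_cast hq
  have hx1 : 0 < x - 1 := by linarith
  set R : ℝ := κ * K * x / (x - 1) with hR
  have hRpos : 0 < R := by
    rw [hR]
    have : 0 < K := by linarith
    have : 0 < x := by linarith
    positivity
  have h1 := h ((q - 1) / (R * l))
  have h2 : ((q - 1) / (R * l)) ^ 2 * V ≤ ((q - 1) / (R * l)) ^ 2 * (R * l ^ 2) :=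
    mul_le_mul_of_nonneg_left hV (sq_nonneg _)
  have h3 : ((q - 1) / (R * l)) ^ 2 * (R * l ^ 2) = (q - 1) ^ 2 / R := by
    field_simp
  have h4 : 2 * (((q : ℝ) - 1) / (R * l)) * ((q - 1) * l) = 2 * ((q - 1) ^ 2 / R) := by
    field_simp
  rw [div_le_iff₀ (by positivity)]
  have h5 : ((q : ℝ) - 1) ^ 2 / R ≤ 2 * q ^ 2 * T := by linarith
  rw [div_le_iff₀ hRpos] at h5
  linarith

theorem sum_off_const {k : ℕ} (c : ℝ≥0∞) :
    ∑ a : Fin k, ∑ b : Fin k, (if a = b then 0 else c) = ENNReal.ofReal ((k : ℝ) * (k - 1)) * c := by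
  cases k with
  | zero => simp
  | succ k =>
    have h1 : ∀ a : Fin (k + 1), ∑ b : Fin (k + 1), (if a = b then 0 else c) = k * c := by
      intro a
      rw [Finset.sum_ite, Finset.sum_const_zero, zero_add, Finset.sum_const, nsmul_eq_mul]
      congr 2
      rw [Finset.filter_ne, Finset.card_erase_of_mem (mem_univ a), card_univ, Fintype.card_fin]
      simp
    simp only [h1, Finset.sum_const, card_univ, Fintype.card_fin, nsmul_eq_mul]
    have h2 : (((k + 1 : ℕ) : ℝ) * (((k + 1 : ℕ) : ℝ) - 1)) = (((k + 1) * k : ℕ) : ℝ) := by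
      push_cast; ring
    rw [h2, ENNReal.ofReal_natCast]
    push_cast
    ring

section
variable {q : ℕ} {lam : ℝ} {p : ℕ → ℝ}

theorem lv_dary (d n : ℕ) : lv n (dary d n) = (d : ℝ) ^ n := by
  induction n with
  | zero => simp [lv]
  | succ n ih =>
    have : lv (n + 1) (dary d (n + 1)) = ∑ c : Fin d, lv n (dary d n) := rfl
    rw [this, ih]
    simp [pow_succ, mul_comm]

theorem vr_dary (d n : ℕ) : vr q lam (n + 1) (dary d (n + 1)) =
    d * vr q lam n (dary d n) +
      (1 - 1 / q) * lam ^ (2 * (n + 1)) * ((d * (d - 1)) * ((d : ℝ) ^ n) ^ 2) := by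
  have h : vr q lam (n + 1) (dary d (n + 1)) = ∑ c : Fin d, vr q lam n (dary d n) +
      (1 - 1 / q) * lam ^ (2 * (n + 1)) *
        ∑ a : Fin d, ∑ b : Fin d, if a = b then 0 else lv n (dary d n) * lv n (dary d n) := rfl
  rw [h, lv_dary]
  congr 1
  · simp
  · congr 1
    cases d with
    | zero => simp
    | succ d =>
      have h1 : ∀ a : Fin (d + 1), ∑ b : Fin (d + 1),
          (if a = b then (0 : ℝ) else ((d + 1 : ℕ) : ℝ) ^ n * ((d + 1 : ℕ) : ℝ) ^ n) =
          d * (((d + 1 : ℕ) : ℝ) ^ n * ((d + 1 : ℕ) : ℝ) ^ n) := by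
        intro a
        rw [Finset.sum_ite, Finset.sum_const_zero, zero_add, Finset.sum_const, nsmul_eq_mul]
        congr 2
        rw [Finset.filter_ne, Finset.card_erase_of_mem (mem_univ a), card_univ, Fintype.card_fin]
        simp
      simp only [h1, Finset.sum_const, card_univ, Fintype.card_fin, nsmul_eq_mul]
      push_cast
      ring

/-- reconstruction above the Kesten–Stigum bound on the `d`-ary tree. -/
theorem dary_lower (hq : 2 ≤ q) (hP : ∀ i j : Fin q, 0 ≤ potts q lam i j) {d : ℕ} (hd : 1 ≤ d)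
    (hks : 1 < d * lam ^ 2) : ∃ c : ℝ, 0 < c ∧ ∀ n, c ≤ tvTree q lam n (dary d n) := by
  have hq2 : (2 : ℝ) ≤ q := by exact_mod_cast hq
  have hd0 : (1 : ℝ) ≤ d := by exact_mod_cast hd
  have hlam : lam ≠ 0 := by
    rintro rfl
    norm_num at hks
  have hκ : (0 : ℝ) < 1 - 1 / q := by
    rw [sub_pos, div_lt_one (by linarith)]
    linarith
  have hb := vr_bound (κ := 1 - 1 / (q : ℝ)) (d := d) (lam := lam) (m := d * (d - 1)) (K := 1)
    (V := fun n => vr q lam n (dary d n)) hκ.le (by linarith) le_rfl (by nlinarith) hks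
    le_rfl (fun n => (vr_dary d n).le)
  refine ⟨((q : ℝ) - 1) ^ 2 / (2 * q ^ 2 * ((1 - 1 / (q : ℝ)) * 1 * (d * lam ^ 2) /
    (d * lam ^ 2 - 1))), ?_, fun n => ?_⟩
  · have h1 : 0 < (q : ℝ) - 1 := by linarith
    have h2 : 0 < (d : ℝ) * lam ^ 2 - 1 := by linarith
    have h3 : 0 < (d : ℝ) * lam ^ 2 := by linarith
    positivity
  · refine lower_of_bound hq hκ le_rfl hks (l := (d * lam) ^ n)
      (pow_ne_zero n (mul_ne_zero (by linarith) hlam)) (hb n) (fun τ => ?_)
    have := tv_lower (by omega : 0 < q) hP n (dary d n) τ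
    rw [lv_dary, ← mul_pow] at this
    exact this

theorem gwSum_succ (hp : ∀ k, 0 ≤ p k) (n : ℕ) (F : RTree (n + 1) → ℝ≥0∞) :
    gwSum p (n + 1) F = ∑' k, ENNReal.ofReal (p k) *
      ∑' f : Fin k → RTree n, (∏ c, gwE p n (f c)) * F (RTree.node k f) := by
  unfold gwSum
  rw [tsum_tree]
  refine tsum_congr fun k => ?_
  rw [← ENNReal.tsum_mul_left]
  exact tsum_congr fun f => by rw [gwE_node hp, mul_assoc]

theorem gwSum_zero (F : RTree 0 → ℝ≥0∞) : gwSum p 0 F = F () := by
  have : gwSum p 0 F = ∑' t : Unit, gwE p 0 t * F t := rfl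
  rw [this, tsum_fintype]
  simp only [univ_unique, sum_singleton]
  have h2 : gwE p 0 (default : Unit) = 1 := by simp [gwE, gw]
  rw [h2, one_mul]

theorem tsum_mean (hp : ∀ k, 0 ≤ p k) {d : ℝ} (hd : HasSum (fun k : ℕ => (k : ℝ) * p k) d) :
    ∑' k : ℕ, ENNReal.ofReal (p k) * k = ENNReal.ofReal d := by
  rw [← hd.tsum_eq, ENNReal.ofReal_tsum_of_nonneg
      (fun k => mul_nonneg (Nat.cast_nonneg k) (hp k)) hd.summable]
  refine tsum_congr fun k => ?_
  rw [ENNReal.ofReal_mul (Nat.cast_nonneg k), ENNReal.ofReal_natCast, mul_comm]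

theorem gwSum_lv (hp : ∀ k, 0 ≤ p k) (h1 : HasSum p 1)
    {d : ℝ} (hd : HasSum (fun k : ℕ => (k : ℝ) * p k) d) (hd0 : 0 ≤ d) (n : ℕ) :
    gwSum p n (fun t => ENNReal.ofReal (lv n t)) = ENNReal.ofReal (d ^ n) := by
  induction n with
  | zero => rw [gwSum_zero]; simp [lv]
  | succ n ih =>
    rw [gwSum_succ hp]
    have h2 : ∀ k, ∑' f : Fin k → RTree n, (∏ c, gwE p n (f c)) *
        ENNReal.ofReal (lv (n + 1) (RTree.node k f)) = k * ENNReal.ofReal (d ^ n) := by
      intro k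
      have h3 : ∀ f : Fin k → RTree n, (∏ c, gwE p n (f c)) *
          ENNReal.ofReal (lv (n + 1) (RTree.node k f)) =
          ∑ a, (∏ c, gwE p n (f c)) * ENNReal.ofReal (lv n (f a)) := by
        intro f
        have : lv (n + 1) (RTree.node k f) = ∑ a, lv n (f a) := rfl
        rw [this, ENNReal.ofReal_sum_of_nonneg (fun a _ => lv_nonneg n _), Finset.mul_sum]
      simp only [h3]
      rw [Summable.tsum_finsetSum (fun a _ => ENNReal.summable)]
      simp only [tsum_pi_single hp h1 (fun t => ENNReal.ofReal (lv n t)), ih]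
      simp
    simp only [h2, ← mul_assoc]
    rw [ENNReal.tsum_mul_right, tsum_mean hp hd, pow_succ, mul_comm (d ^ n),
      ENNReal.ofReal_mul hd0]

/-- the averaged second moment. -/
noncomputable def vrAvg (q : ℕ) (lam d m : ℝ) : ℕ → ℝ
  | 0 => 1 - 1 / q
  | n + 1 => d * vrAvg q lam d m n + (1 - 1 / q) * lam ^ (2 * (n + 1)) * (m * (d ^ n) ^ 2)

theorem vrAvg_nonneg (hq : 0 < q) {d m : ℝ} (hd0 : 0 ≤ d) (hm0 : 0 ≤ m) :
    ∀ n, 0 ≤ vrAvg q lam d m n
  | 0 => one_sub_inv_nonneg hq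
  | n + 1 => by
    have h1 := vrAvg_nonneg hq hd0 hm0 n
    have h2 : 0 ≤ lam ^ (2 * (n + 1)) := by rw [pow_mul]; positivity
    have h3 := one_sub_inv_nonneg hq
    unfold vrAvg
    positivity

theorem gwSum_vr (hq : 0 < q) (hp : ∀ k, 0 ≤ p k) (h1 : HasSum p 1)
    {d m : ℝ} (hd : HasSum (fun k : ℕ => (k : ℝ) * p k) d) (hd0 : 0 ≤ d)
    (hm : HasSum (fun k : ℕ => (k : ℝ) * (k - 1) * p k) m) (hm0 : 0 ≤ m) (n : ℕ) :
    gwSum p n (fun t => ENNReal.ofReal (vr q lam n t)) =
      ENNReal.ofReal (vrAvg q lam d m n) := by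
  induction n with
  | zero => rw [gwSum_zero]; rfl
  | succ n ih =>
    rw [gwSum_succ hp]
    have hl : 0 ≤ lam ^ (2 * (n + 1)) := by rw [pow_mul]; positivity
    have hκ := one_sub_inv_nonneg hq
    have h2 : ∀ k, ∑' f : Fin k → RTree n, (∏ c, gwE p n (f c)) *
        ENNReal.ofReal (vr q lam (n + 1) (RTree.node k f)) =
        k * ENNReal.ofReal (vrAvg q lam d m n) +
          ENNReal.ofReal ((1 - 1 / q) * lam ^ (2 * (n + 1))) *
            (ENNReal.ofReal ((k : ℝ) * (k - 1)) *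
              (ENNReal.ofReal (d ^ n) * ENNReal.ofReal (d ^ n))) := by
      intro k
      have h3 : ∀ f : Fin k → RTree n, (∏ c, gwE p n (f c)) *
          ENNReal.ofReal (vr q lam (n + 1) (RTree.node k f)) =
          ∑ a, (∏ c, gwE p n (f c)) * ENNReal.ofReal (vr q lam n (f a)) +
          ENNReal.ofReal ((1 - 1 / q) * lam ^ (2 * (n + 1))) *
            ∑ a, ∑ b, (∏ c, gwE p n (f c)) *
              (if a = b then 0 else ENNReal.ofReal (lv n (f a)) * ENNReal.ofReal (lv n (f b))) := by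
        intro f
        have h4 : vr q lam (n + 1) (RTree.node k f) = ∑ a, vr q lam n (f a) +
          (1 - 1 / q) * lam ^ (2 * (n + 1)) *
            ∑ a, ∑ b, if a = b then 0 else lv n (f a) * lv n (f b) := rfl
        have h5 : ∀ a b, 0 ≤ (if a = b then 0 else lv n (f a) * lv n (f b)) := by
          intro a b
          split_ifs
          · exact le_rfl
          · exact mul_nonneg (lv_nonneg _ _) (lv_nonneg _ _)
        rw [h4, ENNReal.ofReal_add (Finset.sum_nonneg fun a _ => vr_nonneg hq lam n _)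
          (mul_nonneg (mul_nonneg hκ hl)
            (Finset.sum_nonneg fun a _ => Finset.sum_nonneg fun b _ => h5 a b)),
          ENNReal.ofReal_mul (mul_nonneg hκ hl),
          ENNReal.ofReal_sum_of_nonneg (fun a _ => vr_nonneg hq lam n _),
          ENNReal.ofReal_sum_of_nonneg (fun a _ => Finset.sum_nonneg fun b _ => h5 a b)]
        have h6 : ∀ a, ENNReal.ofReal (∑ b, if a = b then 0 else lv n (f a) * lv n (f b)) =
            ∑ b, (if a = b then 0 else ENNReal.ofReal (lv n (f a)) * ENNReal.ofReal (lv n (f b))) := by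
          intro a
          rw [ENNReal.ofReal_sum_of_nonneg (fun b _ => h5 a b)]
          refine Finset.sum_congr rfl fun b _ => ?_
          split_ifs
          · simp
          · rw [ENNReal.ofReal_mul (lv_nonneg _ _)]
        simp only [h6, mul_add, Finset.mul_sum]
        congr 1
        refine Finset.sum_congr rfl fun a _ => Finset.sum_congr rfl fun b _ => ?_
        ring
      simp only [h3]
      rw [ENNReal.tsum_add, ENNReal.tsum_mul_left,
        Summable.tsum_finsetSum (fun a _ => ENNReal.summable),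
        Summable.tsum_finsetSum (fun a _ => ENNReal.summable)]
      simp only [tsum_pi_single hp h1 (fun t => ENNReal.ofReal (vr q lam n t)), ih]
      congr 1
      · simp
      · congr 1
        rw [← sum_off_const]
        refine Finset.sum_congr rfl fun a _ => ?_
        rw [Summable.tsum_finsetSum (fun a _ => ENNReal.summable)]
        refine Finset.sum_congr rfl fun b _ => ?_
        by_cases hab : a = b
        · simp [hab]
        · simp only [hab, if_false]
          rw [tsum_pi_pair hp h1 (fun t => ENNReal.ofReal (lv n t))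
            (fun t => ENNReal.ofReal (lv n t)) hab,
            gwSum_lv hp h1 hd hd0]
    simp only [h2]
    have h11 : ∀ k : ℕ, ENNReal.ofReal (p k) * (k * ENNReal.ofReal (vrAvg q lam d m n) +
          ENNReal.ofReal ((1 - 1 / q) * lam ^ (2 * (n + 1))) *
            (ENNReal.ofReal ((k : ℝ) * (k - 1)) *
              (ENNReal.ofReal (d ^ n) * ENNReal.ofReal (d ^ n)))) =
        ENNReal.ofReal (p k) * (k * ENNReal.ofReal (vrAvg q lam d m n)) +
        ENNReal.ofReal (p k) * (ENNReal.ofReal ((1 - 1 / q) * lam ^ (2 * (n + 1))) *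
            (ENNReal.ofReal ((k : ℝ) * (k - 1)) *
              (ENNReal.ofReal (d ^ n) * ENNReal.ofReal (d ^ n)))) := fun k => by rw [mul_add]
    simp only [h11]
    rw [ENNReal.tsum_add]
    have h7 : ∑' k : ℕ, ENNReal.ofReal (p k) * (k * ENNReal.ofReal (vrAvg q lam d m n)) =
        ENNReal.ofReal (d * vrAvg q lam d m n) := by
      simp only [← mul_assoc]
      rw [ENNReal.tsum_mul_right, tsum_mean hp hd, ENNReal.ofReal_mul hd0]
    have h8 : ∑' k : ℕ, ENNReal.ofReal (p k) *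
        (ENNReal.ofReal ((1 - 1 / q) * lam ^ (2 * (n + 1))) *
            (ENNReal.ofReal ((k : ℝ) * (k - 1)) *
              (ENNReal.ofReal (d ^ n) * ENNReal.ofReal (d ^ n)))) =
        ENNReal.ofReal ((1 - 1 / q) * lam ^ (2 * (n + 1)) * (m * (d ^ n) ^ 2)) := by
      have h9 : ∀ k : ℕ, ENNReal.ofReal (p k) *
        (ENNReal.ofReal ((1 - 1 / q) * lam ^ (2 * (n + 1))) *
            (ENNReal.ofReal ((k : ℝ) * (k - 1)) *
              (ENNReal.ofReal (d ^ n) * ENNReal.ofReal (d ^ n)))) =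
          (ENNReal.ofReal ((1 - 1 / q) * lam ^ (2 * (n + 1))) *
            (ENNReal.ofReal (d ^ n) * ENNReal.ofReal (d ^ n))) *
            ENNReal.ofReal ((k : ℝ) * (k - 1) * p k) := by
        intro k
        rw [ENNReal.ofReal_mul' (hp k)]
        ring
      have h10 : ∀ k : ℕ, 0 ≤ (k : ℝ) * (k - 1) * p k := by
        intro k
        refine mul_nonneg ?_ (hp k)
        rcases Nat.eq_zero_or_pos k with rfl | hk
        · simp
        · have : (1 : ℝ) ≤ k := by exact_mod_cast hk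
          exact mul_nonneg (by linarith) (by linarith)
      simp only [h9]
      rw [ENNReal.tsum_mul_left, ← ENNReal.ofReal_tsum_of_nonneg h10 hm.summable, hm.tsum_eq,
        ← ENNReal.ofReal_mul (by positivity), ← ENNReal.ofReal_mul (mul_nonneg hκ hl),
        ← ENNReal.ofReal_mul (by positivity)]
      congr 1
      ring
    rw [h7, h8, ← ENNReal.ofReal_add (mul_nonneg hd0 (vrAvg_nonneg hq hd0 hm0 n)) (by positivity)]
    rfl

/-- reconstruction above the Kesten–Stigum bound on Galton–Watson trees. -/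
theorem gw_lower (hq : 2 ≤ q) (hP : ∀ i j : Fin q, 0 ≤ potts q lam i j)
    (hp : ∀ k, 0 ≤ p k) (h1 : HasSum p 1)
    {d m : ℝ} (hd : HasSum (fun k : ℕ => (k : ℝ) * p k) d)
    (hm : HasSum (fun k : ℕ => (k : ℝ) * (k - 1) * p k) m) (hks : 1 < d * lam ^ 2) :
    ∃ c : ℝ, 0 < c ∧ ∀ n, ENNReal.ofReal c ≤
      ∑' t : RTree n, ENNReal.ofReal (gw p n t * tvTree q lam n t) := by
  have hq0 : 0 < q := by omega
  have hq2 : (2 : ℝ) ≤ q := by exact_mod_cast hq
  have hd0 : 0 ≤ d := by
    rw [← hd.tsum_eq]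
    exact tsum_nonneg fun k => mul_nonneg (Nat.cast_nonneg k) (hp k)
  have hd1 : 0 < d := by
    rcases eq_or_lt_of_le hd0 with h | h
    · rw [← h] at hks; norm_num at hks
    · exact h
  have hm0 : 0 ≤ m := by
    rw [← hm.tsum_eq]
    refine tsum_nonneg fun k => mul_nonneg ?_ (hp k)
    rcases Nat.eq_zero_or_pos k with rfl | hk
    · simp
    · have : (1 : ℝ) ≤ k := by exact_mod_cast hk
      exact mul_nonneg (by linarith) (by linarith)
  have hlam : lam ≠ 0 := by
    rintro rfl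
    norm_num at hks
  have hκ : (0 : ℝ) < 1 - 1 / q := by
    rw [sub_pos, div_lt_one (by linarith)]
    linarith
  set K : ℝ := 1 + m / d ^ 2 with hKdef
  have hK1 : 1 ≤ K := by
    have : 0 ≤ m / d ^ 2 := by positivity
    linarith
  have hKm : m ≤ K * d ^ 2 := by
    rw [hKdef, add_mul, div_mul_cancel₀ _ (by positivity)]
    nlinarith
  have hb := vr_bound (κ := 1 - 1 / (q : ℝ)) (d := d) (lam := lam) (m := m) (K := K)
    (V := vrAvg q lam d m) hκ.le hd1 hK1 hKm hks le_rfl (fun n => le_rfl)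
  refine ⟨((q : ℝ) - 1) ^ 2 / (2 * q ^ 2 * ((1 - 1 / (q : ℝ)) * K * (d * lam ^ 2) /
    (d * lam ^ 2 - 1))), ?_, fun n => ?_⟩
  · have h2 : 0 < (q : ℝ) - 1 := by linarith
    have h3 : 0 < (d : ℝ) * lam ^ 2 - 1 := by linarith
    have h4 : 0 < (d : ℝ) * lam ^ 2 := by linarith
    positivity
  · by_cases htop : ∑' t : RTree n, ENNReal.ofReal (gw p n t * tvTree q lam n t) = ⊤
    · rw [htop]; exact le_top
    rw [ENNReal.ofReal_le_iff_le_toReal htop]
    set T := (∑' t : RTree n, ENNReal.ofReal (gw p n t * tvTree q lam n t)).toReal with hT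
    refine lower_of_bound hq hκ hK1 hks (l := (d * lam) ^ n)
      (pow_ne_zero n (mul_ne_zero hd1.ne' hlam)) (hb n) (fun τ => ?_)
    have htv : ∀ t : RTree n, 0 ≤ tvTree q lam n t := fun t => by
      rw [tvTree_eq]
      exact tvFam_nonneg hq0 (law_fam hq0 hP n t)
    have hV0 := vrAvg_nonneg (lam := lam) hq0 hd0 hm0 n
    have hT0 : 0 ≤ T := ENNReal.toReal_nonneg
    by_cases hs : 0 ≤ 2 * τ * ((q - 1) * lam ^ n)
    · have hA : ENNReal.ofReal (2 * τ * ((q - 1) * lam ^ n)) * ENNReal.ofReal (d ^ n) ≤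
          ENNReal.ofReal (τ ^ 2) * ENNReal.ofReal (vrAvg q lam d m n) +
            ENNReal.ofReal (2 * q ^ 2) *
              ∑' t : RTree n, ENNReal.ofReal (gw p n t * tvTree q lam n t) := by
        rw [← gwSum_lv hp h1 hd hd0 n, ← gwSum_vr hq0 hp h1 hd hd0 hm hm0 n]
        unfold gwSum
        rw [← ENNReal.tsum_mul_left, ← ENNReal.tsum_mul_left, ← ENNReal.tsum_mul_left,
          ← ENNReal.tsum_add]
        refine ENNReal.tsum_le_tsum fun t => ?_
        have h5 := tv_lower hq0 hP n t τ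
        have h6 : 2 * τ * ((q - 1) * lam ^ n) * lv n t ≤
            τ ^ 2 * vr q lam n t + 2 * q ^ 2 * tvTree q lam n t := by
          refine le_trans (le_of_eq ?_) h5
          ring
        have h7 := ENNReal.ofReal_le_ofReal h6
        rw [ENNReal.ofReal_mul hs, ENNReal.ofReal_add
          (mul_nonneg (sq_nonneg _) (vr_nonneg hq0 lam n t))
          (mul_nonneg (by positivity) (htv t)), ENNReal.ofReal_mul (sq_nonneg τ),
          ENNReal.ofReal_mul (by positivity : (0 : ℝ) ≤ 2 * q ^ 2)] at h7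
        rw [ENNReal.ofReal_mul (gw_nonneg hp n t)]
        calc ENNReal.ofReal (2 * τ * ((q - 1) * lam ^ n)) * (gwE p n t * ENNReal.ofReal (lv n t))
            = gwE p n t * (ENNReal.ofReal (2 * τ * ((q - 1) * lam ^ n)) *
                ENNReal.ofReal (lv n t)) := by ring
          _ ≤ gwE p n t * (ENNReal.ofReal (τ ^ 2) * ENNReal.ofReal (vr q lam n t) +
                ENNReal.ofReal (2 * q ^ 2) * ENNReal.ofReal (tvTree q lam n t)) := by gcongr
          _ = _ := by
              unfold gwE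
              ring
      have hB := ENNReal.toReal_mono (ENNReal.add_ne_top.2
        ⟨ENNReal.mul_ne_top ENNReal.ofReal_ne_top ENNReal.ofReal_ne_top,
          ENNReal.mul_ne_top ENNReal.ofReal_ne_top htop⟩) hA
      rw [ENNReal.toReal_add (ENNReal.mul_ne_top ENNReal.ofReal_ne_top ENNReal.ofReal_ne_top)
          (ENNReal.mul_ne_top ENNReal.ofReal_ne_top htop), ENNReal.toReal_mul,
        ENNReal.toReal_mul, ENNReal.toReal_mul, ENNReal.toReal_ofReal hs,
        ENNReal.toReal_ofReal (by positivity), ENNReal.toReal_ofReal (sq_nonneg τ),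
        ENNReal.toReal_ofReal hV0, ENNReal.toReal_ofReal (by positivity)] at hB
      refine le_trans (le_of_eq ?_) hB
      rw [mul_pow]
      ring
    · have h8 : 2 * τ * ((q - 1) * (d * lam) ^ n) = 2 * τ * ((q - 1) * lam ^ n) * d ^ n := by
        rw [mul_pow]; ring
      rw [h8]
      have h9 : 2 * τ * ((q - 1) * lam ^ n) * d ^ n ≤ 0 :=
        mul_nonpos_of_nonpos_of_nonneg (not_le.1 hs).le (by positivity)
      have h10 : 0 ≤ τ ^ 2 * vrAvg q lam d m n + 2 * q ^ 2 * T := by positivity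
      linarith

end

end Vale.Agent.H17.P154
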