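import Vale.Agent.H17.P154.GW
import Vale.Agent.H17.P154.KSLim

/-!
# Both directions together, for any scheme (P154)
-/

namespace Vale.Agent.H17.P154

open Filter Topology

theorem not_both {a : ℕ → ENNReal} (h1 : Nonreconstruction a) (h2 : Reconstruction a) : False := by
  obtain ⟨c, hc, h⟩ := h2
  have := ge_of_tendsto' h1 h
  exact absurd this (not_le.2 hc)

section
variable {q : ℕ} {lam : ℝ}

theorem recon_regular (hq : 2 ≤ q) (hP : ∀ i j : Fin q, 0 ≤ potts q lam i j) {d : ℕ}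
    (hd : 1 ≤ d) (hks : 1 < d * lam ^ 2) : Reconstruction (aRegular q lam d) := by
  obtain ⟨c, hc, h⟩ := dary_lower hq hP hd hks
  exact ⟨ENNReal.ofReal c, ENNReal.ofReal_pos.2 hc, fun n => ENNReal.ofReal_le_ofReal (h n)⟩

theorem recon_gw (hq : 2 ≤ q) (hP : ∀ i j : Fin q, 0 ≤ potts q lam i j) {p : ℕ → ℝ}
    (hp : ∀ k, 0 ≤ p k) (h1 : HasSum p 1)
    {d m : ℝ} (hd : HasSum (fun k : ℕ => (k : ℝ) * p k) d)
    (hm : HasSum (fun k : ℕ => (k : ℝ) * (k - 1) * p k) m) (hks : 1 < d * lam ^ 2) :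
    Reconstruction (aGW q lam p) := by
  obtain ⟨c, hc, h⟩ := gw_lower hq hP hp h1 hd hm hks
  exact ⟨ENNReal.ofReal c, ENNReal.ofReal_pos.2 hc, h⟩

theorem recon_poisson (hq : 2 ≤ q) (hP : ∀ i j : Fin q, 0 ≤ potts q lam i j) {d : ℝ}
    (hd : 0 < d) (hks : 1 < d * lam ^ 2) : Reconstruction (aGW q lam (poisson d)) :=
  recon_gw hq hP (fun k => poisson_nonneg hd.le k) (poisson_hasSum d) (poisson_mean d)
    (poisson_mom2 d) hks

variable {c : ℝ} {J K : Type} {φV φM : (Fin q → ℝ) → ℝ}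
  {γV : J → (Fin q → ℝ) → ℝ} {γM : K → (Fin q → ℝ) → ℝ}

theorem nonrecon_regular (S : Scheme q lam c φV φM γV γM) (hc : 0 < c) (hq : 0 < q)
    (hP : ∀ i j : Fin q, 0 ≤ potts q lam i j) {C : ℝ}
    (hchi : ∀ v : Fin q → ℝ, (∀ i, 0 ≤ v i) → chi q v ≤ C * φV v) {d : ℕ} (hd : 2 ≤ d)
    (hks : d * lam ^ 2 ≤ 1) : Nonreconstruction (aRegular q lam d) := by
  have h := dary_tendsto S hc hq hP hchi hd hks
  have h2 := (ENNReal.continuous_ofReal.tendsto 0).comp h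
  rw [ENNReal.ofReal_zero] at h2
  exact h2

theorem nonrecon_gw (S : Scheme q lam c φV φM γV γM) (hc : 0 < c) (hq : 0 < q)
    (hP : ∀ i j : Fin q, 0 ≤ potts q lam i j) {C : ℝ} (hC : 0 ≤ C)
    (hchi : ∀ v : Fin q → ℝ, (∀ i, 0 ≤ v i) → chi q v ≤ C * φV v)
    {p : ℕ → ℝ} (hp : ∀ k, 0 ≤ p k) (h1 : HasSum p 1)
    {d : ℝ} (hd : HasSum (fun k : ℕ => (k : ℝ) * p k) d) {k₀ : ℕ} (hk₀ : 2 ≤ k₀)
    (hpk : 0 < p k₀) (hks : d * lam ^ 2 ≤ 1) : Nonreconstruction (aGW q lam p) :=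
  gw_tendsto S hc hq hP hC hchi hp h1 hd hk₀ hpk hks

theorem nonrecon_poisson (S : Scheme q lam c φV φM γV γM) (hc : 0 < c) (hq : 0 < q)
    (hP : ∀ i j : Fin q, 0 ≤ potts q lam i j) {C : ℝ} (hC : 0 ≤ C)
    (hchi : ∀ v : Fin q → ℝ, (∀ i, 0 ≤ v i) → chi q v ≤ C * φV v)
    {d : ℝ} (hd : 0 < d) (hks : d * lam ^ 2 ≤ 1) : Nonreconstruction (aGW q lam (poisson d)) :=
  nonrecon_gw S hc hq hP hC hchi (fun k => poisson_nonneg hd.le k) (poisson_hasSum d)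
    (poisson_mean d) le_rfl (poisson_pos hd 2) hks

/-- the complete phase diagram, from a scheme. -/
theorem phase (S : Scheme q lam c φV φM γV γM) (hc : 0 < c) (hq : 2 ≤ q)
    (hP : ∀ i j : Fin q, 0 ≤ potts q lam i j) {C : ℝ} (hC : 0 ≤ C)
    (hchi : ∀ v : Fin q → ℝ, (∀ i, 0 ≤ v i) → chi q v ≤ C * φV v) :
    (∀ d : ℕ, 2 ≤ d →
      (Reconstruction (aRegular q lam d) ↔ 1 < d * lam ^ 2) ∧
      (Nonreconstruction (aRegular q lam d) ↔ d * lam ^ 2 ≤ 1)) ∧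
    (∀ d : ℝ, 0 < d →
      (Reconstruction (aGW q lam (poisson d)) ↔ 1 < d * lam ^ 2) ∧
      (Nonreconstruction (aGW q lam (poisson d)) ↔ d * lam ^ 2 ≤ 1)) ∧
    (∀ (p : ℕ → ℝ) (d : ℝ), (∀ k, 0 ≤ p k) → HasSum p 1 → HasSum (fun k : ℕ => k * p k) d →
      (∃ k, 2 ≤ k ∧ 0 < p k) → d * lam ^ 2 ≤ 1 → Nonreconstruction (aGW q lam p)) := by
  have hq0 : 0 < q := by omega
  refine ⟨fun d hd => ?_, fun d hd => ?_, ?_⟩
  · have h1 := fun h => nonrecon_regular S hc hq0 hP hchi hd h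
    have h2 := fun h => recon_regular (lam := lam) hq hP (by omega : 1 ≤ d) h
    exact ⟨⟨fun h => not_le.1 fun h' => not_both (h1 h') h, h2⟩,
      ⟨fun h => not_lt.1 fun h' => not_both h (h2 h'), h1⟩⟩
  · have h1 := fun h => nonrecon_poisson S hc hq0 hP hC hchi hd h
    have h2 := fun h => recon_poisson (lam := lam) hq hP hd h
    exact ⟨⟨fun h => not_le.1 fun h' => not_both (h1 h') h, h2⟩,
      ⟨fun h => not_lt.1 fun h' => not_both h (h2 h'), h1⟩⟩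
  · rintro p d hp h1 hd ⟨k, hk, hpk⟩ hks
    exact nonrecon_gw S hc hq0 hP hC hchi hp h1 hd hk hpk hks

end

end Vale.Agent.H17.P154
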