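import Vale.Agent.H17.P154.Closure
import Vale.Agent.H17.P154.Main

/-!
# A general certificate with one invariant gives a scheme (P154)
-/

namespace Vale.Agent.H17.P154

open Finset

/-- A certificate: `S` is the chi-square functional, `γ` the invariant, `φ`, `h` multipliers. -/
structure Cert (q : ℕ) (lam c c₁ c₂ C : ℝ) (S γ φ h : (Fin q → ℝ) → ℝ) : Prop where
  contS : Continuous S
  contγ : Continuous γ
  contφ : Continuous φ
  conth : Continuous h
  c_nonneg : 0 ≤ c
  c₁_nonneg : 0 ≤ c₁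
  c₂_nonneg : 0 ≤ c₂
  S_nonneg : ∀ w, 0 ≤ S w
  S_zero : S (fun _ => 0) = 0
  γ_zero : γ (fun _ => 0) = 0
  S_smul : ∀ (t : ℝ) (w : Fin q → ℝ), S (fun i => t * w i) = t ^ 2 * S w
  S_chi : ∀ w : Fin q → ℝ, ∑ i, w i ^ 2 ≤ C * S w
  φ_nonneg : ∀ a : Fin q → ℝ, (∀ i, 0 ≤ a i) → meanq q a = 1 → 0 ≤ φ (fun i => a i - 1)
  h_nonneg : ∀ a : Fin q → ℝ, (∀ i, 0 ≤ a i) → meanq q a = 1 → 0 ≤ h (fun i => a i - 1)
  base : ∀ x : Fin q, 0 ≤ γ (fun i => (if x = i then (q : ℝ) else 0) - 1)
  chan : ∃ m : ℝ, 0 ≤ m ∧ ∀ a : Fin q → ℝ, (∀ i, 0 ≤ a i) → meanq q a = 1 →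
    m * γ (fun i => a i - 1) ≤ γ (fun i => lam * (a i - 1))
  I : ∀ a b : Fin q → ℝ, (∀ i, 0 < a i) → (∀ i, 0 < b i) → meanq q a = 1 → meanq q b = 1 →
    (Fintype.card (Equiv.Perm (Fin q)) : ℝ) *
        (γ (fun i => a i - 1) * h (fun i => b i - 1) + h (fun i => a i - 1) * γ (fun i => b i - 1) +
          c₁ * (γ (fun i => a i - 1) * γ (fun i => b i - 1))) ≤
      ∑ π : Equiv.Perm (Fin q), persq q γ (fun i => a i * b (π i))
  II : ∀ a b : Fin q → ℝ, (∀ i, 0 < a i) → (∀ i, 0 < b i) → meanq q a = 1 → meanq q b = 1 →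
    ∑ π : Equiv.Perm (Fin q), persq q S (fun i => a i * b (π i)) ≤
      (Fintype.card (Equiv.Perm (Fin q)) : ℝ) *
        (S (fun i => a i - 1) + S (fun i => b i - 1) -
          (γ (fun i => a i - 1) * φ (fun i => b i - 1) +
            φ (fun i => a i - 1) * γ (fun i => b i - 1)) -
          c₂ * (γ (fun i => a i - 1) * γ (fun i => b i - 1)) -
          c * (S (fun i => a i - 1) ^ 2 * S (fun i => b i - 1)))

section
variable {q : ℕ} {lam c c₁ c₂ C : ℝ} {S γ φ h : (Fin q → ℝ) → ℝ}
variable {X Y : Type} [Fintype X] [Fintype Y]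

theorem persq_zero {f : (Fin q → ℝ) → ℝ} {u : Fin q → ℝ} (h : meanq q u = 0) :
    persq q f u = 0 := by
  unfold persq
  rw [h, zero_mul]

theorem persq_nonneg {f : (Fin q → ℝ) → ℝ}
    (hf : ∀ a : Fin q → ℝ, (∀ i, 0 ≤ a i) → meanq q a = 1 → 0 ≤ f (fun i => a i - 1))
    {u : Fin q → ℝ} (hu : ∀ i, 0 ≤ u i) : 0 ≤ persq q f u := by
  rcases eq_or_lt_of_le (meanq_nonneg hu) with h | h
  · rw [persq_zero h.symm]
  · unfold persq
    exact mul_nonneg h.le (hf (fun i => u i / meanq q u) (fun i => div_nonneg (hu i) h.le)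
      (meanq_div_self u h.ne'))

theorem Cert.mergeG (K : Cert q lam c c₁ c₂ C S γ φ h) (hq : 0 < q) {u : X → Fin q → ℝ}
    {v : Y → Fin q → ℝ} (hu : Fam u) (hv : Fam v) (gu : 0 ≤ tot (persq q γ) u)
    (gv : 0 ≤ tot (persq q γ) v) :
    0 ≤ tot (persq q γ) (fun z : X × Y => fun i => u z.1 i * v z.2 i) := by
  have h2 : ∀ x : Fin q → ℝ, persq q (fun w => - γ w) x = - persq q γ x := by
    intro x; unfold persq; ring
  have hcγ := K.contγ
  have hch := K.conth
  have hcl := close_le hq (f := fun w => - γ w) K.contγ.neg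
    (B := fun w z => -(γ w * h z + h w * γ z + c₁ * (γ w * γ z))) (by fun_prop)
    (C := (Fintype.card (Equiv.Perm (Fin q)) : ℝ)) (by
      intro a b ha hb ma mb
      have := K.I a b ha hb ma mb
      simp only [h2, Finset.sum_neg_distrib]
      linarith)
  have hh := hom_le hq (f := fun w => - γ w)
    (B := fun w z => -(γ w * h z + h w * γ z + c₁ * (γ w * γ z)))
    (C := (Fintype.card (Equiv.Perm (Fin q)) : ℝ)) hcl
  have h3' := sym_le (φ := fun x => - persq q γ x)
    (B := fun u v => -(persq q γ u * persq q h v + persq q h u * persq q γ v +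
      c₁ * (persq q γ u * persq q γ v))) (by
      intro u v hu hv
      have := hh u v hu hv
      simp only [h2] at this
      refine this.trans (le_of_eq ?_)
      simp only [persq_def]
      ring) hu hv
  have h4 : tot (fun x => - persq q γ x) (fun z : X × Y => fun i => u z.1 i * v z.2 i) =
      - tot (persq q γ) (fun z : X × Y => fun i => u z.1 i * v z.2 i) := by
    unfold tot
    rw [Finset.sum_neg_distrib]
  rw [h4] at h3'
  have h5 : ∑ x, ∑ y, -(persq q γ (u x) * persq q h (v y) + persq q h (u x) * persq q γ (v y) +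
      c₁ * (persq q γ (u x) * persq q γ (v y))) =
      -(tot (persq q γ) u * tot (persq q h) v + tot (persq q h) u * tot (persq q γ) v +
        c₁ * (tot (persq q γ) u * tot (persq q γ) v)) := by
    unfold tot
    simp only [Finset.sum_neg_distrib, Finset.sum_add_distrib, ← Finset.mul_sum,
      ← Finset.sum_mul]
  rw [h5] at h3'
  have h6 : 0 ≤ tot (persq q h) v := tot_nonneg (fun u hu => persq_nonneg K.h_nonneg hu) hv.nonneg
  have h7 : 0 ≤ tot (persq q h) u := tot_nonneg (fun u hu => persq_nonneg K.h_nonneg hu) hu.nonneg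
  have h8 := mul_nonneg gu h6
  have h9 := mul_nonneg h7 gv
  have h10 := mul_nonneg K.c₁_nonneg (mul_nonneg gu gv)
  linarith

theorem Cert.posS (K : Cert q lam c c₁ c₂ C S γ φ h) {u : Fin q → ℝ} (hu : ∀ i, 0 ≤ u i) :
    0 ≤ persq q S u := mul_nonneg (meanq_nonneg hu) (K.S_nonneg _)

/-- Jensen. -/
theorem Cert.sq_le (_ : Cert q lam c c₁ c₂ C S γ φ h) (hq : 0 < q) {u : X → Fin q → ℝ}
    (hu : Fam u) : tot (persq q S) u ^ 2 ≤ tot (persq q (fun w => S w ^ 2)) u := by
  have h1 : (∑ x, persq q S (u x)) ^ 2 ≤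
      (∑ x, meanq q (u x)) * ∑ x, persq q (fun w => S w ^ 2) (u x) := by
    refine Finset.sum_sq_le_sum_mul_sum_of_sq_le_mul _ (fun x _ => meanq_nonneg (hu.nonneg x))
      (fun x _ => mul_nonneg (meanq_nonneg (hu.nonneg x)) (sq_nonneg _)) (fun x _ => le_of_eq ?_)
    unfold persq
    ring
  have h2 := tot_meanq hq hu
  unfold tot at h2
  rw [h2, one_mul] at h1
  exact h1

theorem Cert.mergeF (K : Cert q lam c c₁ c₂ C S γ φ h) (hq : 0 < q) {u : X → Fin q → ℝ}
    {v : Y → Fin q → ℝ} (hu : Fam u) (hv : Fam v) (gu : 0 ≤ tot (persq q γ) u)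
    (gv : 0 ≤ tot (persq q γ) v) :
    tot (persq q S) (fun z : X × Y => fun i => u z.1 i * v z.2 i) +
        c * (tot (persq q S) u ^ 2 * tot (persq q S) v) ≤
      tot (persq q S) u + tot (persq q S) v := by
  have hcS := K.contS
  have hcγ := K.contγ
  have hcφ := K.contφ
  have hcl := close_le hq (f := S) K.contS
    (B := fun w z => S w + S z - (γ w * φ z + φ w * γ z) - c₂ * (γ w * γ z) - c * (S w ^ 2 * S z))
    (by fun_prop) (C := (Fintype.card (Equiv.Perm (Fin q)) : ℝ)) K.II
  have hh := hom_le hq (f := S)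
    (B := fun w z => S w + S z - (γ w * φ z + φ w * γ z) - c₂ * (γ w * γ z) - c * (S w ^ 2 * S z))
    (C := (Fintype.card (Equiv.Perm (Fin q)) : ℝ)) hcl
  have h3' := sym_le (φ := persq q S)
    (B := fun u v => meanq q v * persq q S u + meanq q u * persq q S v -
      (persq q γ u * persq q φ v + persq q φ u * persq q γ v) -
      c₂ * (persq q γ u * persq q γ v) -
      c * (persq q (fun w => S w ^ 2) u * persq q S v)) (by
      intro u v hu hv
      refine (hh u v hu hv).trans (le_of_eq ?_)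
      simp only [persq_def]
      ring) hu hv
  have h5 : ∑ x, ∑ y, (meanq q (v y) * persq q S (u x) + meanq q (u x) * persq q S (v y) -
      (persq q γ (u x) * persq q φ (v y) + persq q φ (u x) * persq q γ (v y)) -
      c₂ * (persq q γ (u x) * persq q γ (v y)) -
      c * (persq q (fun w => S w ^ 2) (u x) * persq q S (v y))) =
      tot (meanq q) v * tot (persq q S) u + tot (meanq q) u * tot (persq q S) v -
      (tot (persq q γ) u * tot (persq q φ) v + tot (persq q φ) u * tot (persq q γ) v) -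
      c₂ * (tot (persq q γ) u * tot (persq q γ) v) -
      c * (tot (persq q (fun w => S w ^ 2)) u * tot (persq q S) v) := by
    unfold tot
    simp only [Finset.sum_sub_distrib, Finset.sum_add_distrib, ← Finset.mul_sum,
      ← Finset.sum_mul]
  rw [h5, tot_meanq hq hu, tot_meanq hq hv] at h3'
  have h6 : 0 ≤ tot (persq q S) v := tot_nonneg (fun w hw => K.posS hw) hv.nonneg
  have h7 : 0 ≤ tot (persq q φ) v := tot_nonneg (fun u hu => persq_nonneg K.φ_nonneg hu) hv.nonneg
  have h8 : 0 ≤ tot (persq q φ) u := tot_nonneg (fun u hu => persq_nonneg K.φ_nonneg hu) hu.nonneg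
  have h9 := mul_nonneg gu h7
  have h10 := mul_nonneg h8 gv
  have h11 := mul_nonneg K.c₂_nonneg (mul_nonneg gu gv)
  have h12 := mul_le_mul_of_nonneg_left
    (mul_le_mul_of_nonneg_right (K.sq_le hq hu) h6) K.c_nonneg
  linarith

/-- a certificate gives a scheme. -/
theorem Cert.scheme (K : Cert q lam c c₁ c₂ C S γ φ h) (hq : 0 < q) :
    Scheme q lam c (J := Unit) (K := Unit) (persq q S) (persq q S) (fun _ => persq q γ)
      (fun _ => persq q γ) where
  posV _ hu := K.posS hu
  posM _ hu := K.posS hu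
  oneM := by
    have hq0 : (q : ℝ) ≠ 0 := by positivity
    have h1 : meanq q (fun _ : Fin q => (1 : ℝ)) = 1 := by
      unfold meanq; simp [hq0]
    unfold persq
    rw [h1]
    simp [K.S_zero]
  oneG _ := by
    have hq0 : (q : ℝ) ≠ 0 := by positivity
    have h1 : meanq q (fun _ : Fin q => (1 : ℝ)) = 1 := by
      unfold meanq; simp [hq0]
    unfold persq
    rw [h1]
    simp [K.γ_zero]
  base _ := by
    have hq0 : (q : ℝ) ≠ 0 := by positivity
    refine Finset.sum_nonneg fun x _ => ?_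
    have h1 : meanq q (fun i : Fin q => if x = i then (1 : ℝ) else 0) = 1 / q := by
      unfold meanq; simp
    change 0 ≤ meanq q (fun i : Fin q => if x = i then (1 : ℝ) else 0) *
      γ (fun i => (if x = i then (1 : ℝ) else 0) /
        meanq q (fun i : Fin q => if x = i then (1 : ℝ) else 0) - 1)
    rw [h1]
    refine mul_nonneg (by positivity) ?_
    have h2 := K.base x
    have h3 : (fun i : Fin q => (if x = i then (1 : ℝ) else 0) / (1 / (q : ℝ)) - 1) =
        fun i => (if x = i then (q : ℝ) else 0) - 1 := by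
      funext i
      split_ifs <;> simp
    rw [h3]
    exact h2
  chanG v hv hI _ := by
    obtain ⟨m, hm, hch⟩ := K.chan
    have h1 : m * tot (persq q γ) v ≤ tot (persq q γ) (fun x => msg q lam (v x)) := by
      unfold tot
      rw [Finset.mul_sum]
      refine Finset.sum_le_sum fun x _ => ?_
      rw [persq_msg hq, persq_def]
      rcases eq_or_lt_of_le (meanq_nonneg (hv.nonneg x)) with h | h
      · rw [← h]; simp
      · have := hch (fun i => v x i / meanq q (v x)) (fun i => div_nonneg (hv.nonneg x i) h.le)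
          (meanq_div_self _ h.ne')
        have h2 := mul_le_mul_of_nonneg_left this h.le
        refine le_trans (le_of_eq ?_) h2
        unfold nrm
        ring
    exact (mul_nonneg hm (hI ())).trans h1
  chanF v _ _ := by
    refine le_of_eq ?_
    unfold tot
    rw [Finset.mul_sum]
    refine Finset.sum_congr rfl fun x _ => ?_
    rw [persq_msg hq, persq_def, K.S_smul]
    ring
  mergeG u v hu hv gu gv _ := K.mergeG hq hu hv (gu ()) (gv ())
  mergeF u v hu hv gu gv := K.mergeF hq hu hv (gu ()) (gv ())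
  vertG v _ h := h
  vertF v _ _ := le_rfl

theorem Cert.chi_le (K : Cert q lam c c₁ c₂ C S γ φ h) {v : Fin q → ℝ} (hv : ∀ i, 0 ≤ v i) :
    chi q v ≤ C * persq q S v := by
  have hm := meanq_nonneg hv
  have h1 := K.S_chi (nrm q v)
  have h2 : chi q v = meanq q v * ∑ i, nrm q v i ^ 2 := by
    unfold chi nrm
    change (∑ i, (v i - meanq q v) ^ 2) / meanq q v = _
    by_cases h0 : meanq q v = 0
    · rw [h0]; simp
    · rw [Finset.sum_div, Finset.mul_sum]
      refine Finset.sum_congr rfl fun i _ => ?_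
      field_simp
  rw [h2, persq_def]
  have := mul_le_mul_of_nonneg_left h1 hm
  linarith

/-- the complete phase diagram, from a certificate. -/
theorem Cert.phase (K : Cert q lam c c₁ c₂ C S γ φ h) (hc : 0 < c) (hC : 0 ≤ C) (hq : 2 ≤ q)
    (hP : ∀ i j : Fin q, 0 ≤ potts q lam i j) :
    (∀ d : ℕ, 2 ≤ d →
      (Reconstruction (aRegular q lam d) ↔ 1 < d * lam ^ 2) ∧
      (Nonreconstruction (aRegular q lam d) ↔ d * lam ^ 2 ≤ 1)) ∧
    (∀ d : ℝ, 0 < d →
      (Reconstruction (aGW q lam (poisson d)) ↔ 1 < d * lam ^ 2) ∧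
      (Nonreconstruction (aGW q lam (poisson d)) ↔ d * lam ^ 2 ≤ 1)) ∧
    (∀ (p : ℕ → ℝ) (d : ℝ), (∀ k, 0 ≤ p k) → HasSum p 1 → HasSum (fun k : ℕ => k * p k) d →
      (∃ k, 2 ≤ k ∧ 0 < p k) → d * lam ^ 2 ≤ 1 → Nonreconstruction (aGW q lam p)) :=
  P154.phase (K.scheme (by omega)) hc hq hP hC (fun _ hv => K.chi_le hv)

end

end Vale.Agent.H17.P154
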