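import Vale.Agent.H17.P154.GW
import Vale.Agent.H17.P154.Poisson

/-!
# The Kesten–Stigum direction: `d λ² > 1` implies reconstruction (P154)
-/

namespace Vale.Agent.H17.P154

open Finset Filter Topology ENNReal

/-- a linear estimator with mean `ℓ ([i = j] - 1/q)` and second moment `V`. -/
def Est {X : Type} [Fintype X] {q : ℕ} (v : X → Fin q → ℝ) (ℓ V : ℝ) : Prop :=
  ∃ Y : X → Fin q → ℝ, (∀ i j, ∑ x, v x j * Y x i = ℓ * ((if i = j then 1 else 0) - 1 / q)) ∧
    ∀ j, ∑ x, v x j * ∑ i, Y x i ^ 2 = V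

section
variable {X Y : Type} [Fintype X] [Fintype Y] {q : ℕ}

theorem sum_ind_sq (hq : 0 < q) (j : Fin q) :
    ∑ i : Fin q, ((if i = j then (1 : ℝ) else 0) - 1 / (q : ℝ)) ^ 2 = 1 - 1 / (q : ℝ) := by
  have hq0 : (q : ℝ) ≠ 0 := by positivity
  have h : ∀ i : Fin q, ((if i = j then (1 : ℝ) else 0) - 1 / (q : ℝ)) ^ 2 =
      (if i = j then (1 - 2 / (q : ℝ)) else 0) + (1 / (q : ℝ)) ^ 2 := by
    intro i
    split_ifs <;> ring
  simp only [h, Finset.sum_add_distrib, Finset.sum_ite_eq', mem_univ, if_true, Finset.sum_const,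
    card_univ, Fintype.card_fin, nsmul_eq_mul]
  field_simp
  ring

theorem Est.base (hq : 0 < q) :
    Est (fun (x : Fin q) (i : Fin q) => if x = i then (1 : ℝ) else 0) 1 (1 - 1 / q) := by
  refine ⟨fun x i => (if i = x then 1 else 0) - 1 / q, fun i j => ?_, fun j => ?_⟩
  · simp
  · simp only [ite_mul, one_mul, zero_mul, Finset.sum_ite_eq', mem_univ, if_true]
    exact sum_ind_sq hq j

theorem Est.msg {v : X → Fin q → ℝ} {ℓ V : ℝ} (h : Est v ℓ V) (lam : ℝ) (hq : 0 < q) :
    Est (fun x => msg q lam (v x)) (ℓ * lam) V := by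
  obtain ⟨Y, h1, h2⟩ := h
  have hq0 : (q : ℝ) ≠ 0 := by positivity
  refine ⟨Y, fun i j => ?_, fun j => ?_⟩
  · unfold P154.msg
    simp only [Finset.sum_mul]
    rw [Finset.sum_comm]
    have h3 : ∀ k : Fin q, ∑ x, potts q lam j k * v x k * Y x i =
        potts q lam j k * (ℓ * ((if i = k then 1 else 0) - 1 / q)) := by
      intro k
      rw [← h1 i k, Finset.mul_sum]
      exact Finset.sum_congr rfl fun x _ => by ring
    simp only [h3, mul_sub, Finset.sum_sub_distrib, ← mul_assoc, mul_ite, mul_one, mul_zero,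
      Finset.sum_ite_eq, mem_univ, if_true]
    have h4 : ∑ x, potts q lam j x * ℓ * (1 / (q : ℝ)) = ℓ * (1 / q) := by
      rw [← Finset.sum_mul, ← Finset.sum_mul, potts_sum_left lam hq, one_mul]
    rw [h4]
    unfold potts
    by_cases hij : i = j
    · subst hij
      simp
      ring
    · have : ¬ j = i := fun h => hij h.symm
      simp [hij, this]
      ring
  · unfold P154.msg
    simp only [Finset.sum_mul]
    rw [Finset.sum_comm]
    have h3 : ∀ k : Fin q, ∑ x, potts q lam j k * v x k * ∑ i, Y x i ^ 2 =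
        potts q lam j k * V := by
      intro k
      rw [← h2 k, Finset.mul_sum]
      exact Finset.sum_congr rfl fun x _ => by ring
    simp only [h3]
    rw [← Finset.sum_mul, potts_sum_left lam hq, one_mul]

theorem Est.mul {u : X → Fin q → ℝ} {v : Y → Fin q → ℝ} {ℓ₁ ℓ₂ V₁ V₂ : ℝ} (hq : 0 < q)
    (hu : Fam u) (hv : Fam v) (h : Est u ℓ₁ V₁) (h' : Est v ℓ₂ V₂) :
    Est (fun z : X × Y => fun i => u z.1 i * v z.2 i) (ℓ₁ + ℓ₂)
      (V₁ + V₂ + 2 * (1 - 1 / q) * ℓ₁ * ℓ₂) := by
  obtain ⟨A, a1, a2⟩ := h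
  obtain ⟨B, b1, b2⟩ := h'
  refine ⟨fun z i => A z.1 i + B z.2 i, fun i j => ?_, fun j => ?_⟩
  · rw [Fintype.sum_prod_type]
    have h3 : ∀ x y, u x j * v y j * (A x i + B y i) =
        (u x j * A x i) * v y j + u x j * (v y j * B y i) := fun x y => by ring
    simp only [h3, Finset.sum_add_distrib, ← Finset.mul_sum, hv.norm, mul_one, a1, b1,
      ← Finset.sum_mul, hu.norm, one_mul]
    ring
  · rw [Fintype.sum_prod_type]
    have h3 : ∀ x y, u x j * v y j * ∑ i, (A x i + B y i) ^ 2 =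
        (u x j * ∑ i, A x i ^ 2) * v y j + u x j * (v y j * ∑ i, B y i ^ 2) +
          2 * ∑ i, (u x j * A x i) * (v y j * B y i) := by
      intro x y
      simp only [Finset.mul_sum, Finset.sum_mul, ← Finset.sum_add_distrib]
      exact Finset.sum_congr rfl fun i _ => by ring
    simp only [h3, Finset.sum_add_distrib, ← Finset.mul_sum, hv.norm, mul_one, b2,
      ← Finset.sum_mul, hu.norm, one_mul]
    have h4 : ∑ x, ∑ y, ∑ i, (u x j * A x i) * (v y j * B y i) =
        (1 - 1 / q) * ℓ₁ * ℓ₂ := by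
      have h5 : ∑ x, ∑ y, ∑ i, (u x j * A x i) * (v y j * B y i) =
          ∑ i, (∑ x, u x j * A x i) * ∑ y, v y j * B y i := by
        have : ∀ i, (∑ x, u x j * A x i) * ∑ y, v y j * B y i =
            ∑ x, ∑ y, (u x j * A x i) * (v y j * B y i) := by
          intro i
          rw [Finset.sum_mul]
          exact Finset.sum_congr rfl fun x _ => by rw [Finset.mul_sum]
        calc ∑ x, ∑ y, ∑ i, (u x j * A x i) * (v y j * B y i)
            = ∑ x, ∑ i, ∑ y, (u x j * A x i) * (v y j * B y i) :=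
              Finset.sum_congr rfl fun x _ => Finset.sum_comm
          _ = ∑ i, ∑ x, ∑ y, (u x j * A x i) * (v y j * B y i) := Finset.sum_comm
          _ = _ := Finset.sum_congr rfl fun i _ => (this i).symm
      rw [h5]
      simp only [a1, b1]
      rw [← sum_ind_sq hq j, Finset.sum_mul, Finset.sum_mul]
      exact Finset.sum_congr rfl fun i _ => by ring
    rw [a2, h4]
    ring

theorem Est.chi_ge (hq : 0 < q) {v : X → Fin q → ℝ} (hv : Fam v) {ℓ V : ℝ} (h : Est v ℓ V)
    (τ : ℝ) : 2 * τ * ((q - 1) * ℓ) ≤ τ ^ 2 * V + tot (chi q) v := by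
  obtain ⟨Y, h1, h2⟩ := h
  have hq0 : (0 : ℝ) < q := by exact_mod_cast hq
  have hpt : ∀ x, ∑ i, 2 * τ * (Y x i * (v x i - (∑ j, v x j) / q)) ≤
      τ ^ 2 * ((∑ j, v x j) / q * ∑ i, Y x i ^ 2) + chi q (v x) := by
    intro x
    have hm0 : 0 ≤ (∑ j, v x j) / (q : ℝ) :=
      div_nonneg (Finset.sum_nonneg fun i _ => hv.nonneg x i) hq0.le
    rcases eq_or_lt_of_le hm0 with h0 | hpos
    · have hz := (by
        have hs : ∑ j, v x j = 0 := by
          rcases div_eq_zero_iff.1 h0.symm with h | h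
          · exact h
          · exact absurd h hq0.ne'
        exact fun i => (Finset.sum_eq_zero_iff_of_nonneg
          (fun i _ => hv.nonneg x i)).1 hs i (mem_univ i) : ∀ i, v x i = 0)
      simp [chi, hz]
    · unfold chi
      generalize (∑ j, v x j) / (q : ℝ) = m at hpos
      rw [Finset.mul_sum, Finset.mul_sum, Finset.sum_div, ← Finset.sum_add_distrib]
      refine Finset.sum_le_sum fun i _ => ?_
      have h3 : 0 ≤ (τ * m * Y x i - (v x i - m)) ^ 2 / m := by positivity
      have h4 : (τ * m * Y x i - (v x i - m)) ^ 2 / m =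
          τ ^ 2 * (m * Y x i ^ 2) - 2 * τ * (Y x i * (v x i - m)) + (v x i - m) ^ 2 / m := by
        field_simp
        ring
      linarith
  have hsum := Finset.sum_le_sum fun x (_ : x ∈ univ) => hpt x
  rw [Finset.sum_add_distrib, ← Finset.mul_sum] at hsum
  have hL : ∑ x, ∑ i, 2 * τ * (Y x i * (v x i - (∑ j, v x j) / q)) =
      2 * τ * ((q - 1) * ℓ) := by
    simp only [← Finset.mul_sum]
    congr 1
    rw [Finset.sum_comm]
    have h5 : ∀ i, ∑ x, Y x i * (v x i - (∑ j, v x j) / q) = ℓ * (1 - 1 / q) := by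
      intro i
      have h6 : ∀ x, Y x i * (v x i - (∑ j, v x j) / q) =
          v x i * Y x i - 1 / q * ∑ j, v x j * Y x i := by
        intro x
        rw [← Finset.sum_mul]
        ring
      simp only [h6, Finset.sum_sub_distrib, ← Finset.mul_sum, h1, if_true]
      rw [Finset.sum_comm]
      simp only [h1, ← Finset.mul_sum, Finset.sum_sub_distrib, Finset.sum_ite_eq, mem_univ,
        if_true, Finset.sum_const, card_univ, Fintype.card_fin, nsmul_eq_mul]
      field_simp
      ring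
    simp only [h5, Finset.sum_const, card_univ, Fintype.card_fin, nsmul_eq_mul]
    field_simp
  have hR : ∑ x, (∑ j, v x j) / q * ∑ i, Y x i ^ 2 = V := by
    have h6 : ∀ x, (∑ j, v x j) / q * ∑ i, Y x i ^ 2 =
        1 / q * ∑ j, v x j * ∑ i, Y x i ^ 2 := by
      intro x
      rw [← Finset.sum_mul]
      ring
    simp only [h6, ← Finset.mul_sum]
    rw [Finset.sum_comm]
    simp only [h2, Finset.sum_const, card_univ, Fintype.card_fin, nsmul_eq_mul]
    field_simp
  rw [hL, hR] at hsum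
  exact hsum

theorem chi_le_tv (hq : 0 < q) {v : X → Fin q → ℝ} (hv : Fam v) :
    tot (chi q) v ≤ 2 * q ^ 2 * tvFam v := by
  have hq0 : (0 : ℝ) < q := by exact_mod_cast hq
  have hq1 : (1 : ℝ) ≤ q := by exact_mod_cast hq
  rw [tvFam_eq hq hv.nonneg]
  have h1 : 2 * (q : ℝ) ^ 2 * (1 / (2 * q) * ∑ x, ∑ i, |v x i - (∑ j, v x j) / q|) =
      ∑ x, ∑ i, q * |v x i - (∑ j, v x j) / q| := by
    simp only [← Finset.mul_sum]
    field_simp
  rw [h1]
  unfold tot
  refine Finset.sum_le_sum fun x _ => ?_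
  unfold chi
  rw [Finset.sum_div]
  refine Finset.sum_le_sum fun i _ => ?_
  set m := (∑ j, v x j) / (q : ℝ) with hm
  have hm0 : 0 ≤ m := div_nonneg (Finset.sum_nonneg fun i _ => hv.nonneg x i) hq0.le
  rcases eq_or_lt_of_le hm0 with h0 | hpos
  · have : (v x i - m) ^ 2 / m = 0 := by rw [← h0, _root_.div_zero]
    rw [this]
    positivity
  · rw [div_le_iff₀ hpos, ← sq_abs, sq]
    have h2 : |v x i - m| ≤ q * m := by
      have h3 : v x i ≤ q * m := by
        have : (q : ℝ) * m = ∑ j, v x j := by rw [hm]; field_simp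
        rw [this]
        exact Finset.single_le_sum (fun j _ => hv.nonneg x j) (mem_univ i)
      rw [abs_le]
      constructor
      · have := hv.nonneg x i
        nlinarith
      · linarith
    have h3 := mul_le_mul_of_nonneg_left h2 (abs_nonneg (v x i - m))
    linarith

end

end Vale.Agent.H17.P154
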