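import Vale.Agent.H17.P154.KS

/-!
# The Kesten–Stigum direction on trees (P154)
-/

namespace Vale.Agent.H17.P154

open Finset Filter Topology ENNReal

/-- number of vertices at distance `n` from the root. -/
noncomputable def lv : (n : ℕ) → RTree n → ℝ
  | 0, _ => 1
  | n + 1, t => ∑ c : Fin t.1, lv n (t.2 c)

/-- second moment of the census estimator. -/
noncomputable def vr (q : ℕ) (lam : ℝ) : (n : ℕ) → RTree n → ℝ
  | 0, _ => 1 - 1 / q
  | n + 1, t => ∑ c : Fin t.1, vr q lam n (t.2 c) +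
      (1 - 1 / q) * lam ^ (2 * (n + 1)) *
        ∑ a : Fin t.1, ∑ b : Fin t.1, if a = b then 0 else lv n (t.2 a) * lv n (t.2 b)

theorem lv_nonneg : ∀ (n : ℕ) (t : RTree n), 0 ≤ lv n t
  | 0, _ => zero_le_one
  | n + 1, t => Finset.sum_nonneg fun c _ => lv_nonneg n (t.2 c)

theorem one_sub_inv_nonneg {q : ℕ} (hq : 0 < q) : (0 : ℝ) ≤ 1 - 1 / q := by
  have : (1 : ℝ) ≤ q := by exact_mod_cast hq
  rw [sub_nonneg, div_le_one (by linarith)]
  exact this

theorem vr_nonneg {q : ℕ} (hq : 0 < q) (lam : ℝ) : ∀ (n : ℕ) (t : RTree n), 0 ≤ vr q lam n t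
  | 0, _ => one_sub_inv_nonneg hq
  | n + 1, t => by
    refine add_nonneg (Finset.sum_nonneg fun c _ => vr_nonneg hq lam n (t.2 c)) ?_
    refine mul_nonneg (mul_nonneg (one_sub_inv_nonneg hq) ?_) ?_
    · rw [pow_mul]; positivity
    · refine Finset.sum_nonneg fun a _ => Finset.sum_nonneg fun b _ => ?_
      split_ifs
      · exact le_rfl
      · exact mul_nonneg (lv_nonneg _ _) (lv_nonneg _ _)

section
variable {q : ℕ}

theorem Est.equiv {X Y : Type} [Fintype X] [Fintype Y] (e : X ≃ Y) {u : X → Fin q → ℝ}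
    {v : Y → Fin q → ℝ} (h : ∀ x, v (e x) = u x) {ℓ V : ℝ} (hu : Est u ℓ V) : Est v ℓ V := by
  obtain ⟨A, a1, a2⟩ := hu
  refine ⟨fun y => A (e.symm y), fun i j => ?_, fun j => ?_⟩
  · rw [← a1 i j, ← Equiv.sum_comp e]
    exact Finset.sum_congr rfl fun x _ => by simp only [h, e.symm_apply_apply]
  · rw [← a2 j, ← Equiv.sum_comp e]
    exact Finset.sum_congr rfl fun x _ => by simp only [h, e.symm_apply_apply]

theorem sum_off (k : ℕ) (l : Fin (k + 1) → ℝ) :
    ∑ a : Fin (k + 1), ∑ b : Fin (k + 1), (if a = b then 0 else l a * l b) =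
      ∑ a : Fin k, ∑ b : Fin k, (if a = b then 0 else l a.succ * l b.succ) +
        2 * l 0 * ∑ a : Fin k, l a.succ := by
  simp only [Fin.sum_univ_succ, if_true, Fin.succ_inj, Fin.succ_ne_zero, if_false,
    (Fin.succ_ne_zero _).symm, zero_add, Finset.sum_add_distrib]
  rw [Finset.mul_sum]
  have h2 : ∑ x : Fin k, l x.succ * l 0 = ∑ x : Fin k, l 0 * l x.succ :=
    Finset.sum_congr rfl fun x _ => mul_comm _ _
  have h3 : ∑ i : Fin k, 2 * l 0 * l i.succ = 2 * ∑ x : Fin k, l 0 * l x.succ := by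
    rw [Finset.mul_sum]
    exact Finset.sum_congr rfl fun x _ => by ring
  rw [h2, h3]
  ring

theorem Est.pi (hq : 0 < q) : ∀ (k : ℕ) (X : Fin k → Type) [∀ c, Fintype (X c)]
    (v : ∀ c, X c → Fin q → ℝ) (l V : Fin k → ℝ) (_ : ∀ c, Fam (v c))
    (_ : ∀ c, Est (v c) (l c) (V c)),
    Est (fun x : ∀ c, X c => fun i => ∏ c, v c (x c) i) (∑ c, l c)
      (∑ c, V c + (1 - 1 / q) * ∑ a, ∑ b, if a = b then 0 else l a * l b) := by
  intro k
  induction k with
  | zero =>
    intro X _ v l V hv he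
    refine ⟨fun _ _ => 0, fun i j => ?_, fun j => ?_⟩
    · simp
    · simp
  | succ k ih =>
    intro X _ v l V hv he
    have h1 := ih (fun c => X c.succ) (fun c => v c.succ) (fun c => l c.succ)
      (fun c => V c.succ) (fun c => hv c.succ) (fun c => he c.succ)
    have h2 := Est.mul hq (Fam.pi fun c => hv c.succ) (hv 0) h1 (he 0)
    have h3 := Est.equiv ((Equiv.prodComm _ _).trans (Fin.consEquiv X)) (v := fun x : ∀ c, X c =>
      fun i => ∏ c, v c (x c) i) (fun z => by
        funext i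
        change (∏ c, v c ((Fin.consEquiv X) (z.2, z.1) c) i) =
          (∏ c : Fin k, v c.succ (z.1 c) i) * v 0 z.2 i
        rw [Fin.prod_univ_succ, mul_comm]
        rfl) h2
    have e1 : ∑ c, l c = ∑ c : Fin k, l c.succ + l 0 := by rw [Fin.sum_univ_succ, add_comm]
    have e2 : ∑ c, V c + (1 - 1 / (q : ℝ)) * ∑ a, ∑ b, (if a = b then 0 else l a * l b) =
      ∑ c : Fin k, V c.succ + (1 - 1 / (q : ℝ)) *
        ∑ a : Fin k, ∑ b : Fin k, (if a = b then 0 else l a.succ * l b.succ) + V 0 +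
        2 * (1 - 1 / (q : ℝ)) * (∑ c : Fin k, l c.succ) * l 0 := by
      rw [sum_off, Fin.sum_univ_succ]
      ring
    rw [e1, e2]
    exact h3

theorem law_est (hq : 0 < q) {lam : ℝ} (hP : ∀ i j : Fin q, 0 ≤ potts q lam i j) :
    ∀ (n : ℕ) (t : RTree n),
      Est (fun (x : Conf q n t) (i : Fin q) => law q lam n t i x) (lv n t * lam ^ n)
        (vr q lam n t)
  | 0, _ => by
    have := Est.base hq
    have h : lv 0 () * lam ^ 0 = 1 := by simp [lv]
    exact h ▸ this
  | n + 1, t => by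
    have h1 := Est.pi hq t.1 (fun c => Conf q n (t.2 c))
      (fun c x => msg q lam (fun i => law q lam n (t.2 c) i x))
      (fun c => lv n (t.2 c) * lam ^ n * lam) (fun c => vr q lam n (t.2 c))
      (fun c => (law_fam hq hP n (t.2 c)).msg hq hP)
      (fun c => (law_est hq hP n (t.2 c)).msg lam hq)
    have e1 : lv (n + 1) t * lam ^ (n + 1) = ∑ c, lv n (t.2 c) * lam ^ n * lam := by
      change (∑ c : Fin t.1, lv n (t.2 c)) * lam ^ (n + 1) = _
      rw [Finset.sum_mul]
      exact Finset.sum_congr rfl fun c _ => by ring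
    have e2 : vr q lam (n + 1) t = ∑ c, vr q lam n (t.2 c) +
        (1 - 1 / q) * ∑ a : Fin t.1, ∑ b : Fin t.1,
          if a = b then 0 else (lv n (t.2 a) * lam ^ n * lam) * (lv n (t.2 b) * lam ^ n * lam) := by
      change ∑ c : Fin t.1, vr q lam n (t.2 c) + (1 - 1 / q) * lam ^ (2 * (n + 1)) *
        ∑ a : Fin t.1, ∑ b : Fin t.1, (if a = b then 0 else lv n (t.2 a) * lv n (t.2 b)) = _
      congr 1
      rw [mul_assoc, Finset.mul_sum]
      congr 1
      refine Finset.sum_congr rfl fun a _ => ?_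
      rw [Finset.mul_sum]
      refine Finset.sum_congr rfl fun b _ => ?_
      split_ifs
      · simp
      · ring
    rw [e1, e2]
    exact h1

/-- lower bound for the total variation, per tree. -/
theorem tv_lower (hq : 0 < q) {lam : ℝ} (hP : ∀ i j : Fin q, 0 ≤ potts q lam i j) (n : ℕ)
    (t : RTree n) (τ : ℝ) :
    2 * τ * ((q - 1) * (lv n t * lam ^ n)) ≤
      τ ^ 2 * vr q lam n t + 2 * q ^ 2 * tvTree q lam n t := by
  have h1 := (law_est hq hP n t).chi_ge hq (law_fam hq hP n t) τ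
  have h2 := chi_le_tv hq (law_fam hq hP n t)
  rw [← tvTree_eq] at h2
  linarith

end

end Vale.Agent.H17.P154
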