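import Vale.Agent.H17.P154.Tv

/-!
# From the scheme to nonreconstruction (P154)
-/

namespace Vale.Agent.H17.P154

open Finset Filter Topology

/-- the basic lemma on sequences. -/
theorem seq_tendsto {s M : ℕ → ℝ} {c D : ℝ} (hc : 0 < c) (hs : ∀ n, 0 ≤ s n)
    (hM : ∀ n, 0 ≤ M n) (h1 : ∀ n, s (n + 1) + c * (M n ^ 2 * M n) ≤ s n)
    (h2 : ∀ n, s (n + 1) ≤ D * M n) : Tendsto s atTop (𝓝 0) := by
  have hanti : Antitone s := antitone_nat_of_succ_le fun n => by
    have := mul_nonneg hc.le (mul_nonneg (sq_nonneg (M n)) (hM n))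
    linarith [h1 n]
  have hbdd : BddBelow (Set.range s) := ⟨0, by rintro _ ⟨n, rfl⟩; exact hs n⟩
  have hlim := tendsto_atTop_ciInf hanti hbdd
  set L := ⨅ n, s n
  have hlim' : Tendsto (fun n => s (n + 1)) atTop (𝓝 L) := hlim.comp (tendsto_add_atTop_nat 1)
  have hdiff : Tendsto (fun n => (s n - s (n + 1)) / c) atTop (𝓝 0) := by
    have := (hlim.sub hlim').div_const c
    simpa using this
  have hMM : Tendsto (fun n => M n ^ 3) atTop (𝓝 0) := by
    refine squeeze_zero (fun n => pow_nonneg (hM n) 3) (fun n => ?_) hdiff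
    rw [le_div_iff₀ hc]
    have : M n ^ 3 = M n ^ 2 * M n := pow_succ _ _
    rw [this]
    linarith [h1 n]
  have hM0 : Tendsto M atTop (𝓝 0) := by
    have h3 : Tendsto (fun n => (M n ^ 3) ^ ((1 : ℝ) / 3)) atTop (𝓝 ((0 : ℝ) ^ ((1 : ℝ) / 3))) :=
      hMM.rpow_const (Or.inr (by norm_num))
    rw [Real.zero_rpow (by norm_num)] at h3
    refine h3.congr fun n => ?_
    rw [← Real.rpow_natCast (M n) 3, ← Real.rpow_mul (hM n)]
    norm_num
  have hD0 : Tendsto (fun n => D * M n) atTop (𝓝 0) := by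
    simpa using hM0.const_mul D
  have h3 : Tendsto (fun n => s (n + 1)) atTop (𝓝 0) :=
    squeeze_zero (fun n => hs _) h2 hD0
  exact (tendsto_add_atTop_iff_nat 1).1 h3

section
variable {q : ℕ} {lam : ℝ} {c : ℝ} {J K : Type} {φV φM : (Fin q → ℝ) → ℝ}
  {γV : J → (Fin q → ℝ) → ℝ} {γM : K → (Fin q → ℝ) → ℝ}

theorem dary_totV_tendsto (S : Scheme q lam c φV φM γV γM) (hc : 0 < c) (hq : 0 < q)
    (hP : ∀ i j : Fin q, 0 ≤ potts q lam i j) {d : ℕ} (hd : 2 ≤ d) (hks : d * lam ^ 2 ≤ 1) :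
    Tendsto (fun n => totV lam φV n (dary d n)) atTop (𝓝 0) := by
  obtain ⟨k, rfl⟩ : ∃ k, d = k + 2 := ⟨d - 2, by omega⟩
  have hM0 := fun n => S.totM_nonneg hq hP n (dary (k + 2) n)
  have hV0 := fun n => S.totV_nonneg hq hP n (dary (k + 2) n)
  have hgain := fun n => S.totV_succ_gain hc.le hq hP n k (fun _ => dary (k + 2) n)
  simp only [Finset.sum_const, card_univ, Fintype.card_fin, nsmul_eq_mul] at hgain
  have hstep : ∀ n, totV lam φV (n + 1) (dary (k + 2) (n + 1)) +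
      c * (totM lam φM n (dary (k + 2) n) ^ 2 * totM lam φM n (dary (k + 2) n)) ≤
      ((k + 2 : ℕ) : ℝ) * totM lam φM n (dary (k + 2) n) := hgain
  refine seq_tendsto (M := fun n => totM lam φM n (dary (k + 2) n)) hc
    (D := ((k + 2 : ℕ) : ℝ)) hV0 hM0 (fun n => ?_) (fun n => ?_)
  · refine (hstep n).trans ?_
    have h1 := S.totM_le hq hP n (dary (k + 2) n)
    calc ((k + 2 : ℕ) : ℝ) * totM lam φM n (dary (k + 2) n)
        ≤ ((k + 2 : ℕ) : ℝ) * (lam ^ 2 * totV lam φV n (dary (k + 2) n)) :=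
          mul_le_mul_of_nonneg_left h1 (by positivity)
      _ = (((k + 2 : ℕ) : ℝ) * lam ^ 2) * totV lam φV n (dary (k + 2) n) := by ring
      _ ≤ 1 * totV lam φV n (dary (k + 2) n) := mul_le_mul_of_nonneg_right hks (hV0 n)
      _ = _ := one_mul _
  · have := mul_nonneg hc.le (mul_nonneg (sq_nonneg (totM lam φM n (dary (k + 2) n))) (hM0 n))
    linarith [hstep n]

/-- nonreconstruction on the `d`-ary tree. -/
theorem dary_tendsto (S : Scheme q lam c φV φM γV γM) (hc : 0 < c) (hq : 0 < q)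
    (hP : ∀ i j : Fin q, 0 ≤ potts q lam i j) {C : ℝ}
    (hchi : ∀ v : Fin q → ℝ, (∀ i, 0 ≤ v i) → chi q v ≤ C * φV v) {d : ℕ} (hd : 2 ≤ d)
    (hks : d * lam ^ 2 ≤ 1) :
    Tendsto (fun n => tvTree q lam n (dary d n)) atTop (𝓝 0) := by
  have h1 := dary_totV_tendsto S hc hq hP hd hks
  have h2 : Tendsto (fun n => Real.sqrt (1 / (4 * q) * (C * totV lam φV n (dary d n)))) atTop
      (𝓝 0) := by
    have := ((h1.const_mul C).const_mul (1 / (4 * q : ℝ))).sqrt
    simpa using this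
  refine squeeze_zero (fun n => ?_) (fun n => ?_) h2
  · rw [tvTree_eq]
    exact tvFam_nonneg hq (law_fam hq hP n _)
  · rw [tvTree_eq]
    refine Real.le_sqrt_of_sq_le ((tvFam_sq_le hq (law_fam hq hP n _)).trans ?_)
    refine mul_le_mul_of_nonneg_left ?_ (by positivity)
    unfold totV tot
    rw [Finset.mul_sum]
    exact Finset.sum_le_sum fun x _ => hchi _ ((law_fam hq hP n _).nonneg x)

end

end Vale.Agent.H17.P154
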