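import Vale.Agent.H17.P154.Gen
import Vale.Agent.H17.P154.Perm4
import Vale.Agent.H17.P154.Ferro3

/-!
# The interface for the four-state Potts channel (P154)
-/

namespace Vale.Agent.H17.P154

open Finset

/-- the Fourier coordinates on `Z₂ × Z₂`. -/
noncomputable def fm1 (w : Fin 4 → ℝ) : ℝ := (w 0 + w 1 - w 2 - w 3) / 4
/-- the Fourier coordinates on `Z₂ × Z₂`. -/
noncomputable def fm2 (w : Fin 4 → ℝ) : ℝ := (w 0 - w 1 + w 2 - w 3) / 4
/-- the Fourier coordinates on `Z₂ × Z₂`. -/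
noncomputable def fm3 (w : Fin 4 → ℝ) : ℝ := (w 0 - w 1 - w 2 + w 3) / 4

/-- the chi-square functional (equal to `(fm1² + fm2² + fm3²) / 3` when `∑ w = 0`). -/
noncomputable def S4 (w : Fin 4 → ℝ) : ℝ := (w 0 ^ 2 + w 1 ^ 2 + w 2 ^ 2 + w 3 ^ 2) / 12

/-- the cubic functional. -/
noncomputable def T4 (w : Fin 4 → ℝ) : ℝ := fm1 w * fm2 w * fm3 w

/-- the quartic functional. -/
noncomputable def R4 (w : Fin 4 → ℝ) : ℝ :=
  (fm1 w ^ 2 * fm2 w ^ 2 + fm1 w ^ 2 * fm3 w ^ 2 + fm2 w ^ 2 * fm3 w ^ 2) / 3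

theorem S4_eq {w : Fin 4 → ℝ} (h : w 0 + w 1 + w 2 + w 3 = 0) :
    S4 w = (fm1 w ^ 2 + fm2 w ^ 2 + fm3 w ^ 2) / 3 := by
  unfold S4 fm1 fm2 fm3
  have h3 : w 3 = -(w 0 + w 1 + w 2) := by linarith
  rw [h3]
  ring

theorem T4_eq {w : Fin 4 → ℝ} (h : w 0 + w 1 + w 2 + w 3 = 0) :
    T4 w = (w 0 ^ 3 + w 1 ^ 3 + w 2 ^ 3 + w 3 ^ 3) / 24 := by
  unfold T4 fm1 fm2 fm3
  have h3 : w 3 = -(w 0 + w 1 + w 2) := by linarith
  rw [h3]
  ring

theorem R4_eq {w : Fin 4 → ℝ} (h : w 0 + w 1 + w 2 + w 3 = 0) :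
    R4 w = ((w 0 ^ 4 + w 1 ^ 4 + w 2 ^ 4 + w 3 ^ 4) / 4 - 9 * S4 w ^ 2) / 12 := by
  unfold R4 S4 fm1 fm2 fm3
  have h3 : w 3 = -(w 0 + w 1 + w 2) := by linarith
  rw [h3]
  ring

theorem S4_smul (t : ℝ) (w : Fin 4 → ℝ) : S4 (fun i => t * w i) = t ^ 2 * S4 w := by
  unfold S4; ring

theorem T4_smul (t : ℝ) (w : Fin 4 → ℝ) : T4 (fun i => t * w i) = t ^ 3 * T4 w := by
  unfold T4 fm1 fm2 fm3; ring

theorem R4_smul (t : ℝ) (w : Fin 4 → ℝ) : R4 (fun i => t * w i) = t ^ 4 * R4 w := by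
  unfold R4 fm1 fm2 fm3; ring

theorem S4_continuous : Continuous S4 := by unfold S4; fun_prop
theorem T4_continuous : Continuous T4 := by unfold T4 fm1 fm2 fm3; fun_prop
theorem R4_continuous : Continuous R4 := by unfold R4 fm1 fm2 fm3; fun_prop

theorem S4_nonneg (w : Fin 4 → ℝ) : 0 ≤ S4 w := by unfold S4; positivity

theorem card_perm4 : (Fintype.card (Equiv.Perm (Fin 4)) : ℝ) = 24 := by
  rw [Fintype.card_perm, Fintype.card_fin]
  norm_num [Nat.factorial]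

/-- Certificate for `q = 4` from the inequalities (I), (II), (III), (IV). -/
theorem cert4 {lam c c₁ c₂ : ℝ} {γ φ h : (Fin 4 → ℝ) → ℝ} (hγ : Continuous γ)
    (hφ : Continuous φ) (hh : Continuous h) (hc : 0 ≤ c) (hc₁ : 0 ≤ c₁) (hc₂ : 0 ≤ c₂)
    (hγ0 : γ (fun _ => 0) = 0)
    (hφ0 : ∀ a : Fin 4 → ℝ, (∀ i, 0 ≤ a i) → meanq 4 a = 1 → 0 ≤ φ (fun i => a i - 1))
    (hh0 : ∀ a : Fin 4 → ℝ, (∀ i, 0 ≤ a i) → meanq 4 a = 1 → 0 ≤ h (fun i => a i - 1))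
    (hbase : ∀ x : Fin 4, 0 ≤ γ (fun i => (if x = i then ((4 : ℕ) : ℝ) else 0) - 1))
    (hchan : ∃ m : ℝ, 0 ≤ m ∧ ∀ a : Fin 4 → ℝ, (∀ i, 0 ≤ a i) → meanq 4 a = 1 →
      m * γ (fun i => a i - 1) ≤ γ (fun i => lam * (a i - 1)))
    (hI : ∀ a b : Fin 4 → ℝ, (∀ i, 0 < a i) → (∀ i, 0 < b i) → meanq 4 a = 1 → meanq 4 b = 1 →
      24 * (γ (fun i => a i - 1) * h (fun i => b i - 1) +
          h (fun i => a i - 1) * γ (fun i => b i - 1) +
          c₁ * (γ (fun i => a i - 1) * γ (fun i => b i - 1))) ≤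
        ∑ π : Equiv.Perm (Fin 4), persq 4 γ (fun i => a i * b (π i)))
    (hII : ∀ a b : Fin 4 → ℝ, (∀ i, 0 < a i) → (∀ i, 0 < b i) → meanq 4 a = 1 → meanq 4 b = 1 →
      ∑ π : Equiv.Perm (Fin 4), persq 4 S4 (fun i => a i * b (π i)) ≤
        24 * (S4 (fun i => a i - 1) + S4 (fun i => b i - 1) -
          (γ (fun i => a i - 1) * φ (fun i => b i - 1) +
            φ (fun i => a i - 1) * γ (fun i => b i - 1)) -
          c₂ * (γ (fun i => a i - 1) * γ (fun i => b i - 1)) -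
          c * (S4 (fun i => a i - 1) * S4 (fun i => b i - 1) *
            (S4 (fun i => a i - 1) + S4 (fun i => b i - 1))))) :
    Cert 4 lam c c₁ c₂ 12 S4 γ φ h where
  contS := S4_continuous
  contγ := hγ
  contφ := hφ
  conth := hh
  c_nonneg := hc
  c₁_nonneg := hc₁
  c₂_nonneg := hc₂
  S_nonneg := S4_nonneg
  S_zero := by unfold S4; norm_num
  γ_zero := hγ0
  S_smul := S4_smul
  S_chi w := by
    rw [Fin.sum_univ_four]
    unfold S4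
    linarith
  φ_nonneg := hφ0
  h_nonneg := hh0
  base := hbase
  chan := hchan
  I a b ha hb ma mb := by
    rw [card_perm4]
    exact hI a b ha hb ma mb
  II a b ha hb ma mb := by
    rw [card_perm4]
    refine (hII a b ha hb ma mb).trans ?_
    have h1 := S4_nonneg (fun i => a i - 1)
    have h2 := S4_nonneg (fun i => b i - 1)
    have h3 := mul_nonneg hc (mul_nonneg h1 (mul_nonneg h2 h2))
    nlinarith

end Vale.Agent.H17.P154
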