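import Vale.Agent.H17.P154.Q4

/-!
# Signs of symmetric functionals on the simplex for four states (P154)
-/

namespace Vale.Agent.H17.P154

open Finset

theorem S4_perm (σ : Equiv.Perm (Fin 4)) (w : Fin 4 → ℝ) : S4 (fun i => w (σ i)) = S4 w := by
  have h := Equiv.sum_comp σ (fun i => w i ^ 2)
  rw [Fin.sum_univ_four, Fin.sum_univ_four] at h
  unfold S4
  linarith

theorem sum_perm_zero {σ : Equiv.Perm (Fin 4)} {w : Fin 4 → ℝ} (h : w 0 + w 1 + w 2 + w 3 = 0) :
    w (σ 0) + w (σ 1) + w (σ 2) + w (σ 3) = 0 := by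
  have h1 := Equiv.sum_comp σ w
  rw [Fin.sum_univ_four, Fin.sum_univ_four] at h1
  linarith

theorem T4_perm (σ : Equiv.Perm (Fin 4)) {w : Fin 4 → ℝ} (h : w 0 + w 1 + w 2 + w 3 = 0) :
    T4 (fun i => w (σ i)) = T4 w := by
  rw [T4_eq h, T4_eq (w := fun i => w (σ i)) (sum_perm_zero h)]
  have h := Equiv.sum_comp σ (fun i => w i ^ 3)
  rw [Fin.sum_univ_four, Fin.sum_univ_four] at h
  linarith

theorem R4_perm (σ : Equiv.Perm (Fin 4)) {w : Fin 4 → ℝ} (h : w 0 + w 1 + w 2 + w 3 = 0) :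
    R4 (fun i => w (σ i)) = R4 w := by
  rw [R4_eq h, R4_eq (w := fun i => w (σ i)) (sum_perm_zero h), S4_perm]
  have h := Equiv.sum_comp σ (fun i => w i ^ 4)
  rw [Fin.sum_univ_four, Fin.sum_univ_four] at h
  linarith

/-- cone coordinates of a sorted point of the simplex. -/
noncomputable def cone4 (p q r : ℝ) : Fin 4 → ℝ :=
  ![-(p + q + r), -(p + q) + r / 3, -p + q + r / 3, 3 * p + q + r / 3]

theorem fm1_cone (p q r : ℝ) : fm1 (cone4 p q r) = -(p + q + r / 3) := by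
  simp only [fm1, cone4, Matrix.cons_val_zero, Matrix.cons_val_one, Matrix.cons_val]
  ring

theorem fm2_cone (p q r : ℝ) : fm2 (cone4 p q r) = -(p + r / 3) := by
  simp only [fm2, cone4, Matrix.cons_val_zero, Matrix.cons_val_one, Matrix.cons_val]
  ring

theorem fm3_cone (p q r : ℝ) : fm3 (cone4 p q r) = p - r / 3 := by
  simp only [fm3, cone4, Matrix.cons_val_zero, Matrix.cons_val_one, Matrix.cons_val]
  ring

theorem cone4_sum (p q r : ℝ) :
    cone4 p q r 0 + cone4 p q r 1 + cone4 p q r 2 + cone4 p q r 3 = 0 := by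
  simp only [cone4, Matrix.cons_val_zero, Matrix.cons_val_one, Matrix.cons_val]
  ring

theorem T4_cone (p q r : ℝ) : T4 (cone4 p q r) = (p + q + r / 3) * (p + r / 3) * (p - r / 3) := by
  unfold T4
  rw [fm1_cone, fm2_cone, fm3_cone]
  ring

theorem S4_cone (p q r : ℝ) :
    S4 (cone4 p q r) = ((p + q + r / 3) ^ 2 + (p + r / 3) ^ 2 + (p - r / 3) ^ 2) / 3 := by
  rw [S4_eq (cone4_sum p q r), fm1_cone, fm2_cone, fm3_cone]
  ring

theorem R4_cone (p q r : ℝ) :
    R4 (cone4 p q r) = ((p + q + r / 3) ^ 2 * (p + r / 3) ^ 2 +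
      (p + q + r / 3) ^ 2 * (p - r / 3) ^ 2 + (p + r / 3) ^ 2 * (p - r / 3) ^ 2) / 3 := by
  unfold R4
  rw [fm1_cone, fm2_cone, fm3_cone]
  ring

/-- A symmetric functional is nonnegative on the simplex if it is so on the sorted cone. -/
theorem sorted_nonneg {F : (Fin 4 → ℝ) → ℝ}
    (hs : ∀ (σ : Equiv.Perm (Fin 4)) (w : Fin 4 → ℝ), w 0 + w 1 + w 2 + w 3 = 0 →
      F (fun i => w (σ i)) = F w)
    (h : ∀ p q r t : ℝ, 0 ≤ p → 0 ≤ q → 0 ≤ r → 0 ≤ t → p + q + r + t = 1 → 0 ≤ F (cone4 p q r)) :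
    ∀ a : Fin 4 → ℝ, (∀ i, 0 ≤ a i) → meanq 4 a = 1 → 0 ≤ F (fun i => a i - 1) := by
  intro a ha ma
  have hm := Tuple.monotone_sort a
  set σ := Tuple.sort a with hσ
  have h01 : a (σ 0) ≤ a (σ 1) := hm (by decide)
  have h12 : a (σ 1) ≤ a (σ 2) := hm (by decide)
  have h23 : a (σ 2) ≤ a (σ 3) := hm (by decide)
  have hsum : a 0 + a 1 + a 2 + a 3 = 4 := by
    unfold meanq at ma
    rw [Fin.sum_univ_four] at ma
    push_cast at ma
    linarith
  have hsum' : a (σ 0) + a (σ 1) + a (σ 2) + a (σ 3) = 4 := by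
    have h1 := Equiv.sum_comp σ a
    rw [Fin.sum_univ_four, Fin.sum_univ_four] at h1
    linarith
  have hz : (fun i => a i - 1) 0 + (fun i => a i - 1) 1 + (fun i => a i - 1) 2 +
      (fun i => a i - 1) 3 = 0 := by
    change (a 0 - 1) + (a 1 - 1) + (a 2 - 1) + (a 3 - 1) = 0
    linarith
  rw [← hs σ _ hz]
  have key := h ((a (σ 3) - a (σ 2)) / 4) ((a (σ 2) - a (σ 1)) / 2)
    (3 / 4 * (a (σ 1) - a (σ 0))) (a (σ 0)) (by linarith) (by linarith) (by linarith) (ha _)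
    (by linarith)
  have he : cone4 ((a (σ 3) - a (σ 2)) / 4) ((a (σ 2) - a (σ 1)) / 2)
      (3 / 4 * (a (σ 1) - a (σ 0))) = fun i => a (σ i) - 1 := by
    funext i
    fin_cases i
    · simp only [cone4, Matrix.cons_val_zero, Fin.zero_eta]
      linarith
    · simp only [cone4, Matrix.cons_val_one, Fin.mk_one, Matrix.cons_val_zero, Matrix.cons_val]
      linarith
    · simp only [cone4, Matrix.cons_val, Fin.reduceFinMk]
      linarith
    · simp only [cone4, Matrix.cons_val, Fin.reduceFinMk]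
      linarith
  rw [he] at key
  exact key

end Vale.Agent.H17.P154
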