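import Vale.Agent.H17.P154.Q4Cone
import Vale.Agent.H23.Potts.CertI

/-!
# The functionals of the four-state certificate and their signs (P154)
-/

namespace Vale.Agent.H17.P154

open Finset Vale.Agent.H23.Potts

/-- the invariant `γ`. -/
noncomputable def gam4 (w : Fin 4 → ℝ) : ℝ :=
  T4 w - 83 / 100 * S4 w ^ 2 - 45 / 100 * R4 w + 52 / 100 * (S4 w * T4 w)

/-- the multiplier `φ`. -/
noncomputable def phi4 (w : Fin 4 → ℝ) : ℝ :=
  4 * S4 w - T4 w - 299 / 100 * S4 w ^ 2 - 40 / 100 * R4 w + 35 / 100 * (S4 w * T4 w) +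
    828 / 100 * S4 w ^ 3 + 172 / 100 * T4 w ^ 2 - 950 / 100 * (S4 w * R4 w)

/-- the multiplier `h`. -/
noncomputable def h4 (w : Fin 4 → ℝ) : ℝ :=
  1 - 624 / 100 * S4 w + 81 / 100 * T4 w - 92 / 100 * S4 w ^ 2 + 2697 / 100 * R4 w -
    3635 / 100 * (S4 w * T4 w) + 5608 / 100 * S4 w ^ 3 + 3622 / 100 * T4 w ^ 2 -
    7742 / 100 * (S4 w * R4 w)

theorem gam4_continuous : Continuous gam4 := by
  have h1 := S4_continuous
  have h2 := T4_continuous
  have h3 := R4_continuous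
  unfold gam4
  fun_prop

theorem phi4_continuous : Continuous phi4 := by
  have h1 := S4_continuous
  have h2 := T4_continuous
  have h3 := R4_continuous
  unfold phi4
  fun_prop

theorem h4_continuous : Continuous h4 := by
  have h1 := S4_continuous
  have h2 := T4_continuous
  have h3 := R4_continuous
  unfold h4
  fun_prop

/-- mean -/
def cM : PE 4 := PE.add (PE.add (PE.add (PE.var 0) (PE.var 1)) (PE.mul (PE.cst 3) (PE.var 2)))
  (PE.var 3)
/-- first Fourier coordinate -/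
def cf1 : PE 4 := PE.add (PE.add (PE.var 0) (PE.var 1)) (PE.var 2)
/-- second Fourier coordinate -/
def cf2 : PE 4 := PE.add (PE.var 0) (PE.var 2)
/-- third Fourier coordinate -/
def cf3 : PE 4 := psub (PE.var 0) (PE.var 2)
/-- `3 S` -/
def cS : PE 4 := PE.add (PE.add (psq cf1) (psq cf2)) (psq cf3)
/-- `T` -/
def cT : PE 4 := PE.mul (PE.mul cf1 cf2) cf3
/-- `3 R` -/
def cR : PE 4 := PE.add (PE.add (psq (PE.mul cf1 cf2)) (psq (PE.mul cf1 cf3)))
  (psq (PE.mul cf2 cf3))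

/-- `2700 φ` -/
def cPhi : PE 4 :=
  PE.add (PE.add (PE.add (PE.add (PE.add (PE.add (PE.add
    (PE.mul (PE.cst 3600) (PE.mul cS (psq (psq cM))))
    (PE.mul (PE.cst (-2700)) (PE.mul cT (pcu cM))))
    (PE.mul (PE.cst (-897)) (PE.mul (psq cS) (psq cM))))
    (PE.mul (PE.cst (-360)) (PE.mul cR (psq cM))))
    (PE.mul (PE.cst 315) (PE.mul (PE.mul cS cT) cM)))
    (PE.mul (PE.cst 828) (pcu cS)))
    (PE.mul (PE.cst 4644) (psq cT)))
    (PE.mul (PE.cst (-2850)) (PE.mul cS cR))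

/-- `2700 h` -/
def cH0 : PE 4 :=
  PE.add (PE.add (PE.add (PE.add (PE.add (PE.add (PE.add (PE.add
    (PE.mul (PE.cst 2700) (psq (pcu cM)))
    (PE.mul (PE.cst (-5616)) (PE.mul cS (psq (psq cM)))))
    (PE.mul (PE.cst 2187) (PE.mul cT (pcu cM))))
    (PE.mul (PE.cst (-276)) (PE.mul (psq cS) (psq cM))))
    (PE.mul (PE.cst 24273) (PE.mul cR (psq cM))))
    (PE.mul (PE.cst (-32715)) (PE.mul (PE.mul cS cT) cM)))
    (PE.mul (PE.cst 5608) (pcu cS)))
    (PE.mul (PE.cst 97794) (psq cT)))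
    (PE.mul (PE.cst (-23226)) (PE.mul cS cR))

/-- `2700 h`, with the elevation factor -/
def cH : PE 4 := PE.mul (psq (pcu cM)) cH0

theorem cPhi_chk : PE.chk cPhi 50 13 = true := by decide +kernel
theorem cH_chk : PE.chk cH 60 13 = true := by decide +kernel

section
variable (p q r t : ℝ)

theorem ev_cM : PE.evR ![p, q, r / 3, t] cM = p + q + r + t := by
  simp only [cM, PE.evR, Matrix.cons_val_zero, Matrix.cons_val_one, Matrix.cons_val]
  push_cast
  ring

theorem ev_cf1 : PE.evR ![p, q, r / 3, t] cf1 = p + q + r / 3 := by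
  simp only [cf1, PE.evR, Matrix.cons_val_zero, Matrix.cons_val_one, Matrix.cons_val]

theorem ev_cf2 : PE.evR ![p, q, r / 3, t] cf2 = p + r / 3 := by
  simp only [cf2, PE.evR, Matrix.cons_val_zero, Matrix.cons_val]

theorem ev_cf3 : PE.evR ![p, q, r / 3, t] cf3 = p - r / 3 := by
  simp only [cf3, psub, PE.evR, Matrix.cons_val_zero, Matrix.cons_val]
  ring

theorem ev_cS : PE.evR ![p, q, r / 3, t] cS = 3 * S4 (cone4 p q r) := by
  rw [S4_cone, ← ev_cf1 p q r t, ← ev_cf2 p q r t, ← ev_cf3 p q r t]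
  simp only [cS, psq, PE.evR]
  ring

theorem ev_cT : PE.evR ![p, q, r / 3, t] cT = T4 (cone4 p q r) := by
  rw [T4_cone, ← ev_cf1 p q r t, ← ev_cf2 p q r t, ← ev_cf3 p q r t]
  simp only [cT, PE.evR]

theorem ev_cR : PE.evR ![p, q, r / 3, t] cR = 3 * R4 (cone4 p q r) := by
  rw [R4_cone, ← ev_cf1 p q r t, ← ev_cf2 p q r t, ← ev_cf3 p q r t]
  simp only [cR, psq, PE.evR]
  ring

end

theorem vec_nonneg {p q r t : ℝ} (hp : 0 ≤ p) (hq : 0 ≤ q) (hr : 0 ≤ r) (ht : 0 ≤ t) :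
    ∀ i, 0 ≤ (![p, q, r / 3, t] : Fin 4 → ℝ) i := by
  intro i
  fin_cases i
  · exact hp
  · exact hq
  · exact div_nonneg hr (by norm_num)
  · exact ht

theorem phi4_nonneg : ∀ a : Fin 4 → ℝ, (∀ i, 0 ≤ a i) → meanq 4 a = 1 →
    0 ≤ phi4 (fun i => a i - 1) := by
  apply sorted_nonneg
  · intro σ w hw
    unfold phi4
    rw [S4_perm, T4_perm σ hw, R4_perm σ hw]
  · intro p q r t hp hq hr ht h1
    have h2 := PE.evR_nonneg cPhi 50 13 cPhi_chk ![p, q, r / 3, t] (vec_nonneg hp hq hr ht)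
    have hM := ev_cM p q r t
    rw [h1] at hM
    simp only [cPhi, psq, pcu, PE.evR, ev_cS, ev_cT, ev_cR, hM] at h2
    push_cast at h2
    unfold phi4
    nlinarith [h2]

theorem h4_nonneg : ∀ a : Fin 4 → ℝ, (∀ i, 0 ≤ a i) → meanq 4 a = 1 →
    0 ≤ h4 (fun i => a i - 1) := by
  apply sorted_nonneg
  · intro σ w hw
    unfold h4
    rw [S4_perm, T4_perm σ hw, R4_perm σ hw]
  · intro p q r t hp hq hr ht h1
    have h2 := PE.evR_nonneg cH 60 13 cH_chk ![p, q, r / 3, t] (vec_nonneg hp hq hr ht)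
    have hM := ev_cM p q r t
    rw [h1] at hM
    simp only [cH, cH0, psq, pcu, PE.evR, ev_cS, ev_cT, ev_cR, hM] at h2
    push_cast at h2
    unfold h4
    nlinarith [h2]

/-- the Fourier coordinates are at most one in absolute value on the simplex. -/
theorem fm_abs_le {a : Fin 4 → ℝ} (ha : ∀ i, 0 ≤ a i) (ma : meanq 4 a = 1) :
    |fm1 (fun i => a i - 1)| ≤ 1 ∧ |fm2 (fun i => a i - 1)| ≤ 1 ∧
      |fm3 (fun i => a i - 1)| ≤ 1 := by
  have hsum : a 0 + a 1 + a 2 + a 3 = 4 := by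
    unfold meanq at ma
    rw [Fin.sum_univ_four] at ma
    push_cast at ma
    linarith
  have h0 := ha 0
  have h1 := ha 1
  have h2 := ha 2
  have h3 := ha 3
  unfold fm1 fm2 fm3
  refine ⟨?_, ?_, ?_⟩ <;> rw [abs_le] <;> constructor <;> linarith

/-- `T ≤ S` and `S T ≤ R` on the simplex. -/
theorem T4_le_S4 {a : Fin 4 → ℝ} (ha : ∀ i, 0 ≤ a i) (ma : meanq 4 a = 1) :
    T4 (fun i => a i - 1) ≤ S4 (fun i => a i - 1) ∧
      S4 (fun i => a i - 1) * T4 (fun i => a i - 1) ≤ R4 (fun i => a i - 1) := by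
  have hsum : a 0 + a 1 + a 2 + a 3 = 4 := by
    unfold meanq at ma
    rw [Fin.sum_univ_four] at ma
    push_cast at ma
    linarith
  obtain ⟨h1, h2, h3⟩ := fm_abs_le ha ma
  rw [S4_eq (w := fun i => a i - 1) (by linarith)]
  unfold T4 R4
  set x := fm1 (fun i => a i - 1)
  set y := fm2 (fun i => a i - 1)
  set z := fm3 (fun i => a i - 1)
  have key : ∀ x y z : ℝ, |z| ≤ 1 → x * y * z ≤ (x ^ 2 + y ^ 2) / 2 := by
    intro x y z hz
    have h4 : x * y * z ≤ |x * y| * |z| := by rw [← abs_mul]; exact le_abs_self _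
    have h5 : |x * y| * |z| ≤ |x * y| := mul_le_of_le_one_right (abs_nonneg _) hz
    have h6 : |x * y| ≤ (x ^ 2 + y ^ 2) / 2 := by
      rw [abs_le]
      constructor
      · nlinarith [sq_nonneg (x + y)]
      · nlinarith [sq_nonneg (x - y)]
    linarith
  constructor
  · have k1 := key x y z h3
    have k2 := key y z x h1
    have k3 := key x z y h2
    nlinarith
  · -- `x² (x y z) ≤ x² (y² + z²) / 2`
    have k1 : x ^ 2 * (x * y * z) ≤ x ^ 2 * ((y ^ 2 + z ^ 2) / 2) := by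
      apply mul_le_mul_of_nonneg_left _ (sq_nonneg x)
      have := key y z x h1
      linarith
    have k2 : y ^ 2 * (x * y * z) ≤ y ^ 2 * ((x ^ 2 + z ^ 2) / 2) := by
      apply mul_le_mul_of_nonneg_left _ (sq_nonneg y)
      have := key x z y h2
      linarith
    have k3 : z ^ 2 * (x * y * z) ≤ z ^ 2 * ((x ^ 2 + y ^ 2) / 2) := by
      apply mul_le_mul_of_nonneg_left _ (sq_nonneg z)
      have := key x y z h3
      linarith
    nlinarith

theorem gam4_zero : gam4 (fun _ => 0) = 0 := by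
  unfold gam4 S4 T4 R4 fm1 fm2 fm3
  norm_num

theorem gam4_vertex (x : Fin 4) :
    0 ≤ gam4 (fun i => (if x = i then ((4 : ℕ) : ℝ) else 0) - 1) := by
  unfold gam4 S4 T4 R4 fm1 fm2 fm3
  fin_cases x <;> norm_num [Fin.ext_iff]

theorem gam4_chan {lam : ℝ} (h0 : 0 ≤ lam) (h1 : lam ≤ 1) : ∃ m : ℝ, 0 ≤ m ∧
    ∀ a : Fin 4 → ℝ, (∀ i, 0 ≤ a i) → meanq 4 a = 1 →
      m * gam4 (fun i => a i - 1) ≤ gam4 (fun i => lam * (a i - 1)) := by
  refine ⟨lam ^ 3, by positivity, fun a ha ma => ?_⟩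
  obtain ⟨hTS, hSTR⟩ := T4_le_S4 ha ma
  have hS := S4_nonneg (fun i => a i - 1)
  have hR : 0 ≤ R4 (fun i => a i - 1) := by unfold R4; positivity
  unfold gam4
  rw [S4_smul lam (fun i => a i - 1), T4_smul lam (fun i => a i - 1),
    R4_smul lam (fun i => a i - 1)]
  set S := S4 (fun i => a i - 1)
  set T := T4 (fun i => a i - 1)
  set R := R4 (fun i => a i - 1)
  have h2 : 0 ≤ 83 / 100 * S ^ 2 + 45 / 100 * R - 52 / 100 * (1 + lam) * (S * T) := by
    have h3 : S * T ≤ S * S := mul_le_mul_of_nonneg_left hTS hS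
    rcases le_total 0 T with hT | hT
    · have h4 : 0 ≤ S * T := mul_nonneg hS hT
      nlinarith
    · have h4 : S * T ≤ 0 := mul_nonpos_of_nonneg_of_nonpos hS hT
      nlinarith
  have h5 : 0 ≤ lam ^ 3 * (1 - lam) *
      (83 / 100 * S ^ 2 + 45 / 100 * R - 52 / 100 * (1 + lam) * (S * T)) :=
    mul_nonneg (mul_nonneg (by positivity) (by linarith)) h2
  nlinarith

end Vale.Agent.H17.P154
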