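import Vale.Agent.H17.P154.Tv

/-!
# From pointwise inequalities to inequalities for symmetric families (P154)
-/

namespace Vale.Agent.H17.P154

open Finset

/-- the mean of a vector. -/
noncomputable def meanq (q : ℕ) (x : Fin q → ℝ) : ℝ := (∑ i, x i) / q

/-- the perspective of a functional of mean-zero vectors. -/
noncomputable def persq (q : ℕ) (f : (Fin q → ℝ) → ℝ) (x : Fin q → ℝ) : ℝ :=
  meanq q x * f (fun i => x i / meanq q x - 1)

section
variable {q : ℕ}

theorem meanq_nonneg {x : Fin q → ℝ} (hx : ∀ i, 0 ≤ x i) : 0 ≤ meanq q x :=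
  div_nonneg (Finset.sum_nonneg fun i _ => hx i) (by positivity)

theorem meanq_smul (t : ℝ) (x : Fin q → ℝ) : meanq q (fun i => t * x i) = t * meanq q x := by
  unfold meanq
  rw [← Finset.mul_sum, mul_div_assoc]

theorem persq_smul (f : (Fin q → ℝ) → ℝ) (t : ℝ) (x : Fin q → ℝ) :
    persq q f (fun i => t * x i) = t * persq q f x := by
  unfold persq
  rw [meanq_smul]
  by_cases ht : t = 0
  · simp [ht]
  · rw [mul_assoc]
    congr 3
    funext i
    rw [mul_div_mul_left _ _ ht]

theorem meanq_eq_zero (hq : 0 < q) {x : Fin q → ℝ} (hx : ∀ i, 0 ≤ x i) (h : meanq q x = 0) :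
    ∀ i, x i = 0 := by
  have hq0 : (0 : ℝ) < q := by exact_mod_cast hq
  have hs : ∑ j, x j = 0 := by
    rcases div_eq_zero_iff.1 h with h | h
    · exact h
    · exact absurd h hq0.ne'
  exact fun i => (Finset.sum_eq_zero_iff_of_nonneg (fun i _ => hx i)).1 hs i (mem_univ i)

theorem meanq_div_self (x : Fin q → ℝ) (h : meanq q x ≠ 0) :
    meanq q (fun i => x i / meanq q x) = 1 := by
  have h1 : (fun i => x i / meanq q x) = fun i => (meanq q x)⁻¹ * x i := by
    funext i; rw [div_eq_inv_mul]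
  rw [h1, meanq_smul, inv_mul_cancel₀ h]

/-- the normalised vector. -/
noncomputable def nrm (q : ℕ) (x : Fin q → ℝ) : Fin q → ℝ := fun i => x i / meanq q x - 1

/-- homogenisation of a pointwise upper bound. -/
theorem hom_le (hq : 0 < q) {f : (Fin q → ℝ) → ℝ} {B : (Fin q → ℝ) → (Fin q → ℝ) → ℝ} {C : ℝ}
    (h : ∀ a b : Fin q → ℝ, (∀ i, 0 ≤ a i) → (∀ i, 0 ≤ b i) → meanq q a = 1 → meanq q b = 1 →
      ∑ π : Equiv.Perm (Fin q), persq q f (fun i => a i * b (π i)) ≤
        C * B (fun i => a i - 1) (fun i => b i - 1))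
    (u v : Fin q → ℝ) (hu : ∀ i, 0 ≤ u i) (hv : ∀ i, 0 ≤ v i) :
    ∑ π : Equiv.Perm (Fin q), persq q f (fun i => u i * v (π i)) ≤
      C * (meanq q u * meanq q v * B (nrm q u) (nrm q v)) := by
  rcases eq_or_lt_of_le (meanq_nonneg hu) with hu0 | hu0
  · have hz := meanq_eq_zero hq hu hu0.symm
    have : ∀ π : Equiv.Perm (Fin q), persq q f (fun i => u i * v (π i)) = 0 := by
      intro π
      have : (fun i => u i * v (π i)) = fun i => (0 : ℝ) * v (π i) := by
        funext i; rw [hz i]
      rw [this, persq_smul, zero_mul]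
    simp [this, ← hu0]
  rcases eq_or_lt_of_le (meanq_nonneg hv) with hv0 | hv0
  · have hz := meanq_eq_zero hq hv hv0.symm
    have : ∀ π : Equiv.Perm (Fin q), persq q f (fun i => u i * v (π i)) = 0 := by
      intro π
      have : (fun i => u i * v (π i)) = fun i => (0 : ℝ) * u i := by
        funext i; rw [hz (π i)]; ring
      rw [this, persq_smul, zero_mul]
    simp [this, ← hv0]
  have h1 := h (fun i => u i / meanq q u) (fun i => v i / meanq q v)
    (fun i => div_nonneg (hu i) hu0.le) (fun i => div_nonneg (hv i) hv0.le)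
    (meanq_div_self u hu0.ne') (meanq_div_self v hv0.ne')
  have h2 : ∀ π : Equiv.Perm (Fin q), persq q f (fun i => u i * v (π i)) =
      (meanq q u * meanq q v) *
        persq q f (fun i => u i / meanq q u * (v (π i) / meanq q v)) := by
    intro π
    rw [← persq_smul]
    congr 1
    funext i
    field_simp
  simp only [h2, ← Finset.mul_sum]
  have h3 : C * (meanq q u * meanq q v * B (nrm q u) (nrm q v)) =
      (meanq q u * meanq q v) * (C * B (nrm q u) (nrm q v)) := by ring
  rw [h3]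
  exact mul_le_mul_of_nonneg_left h1 (mul_pos hu0 hv0).le

variable {X Y : Type} [Fintype X] [Fintype Y]

/-- symmetrisation: merging with a symmetric family. -/
theorem sym_eq {φ : (Fin q → ℝ) → ℝ} (u : X → Fin q → ℝ) {v : Y → Fin q → ℝ} (hv : Fam v) :
    (Fintype.card (Equiv.Perm (Fin q)) : ℝ) *
      tot φ (fun z : X × Y => fun i => u z.1 i * v z.2 i) =
      ∑ x, ∑ y, ∑ π : Equiv.Perm (Fin q), φ (fun i => u x i * v y (π i)) := by
  have hinv : ∀ (x : X) (π : Equiv.Perm (Fin q)),
      ∑ y, φ (fun i => u x i * v y (π i)) = ∑ y, φ (fun i => u x i * v y i) := by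
    intro x π
    obtain ⟨e, he⟩ := hv.symm π
    rw [← Equiv.sum_comp e]
    refine Finset.sum_congr rfl fun y _ => ?_
    congr 1
    funext i
    rw [he]
  unfold tot
  rw [Fintype.sum_prod_type, Finset.mul_sum]
  refine Finset.sum_congr rfl fun x _ => ?_
  rw [Finset.sum_comm]
  simp only [hinv, Finset.sum_const, card_univ, nsmul_eq_mul]

theorem sym_le {φ : (Fin q → ℝ) → ℝ} {B : (Fin q → ℝ) → (Fin q → ℝ) → ℝ}
    (h : ∀ u v : Fin q → ℝ, (∀ i, 0 ≤ u i) → (∀ i, 0 ≤ v i) →
      ∑ π : Equiv.Perm (Fin q), φ (fun i => u i * v (π i)) ≤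
        (Fintype.card (Equiv.Perm (Fin q)) : ℝ) * B u v)
    {u : X → Fin q → ℝ} {v : Y → Fin q → ℝ} (hu : Fam u) (hv : Fam v) :
    tot φ (fun z : X × Y => fun i => u z.1 i * v z.2 i) ≤ ∑ x, ∑ y, B (u x) (v y) := by
  have hcard : (0 : ℝ) < (Fintype.card (Equiv.Perm (Fin q)) : ℝ) := by
    exact_mod_cast Fintype.card_pos
  refine le_of_mul_le_mul_left ?_ hcard
  rw [sym_eq u hv, Finset.mul_sum]
  refine Finset.sum_le_sum fun x _ => ?_
  rw [Finset.mul_sum]
  exact Finset.sum_le_sum fun y _ => h _ _ (hu.nonneg x) (hv.nonneg y)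

theorem tot_meanq (hq : 0 < q) {v : X → Fin q → ℝ} (hv : Fam v) : tot (meanq q) v = 1 := by
  have hq0 : (q : ℝ) ≠ 0 := by positivity
  unfold tot meanq
  rw [← Finset.sum_div, Finset.sum_comm]
  simp only [hv.norm, Finset.sum_const, card_univ, Fintype.card_fin, nsmul_eq_mul, mul_one]
  exact div_self hq0

/-- the channel acts by `w ↦ λ w` on normalised vectors. -/
theorem msg_eq (hq : 0 < q) (lam : ℝ) (v : Fin q → ℝ) (i : Fin q) :
    msg q lam v i = lam * v i + (1 - lam) * meanq q v := by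
  have hq0 : (q : ℝ) ≠ 0 := by positivity
  unfold msg potts meanq
  simp only [add_mul, Finset.sum_add_distrib, ← Finset.mul_sum, mul_assoc, ite_mul, one_mul,
    zero_mul, Finset.sum_ite_eq, mem_univ, if_true]
  field_simp

theorem meanq_msg (hq : 0 < q) (lam : ℝ) (v : Fin q → ℝ) :
    meanq q (msg q lam v) = meanq q v := by
  have hq0 : (q : ℝ) ≠ 0 := by positivity
  have : ∑ i, msg q lam v i = ∑ i, v i := by
    simp only [msg_eq hq, Finset.sum_add_distrib, ← Finset.mul_sum, Finset.sum_const, card_univ,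
      Fintype.card_fin, nsmul_eq_mul]
    unfold meanq
    field_simp
    ring
  unfold meanq
  rw [this]

theorem persq_msg (hq : 0 < q) (f : (Fin q → ℝ) → ℝ) (lam : ℝ) (v : Fin q → ℝ) :
    persq q f (msg q lam v) = meanq q v * f (fun i => lam * nrm q v i) := by
  unfold persq
  rw [meanq_msg hq]
  by_cases h : meanq q v = 0
  · simp [h]
  · congr 2
    funext i
    rw [msg_eq hq]
    unfold nrm
    field_simp
    ring

theorem persq_def (f : (Fin q → ℝ) → ℝ) (v : Fin q → ℝ) :
    persq q f v = meanq q v * f (nrm q v) := rfl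

end

end Vale.Agent.H17.P154
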