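import Vale.Agent.H17.P154.Abs

/-!
# Total variation and chi-square (P154)
-/

namespace Vale.Agent.H17.P154

open Finset

/-- the chi-square functional. -/
noncomputable def chi (q : ℕ) (v : Fin q → ℝ) : ℝ :=
  (∑ i, (v i - (∑ j, v j) / q) ^ 2) / ((∑ j, v j) / q)

theorem chi_nonneg {q : ℕ} {v : Fin q → ℝ} (hv : ∀ i, 0 ≤ v i) : 0 ≤ chi q v := by
  unfold chi
  exact div_nonneg (Finset.sum_nonneg fun i _ => sq_nonneg _)
    (div_nonneg (Finset.sum_nonneg fun i _ => hv i) (by positivity))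

/-- the total variation functional of a family. -/
noncomputable def tvFam {X : Type} [Fintype X] {q : ℕ} (v : X → Fin q → ℝ) : ℝ :=
  ∑ x, (∑ j, (1 / q : ℝ) * v x j) *
    (1 / 2 * ∑ i, |((1 / q : ℝ) * v x i) / (∑ j, (1 / q : ℝ) * v x j) - 1 / q|)

theorem tvTree_eq {q : ℕ} (lam : ℝ) (n : ℕ) (t : RTree n) :
    tvTree q lam n t = tvFam (fun (x : Conf q n t) (i : Fin q) => law q lam n t i x) := rfl

theorem tv_term {q : ℕ} (hq : 0 < q) {v : Fin q → ℝ} (hv : ∀ i, 0 ≤ v i) :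
    (∑ j, (1 / q : ℝ) * v j) *
      (1 / 2 * ∑ i, |((1 / q : ℝ) * v i) / (∑ j, (1 / q : ℝ) * v j) - 1 / q|) =
    1 / (2 * q) * ∑ i, |v i - (∑ j, v j) / q| := by
  have hq0 : (0 : ℝ) < q := by exact_mod_cast hq
  have hm : ∑ j, (1 / q : ℝ) * v j = (∑ j, v j) / q := by
    rw [← Finset.mul_sum]; ring
  rw [hm]
  set m : ℝ := (∑ j, v j) / q with hmdef
  have hm0 : 0 ≤ m := div_nonneg (Finset.sum_nonneg fun i _ => hv i) hq0.le
  rcases eq_or_lt_of_le hm0 with h0 | hpos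
  · have hs : ∑ j, v j = 0 := by
      have : m = 0 := h0.symm
      rw [hmdef, div_eq_zero_iff] at this
      rcases this with h | h
      · exact h
      · exact absurd h hq0.ne'
    have hv0 : ∀ i, v i = 0 := fun i =>
      (Finset.sum_eq_zero_iff_of_nonneg (fun i _ => hv i)).1 hs i (mem_univ i)
    simp [← h0, hv0]
  · rw [Finset.mul_sum, Finset.mul_sum, Finset.mul_sum]
    refine Finset.sum_congr rfl fun i _ => ?_
    have : (1 / q : ℝ) * v i / m - 1 / q = (v i - m) / (q * m) := by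
      field_simp
    rw [this, abs_div, abs_of_pos (mul_pos hq0 hpos)]
    field_simp

theorem tvFam_eq {X : Type} [Fintype X] {q : ℕ} (hq : 0 < q) {v : X → Fin q → ℝ}
    (hv : ∀ x i, 0 ≤ v x i) :
    tvFam v = 1 / (2 * q) * ∑ x, ∑ i, |v x i - (∑ j, v x j) / q| := by
  unfold tvFam
  rw [Finset.mul_sum]
  exact Finset.sum_congr rfl fun x _ => tv_term hq (hv x)

theorem tvFam_sq_le {X : Type} [Fintype X] {q : ℕ} (hq : 0 < q) {v : X → Fin q → ℝ}
    (hv : Fam v) : (tvFam v) ^ 2 ≤ 1 / (4 * q) * tot (chi q) v := by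
  have hq0 : (0 : ℝ) < q := by exact_mod_cast hq
  rw [tvFam_eq hq hv.nonneg]
  have h1 : (∑ z : X × Fin q, |v z.1 z.2 - (∑ j, v z.1 j) / q|) ^ 2 ≤
      (∑ z : X × Fin q, (∑ j, v z.1 j) / q) *
        ∑ z : X × Fin q, (v z.1 z.2 - (∑ j, v z.1 j) / q) ^ 2 / ((∑ j, v z.1 j) / q) := by
    refine Finset.sum_sq_le_sum_mul_sum_of_sq_le_mul _ (fun z _ => ?_) (fun z _ => ?_)
      (fun z _ => le_of_eq ?_)
    · exact div_nonneg (Finset.sum_nonneg fun i _ => hv.nonneg _ i) hq0.le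
    · exact div_nonneg (sq_nonneg _)
        (div_nonneg (Finset.sum_nonneg fun i _ => hv.nonneg _ i) hq0.le)
    · rw [sq_abs]
      by_cases h0 : (∑ j, v z.1 j) / (q : ℝ) = 0
      · have hs : ∑ j, v z.1 j = 0 := by
          rcases div_eq_zero_iff.1 h0 with h | h
          · exact h
          · exact absurd h hq0.ne'
        have hv0 : ∀ i, v z.1 i = 0 := fun i =>
          (Finset.sum_eq_zero_iff_of_nonneg (fun i _ => hv.nonneg _ i)).1 hs i (mem_univ i)
        simp [hv0]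
      · rw [mul_div_cancel₀ _ h0]
  rw [Fintype.sum_prod_type, Fintype.sum_prod_type, Fintype.sum_prod_type] at h1
  have h2 : ∑ x, ∑ _i : Fin q, (∑ j, v x j) / (q : ℝ) = q := by
    simp only [Finset.sum_const, card_univ, Fintype.card_fin, nsmul_eq_mul]
    have : ∀ x, (q : ℝ) * ((∑ j, v x j) / q) = ∑ j, v x j := fun x => by field_simp
    simp only [this]
    rw [Finset.sum_comm]
    simp [hv.norm]
  have h3 : ∑ x, ∑ i : Fin q, (v x i - (∑ j, v x j) / q) ^ 2 / ((∑ j, v x j) / q) =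
      tot (chi q) v := by
    unfold tot chi
    exact Finset.sum_congr rfl fun x _ => (Finset.sum_div _ _ _).symm
  simp only [] at h1
  rw [h2, h3] at h1
  calc (1 / (2 * (q : ℝ)) * ∑ x, ∑ i, |v x i - (∑ j, v x j) / q|) ^ 2
      = (1 / (2 * (q : ℝ))) ^ 2 * (∑ x, ∑ i, |v x i - (∑ j, v x j) / q|) ^ 2 := by ring
    _ ≤ (1 / (2 * (q : ℝ))) ^ 2 * (q * tot (chi q) v) := by
        exact mul_le_mul_of_nonneg_left h1 (sq_nonneg _)
    _ = 1 / (4 * q) * tot (chi q) v := by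
        field_simp
        ring

theorem tvFam_nonneg {X : Type} [Fintype X] {q : ℕ} (hq : 0 < q) {v : X → Fin q → ℝ}
    (hv : Fam v) : 0 ≤ tvFam v := by
  rw [tvFam_eq hq hv.nonneg]
  exact mul_nonneg (by positivity)
    (Finset.sum_nonneg fun x _ => Finset.sum_nonneg fun i _ => abs_nonneg _)

theorem tvFam_le {X : Type} [Fintype X] {q : ℕ} (hq : 0 < q) {v : X → Fin q → ℝ}
    (hv : Fam v) {ε : ℝ} (hε : 0 < ε) : tvFam v ≤ ε + 1 / (16 * q * ε) * tot (chi q) v := by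
  have h1 := tvFam_sq_le hq hv
  have hq0 : (0 : ℝ) < q := by exact_mod_cast hq
  have h2 : tvFam v ≤ ε + (tvFam v) ^ 2 / (4 * ε) := by
    have : 0 ≤ (tvFam v - 2 * ε) ^ 2 / (4 * ε) := by positivity
    have h3 : (tvFam v - 2 * ε) ^ 2 / (4 * ε) = (tvFam v) ^ 2 / (4 * ε) - tvFam v + ε := by
      field_simp
      ring
    linarith
  have h3 : (tvFam v) ^ 2 / (4 * ε) ≤ (1 / (4 * q) * tot (chi q) v) / (4 * ε) := by
    gcongr
  have h4 : (1 / (4 * (q : ℝ)) * tot (chi q) v) / (4 * ε) = 1 / (16 * q * ε) * tot (chi q) v := by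
    field_simp
    ring
  linarith

end Vale.Agent.H17.P154
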